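import Vale.Agent.Lib.P335.GraphBase

/-!
Three vertex pairs on a triple of vertices: the fibre of the map forgetting all cells at the
triple is a table with three rows and one extra column; the three-row theorem applies.
-/

namespace Vale.Agent.Lib.P335

open Finset BigOperators

variable {n : ℕ} {d : Fin n → ℕ}

/-- The extended row of `c`: its neighbours outside `W`, together with the extra column `star`
exactly when the cell `ab` is absent. -/
def extRow (W : Finset (Fin n)) (star c a b : Fin n) (G : EdgeSet n) : Finset (Fin n) :=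
  (nbrs G c \ W) ∪ (if s(a, b) ∈ G then ∅ else {star})

theorem mem_extRow {W : Finset (Fin n)} {star c a b j : Fin n} {G : EdgeSet n} :
    j ∈ extRow W star c a b G ↔ (j ∉ W ∧ s(c, j) ∈ G) ∨ (j = star ∧ s(a, b) ∉ G) := by
  unfold extRow
  rw [Finset.mem_union, Finset.mem_sdiff, mem_nbrs, and_comm (a := s(c, j) ∈ G)]
  split_ifs with h <;> simp [h]

theorem offP_iff_ext {W : Finset (Fin n)} {star a b c : Fin n}
    (hW : ∀ v, v ∈ W ↔ v = a ∨ v = b ∨ v = c) (hstar : star ∈ W) (hac : c ≠ a) (hbc : c ≠ b)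
    {V G : EdgeSet n} (hV : ∀ x, s(x, x) ∉ V) (hG : ∀ x, s(x, x) ∉ G) :
    offP a b V = offP a b G ↔ (∀ u v, u ∉ W → v ∉ W → (s(u, v) ∈ V ↔ s(u, v) ∈ G)) ∧
      extRow W star c a b V = extRow W star c a b G := by
  rw [offP_eq_iff]
  have hnot : ∀ v, v ∉ W ↔ v ≠ a ∧ v ≠ b ∧ v ≠ c := by
    intro v
    rw [hW]
    tauto
  constructor
  · rintro ⟨h1, h2⟩
    refine ⟨?_, ?_⟩
    · intro u v hu hv
      have hu' := (hnot u).mp hu
      have hv' := (hnot v).mp hv
      exact h2 u v hu'.1 hu'.2.1 hv'.1 hv'.2.1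
    · ext j
      rw [mem_extRow, mem_extRow, h1]
      by_cases hj : j ∈ W
      · simp [hj]
      · have hj' := (hnot j).mp hj
        simp only [hj, not_false_eq_true, true_and]
        have hstar' : j ≠ star := fun e => hj (e ▸ hstar)
        simp only [hstar', false_and, or_false]
        exact h2 c j hac hbc hj'.1 hj'.2.1
  · rintro ⟨h1, h2⟩
    have hcell : s(a, b) ∈ V ↔ s(a, b) ∈ G := by
      have := Finset.ext_iff.mp h2 star
      simp only [mem_extRow, hstar, not_true_eq_false, false_and, false_or, true_and] at this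
      exact not_iff_not.mp this
    have hrow : ∀ j, j ∉ W → (s(c, j) ∈ V ↔ s(c, j) ∈ G) := by
      intro j hj
      have := Finset.ext_iff.mp h2 j
      have hstar' : j ≠ star := fun e => hj (e ▸ hstar)
      simpa [mem_extRow, hj, hstar'] using this
    refine ⟨hcell, ?_⟩
    intro u v h3 h4 h5 h6
    by_cases hu : u = c
    · subst hu
      by_cases hv : v = u
      · subst hv
        exact iff_of_false (hV _) (hG _)
      · exact hrow v ((hnot v).mpr ⟨h5, h6, hv⟩)
    · by_cases hv : v = c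
      · subst hv
        rw [Sym2.eq_swap]
        exact hrow u ((hnot u).mpr ⟨h3, h4, hu⟩)
      · exact h1 u v ((hnot u).mpr ⟨h3, h4, hu⟩) ((hnot v).mpr ⟨h5, h6, hv⟩)

/-- On a fibre, the block complement is the complement of the extended row. -/
theorem cQ_fibre_graph {W : Finset (Fin n)} {star a b c : Fin n}
    (hW : ∀ v, v ∈ W ↔ v = a ∨ v = b ∨ v = c) (hstar : star ∈ W) (hac : c ≠ a) (hbc : c ≠ b)
    {T₀ T : EdgeSet n} (Sz : Finset (EdgeSet n))
    (hSz : ∀ V, V ∈ Sz ↔ V ∈ Omega d ∧ ∀ u v, u ∉ W → v ∉ W → (s(u, v) ∈ V ↔ s(u, v) ∈ T₀))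
    (hT : T ∈ Sz) (f : EdgeSet n → ℝ) :
    cQ (Omega d) (offP a b) f T = cQ Sz (extRow W star c a b) f T := by
  have hT1 := (hSz T).mp hT
  have e : (Omega d).filter (fun V => offP a b V = offP a b T)
      = Sz.filter (fun V => extRow W star c a b V = extRow W star c a b T) := by
    ext V
    rw [Finset.mem_filter, Finset.mem_filter, hSz]
    constructor
    · rintro ⟨h0, h⟩
      rw [offP_iff_ext hW hstar hac hbc (irrefl_of_Omega h0) (irrefl_of_Omega hT1.1)] at h
      exact ⟨⟨h0, fun u v hu hv => (h.1 u v hu hv).trans (hT1.2 u v hu hv)⟩, h.2⟩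
    · rintro ⟨⟨h0, h1⟩, h2⟩
      refine ⟨h0, ?_⟩
      rw [offP_iff_ext hW hstar hac hbc (irrefl_of_Omega h0) (irrefl_of_Omega hT1.1)]
      exact ⟨fun u v hu hv => (h1 u v hu hv).trans (hT1.2 u v hu hv).symm, h2⟩
  unfold cQ cond
  rw [e]

section Counts

variable {W : Finset (Fin n)} {a b c : Fin n}

/-- Degree of `c` through the triple. -/
theorem card_nbrs_triple (hW : ∀ v, v ∈ W ↔ v = a ∨ v = b ∨ v = c) (hab : a ≠ b) {G : EdgeSet n}
    (hG : ∀ x, s(x, x) ∉ G) :
    (nbrs G c).card = (nbrs G c \ W).card + (if s(c, a) ∈ G then 1 else 0)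
      + (if s(c, b) ∈ G then 1 else 0) := by
  have e : nbrs G c ∩ W = (if s(c, a) ∈ G then {a} else ∅) ∪ (if s(c, b) ∈ G then {b} else ∅) := by
    ext v
    rw [Finset.mem_inter, mem_nbrs, hW, Finset.mem_union]
    have e1 : v ∈ (if s(c, a) ∈ G then ({a} : Finset (Fin n)) else ∅) ↔ (v = a ∧ s(c, a) ∈ G) := by
      split_ifs with h <;> simp [h]
    have e2 : v ∈ (if s(c, b) ∈ G then ({b} : Finset (Fin n)) else ∅) ↔ (v = b ∧ s(c, b) ∈ G) := by
      split_ifs with h <;> simp [h]
    rw [e1, e2]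
    constructor
    · rintro ⟨h3, h4 | h4 | h4⟩
      · subst h4; exact Or.inl ⟨rfl, h3⟩
      · subst h4; exact Or.inr ⟨rfl, h3⟩
      · subst h4; exact absurd h3 (hG _)
    · rintro (⟨rfl, h⟩ | ⟨rfl, h⟩)
      · exact ⟨h, Or.inl rfl⟩
      · exact ⟨h, Or.inr (Or.inl rfl)⟩
  have hdis : Disjoint (if s(c, a) ∈ G then ({a} : Finset (Fin n)) else ∅)
      (if s(c, b) ∈ G then ({b} : Finset (Fin n)) else ∅) := by
    split_ifs <;> simp [hab]
  have c1 : (if s(c, a) ∈ G then ({a} : Finset (Fin n)) else ∅).card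
      = if s(c, a) ∈ G then 1 else 0 := by
    split_ifs <;> simp
  have c2 : (if s(c, b) ∈ G then ({b} : Finset (Fin n)) else ∅).card
      = if s(c, b) ∈ G then 1 else 0 := by
    split_ifs <;> simp
  rw [row_split W G c, e, Finset.card_union_of_disjoint hdis, c1, c2]
  omega

/-- Row count of the extended row. -/
theorem extRow_card (hW : ∀ v, v ∈ W ↔ v = a ∨ v = b ∨ v = c) (hab : a ≠ b) {star : Fin n}
    (hstar : star ∈ W) {G : EdgeSet n} (hG : G ∈ Omega d) :
    (extRow W star c a b G).card + (if s(a, b) ∈ G then 1 else 0) + (if s(c, a) ∈ G then 1 else 0)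
      + (if s(c, b) ∈ G then 1 else 0) = d c + 1 := by
  have h1 := card_nbrs_triple hW hab (irrefl_of_Omega hG)
  rw [(mem_Omega.mp hG).2 c] at h1
  have h2 : (extRow W star c a b G).card
      = (nbrs G c \ W).card + (if s(a, b) ∈ G then 0 else 1) := by
    unfold extRow
    rw [Finset.card_union_of_disjoint]
    · split_ifs <;> simp
    · split_ifs
      · simp
      · simp only [Finset.disjoint_singleton_right, Finset.mem_sdiff, not_and, not_not]
        exact fun _ => hstar
  rw [h2]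
  split_ifs at h1 ⊢ <;> omega

end Counts

/-- Number of cells of `G` on the triangle. -/
def triCount (x y z : Fin n) (G : EdgeSet n) : ℕ :=
  (if s(y, z) ∈ G then 1 else 0) + (if s(x, z) ∈ G then 1 else 0) + (if s(x, y) ∈ G then 1 else 0)

section Triple

variable {x y z : Fin n}

theorem card_inter_triple (hxy : x ≠ y) (hxz : x ≠ z) (hyz : y ≠ z) (G : EdgeSet n) (j : Fin n) :
    (nbrs G j ∩ {x, y, z}).card = (if s(j, x) ∈ G then 1 else 0) + (if s(j, y) ∈ G then 1 else 0)
      + (if s(j, z) ∈ G then 1 else 0) := by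
  have e : nbrs G j ∩ {x, y, z} = ({x, y, z} : Finset (Fin n)).filter (fun v => s(j, v) ∈ G) := by
    ext v
    simp [mem_nbrs, and_comm]
  rw [e, Finset.card_filter, Finset.sum_insert (by simp [hxy, hxz]),
    Finset.sum_insert (by simp [hyz]), Finset.sum_singleton]
  ring

/-- The number of triangle cells is constant on a fibre. -/
theorem tri_inv (hxy : x ≠ y) (hxz : x ≠ z) (hyz : y ≠ z) {G G₀ : EdgeSet n} (hG : G ∈ Omega d)
    (hG₀ : G₀ ∈ Omega d)
    (h : ∀ u v, u ∉ ({x, y, z} : Finset (Fin n)) → v ∉ ({x, y, z} : Finset (Fin n)) →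
      (s(u, v) ∈ G ↔ s(u, v) ∈ G₀)) :
    triCount x y z G = triCount x y z G₀ := by
  set W : Finset (Fin n) := {x, y, z} with hWdef
  have hd := (mem_Omega.mp hG).2
  have hd₀ := (mem_Omega.mp hG₀).2
  -- total outside degree of the triple agrees
  have hout : ∀ j, j ∉ W → (nbrs G j ∩ W).card = (nbrs G₀ j ∩ W).card := by
    intro j hj
    have e1 := row_split W G j
    have e2 := row_split W G₀ j
    have e3 : nbrs G j \ W = nbrs G₀ j \ W := by
      ext v
      simp only [Finset.mem_sdiff, mem_nbrs]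
      constructor
      · rintro ⟨h1, h2⟩
        exact ⟨(h j v hj h2).mp h1, h2⟩
      · rintro ⟨h1, h2⟩
        exact ⟨(h j v hj h2).mpr h1, h2⟩
    rw [hd j] at e1
    rw [hd₀ j] at e2
    rw [e3] at e1
    omega
  have hsum1 := sum_split_eq W G
  have hsum2 := sum_split_eq W G₀
  have hc : ∑ j ∈ Wᶜ, (nbrs G j ∩ W).card = ∑ j ∈ Wᶜ, (nbrs G₀ j ∩ W).card :=
    Finset.sum_congr rfl (fun j hj => hout j (Finset.mem_compl.mp hj))
  simp only [hd, hd₀] at hsum1 hsum2
  have hexp : ∀ F : EdgeSet n, F ∈ Omega d → ∑ v ∈ W, (nbrs F v ∩ W).card = 2 * triCount x y z F := by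
    intro F hF
    have hirr := irrefl_of_Omega hF
    rw [hWdef, Finset.sum_insert (by simp [hxy, hxz]), Finset.sum_insert (by simp [hyz]),
      Finset.sum_singleton, card_inter_triple hxy hxz hyz, card_inter_triple hxy hxz hyz,
      card_inter_triple hxy hxz hyz]
    unfold triCount
    rw [Sym2.eq_swap (a := y) (b := x), Sym2.eq_swap (a := z) (b := x),
      Sym2.eq_swap (a := z) (b := y)]
    simp only [hirr, if_false]
    omega
  rw [hexp G hG] at hsum1
  rw [hexp G₀ hG₀] at hsum2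
  omega

/-- The three extended rows of a triple; the extra column is labelled `x`. -/
def rhoT (x y z : Fin n) (p : Fin 3) (G : EdgeSet n) : Finset (Fin n) :=
  ![extRow {x, y, z} x x y z G, extRow {x, y, z} x y x z G, extRow {x, y, z} x z x y G] p

theorem hW0 (v : Fin n) : v ∈ ({x, y, z} : Finset (Fin n)) ↔ v = y ∨ v = z ∨ v = x := by
  simp; tauto

theorem hW1 (v : Fin n) : v ∈ ({x, y, z} : Finset (Fin n)) ↔ v = x ∨ v = z ∨ v = y := by
  simp; tauto

theorem hW2 (v : Fin n) : v ∈ ({x, y, z} : Finset (Fin n)) ↔ v = x ∨ v = y ∨ v = z := by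
  simp

theorem rhoT_card_add (hxy : x ≠ y) (hxz : x ≠ z) (hyz : y ≠ z) {G : EdgeSet n} (hG : G ∈ Omega d) :
    (rhoT x y z 0 G).card + triCount x y z G = d x + 1 ∧
    (rhoT x y z 1 G).card + triCount x y z G = d y + 1 ∧
    (rhoT x y z 2 G).card + triCount x y z G = d z + 1 := by
  have hs : x ∈ ({x, y, z} : Finset (Fin n)) := by simp
  have h0 := extRow_card (c := x) hW0 hyz hs hG
  have h1 := extRow_card (c := y) hW1 hxz hs hG
  have h2 := extRow_card (c := z) hW2 hxy hs hG
  rw [Sym2.eq_swap (a := y) (b := x)] at h1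
  rw [Sym2.eq_swap (a := z) (b := x), Sym2.eq_swap (a := z) (b := y)] at h2
  refine ⟨?_, ?_, ?_⟩
  · show (extRow {x, y, z} x x y z G).card + _ = _
    unfold triCount
    omega
  · show (extRow {x, y, z} x y x z G).card + _ = _
    unfold triCount
    omega
  · show (extRow {x, y, z} x z x y G).card + _ = _
    unfold triCount
    omega

/-- Column counts of the three extended rows. -/
theorem rhoT_col (hxy : x ≠ y) (hxz : x ≠ z) (hyz : y ≠ z) (G : EdgeSet n) (j : Fin n) :
    (univ.filter (fun p => j ∈ rhoT x y z p G)).card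
      = if j = x then 3 - triCount x y z G
        else if j = y ∨ j = z then 0 else (nbrs G j ∩ {x, y, z}).card := by
  have hc : (univ.filter (fun p => j ∈ rhoT x y z p G)).card
      = (if j ∈ extRow {x, y, z} x x y z G then 1 else 0)
        + (if j ∈ extRow {x, y, z} x y x z G then 1 else 0)
        + (if j ∈ extRow {x, y, z} x z x y G then 1 else 0) := by
    rw [Finset.card_filter, Fin.sum_univ_three]
    rfl
  rw [hc]
  simp only [mem_extRow]
  by_cases h1 : j = x
  · subst h1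
    have hmem : j ∈ ({j, y, z} : Finset (Fin n)) := by simp
    simp only [hmem, not_true_eq_false, false_and, true_and, false_or, if_true]
    unfold triCount
    by_cases a1 : s(y, z) ∈ G <;> by_cases a2 : s(j, z) ∈ G <;> by_cases a3 : s(j, y) ∈ G <;>
      simp [a1, a2, a3]
  by_cases h2 : j = y
  · subst h2
    simp [Ne.symm hxy]
  by_cases h3 : j = z
  · subst h3
    simp [Ne.symm hxz, Ne.symm hyz]
  · have hmem : j ∉ ({x, y, z} : Finset (Fin n)) := by simp [h1, h2, h3]
    simp only [hmem, not_false_eq_true, true_and, h1, false_and, or_false, if_false]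
    rw [if_neg (not_or.mpr ⟨h2, h3⟩), card_inter_triple hxy hxz hyz]
    rw [Sym2.eq_swap (a := x) (b := j), Sym2.eq_swap (a := y) (b := j),
      Sym2.eq_swap (a := z) (b := j)]

/-- Rebuild a graph on a fibre from three extended rows. -/
def rebuild (T₀ : EdgeSet n) (x y z : Fin n) (A : Fin 3 → Finset (Fin n)) : EdgeSet n :=
  (T₀ \ cellsT x y z) ∪ ((A 0 \ {x, y, z}).image (fun j => s(x, j)))
    ∪ ((A 1 \ {x, y, z}).image (fun j => s(y, j))) ∪ ((A 2 \ {x, y, z}).image (fun j => s(z, j)))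
    ∪ (if x ∈ A 0 then ∅ else {s(y, z)}) ∪ (if x ∈ A 1 then ∅ else {s(x, z)})
    ∪ (if x ∈ A 2 then ∅ else {s(x, y)})

theorem mem_rebuild {T₀ : EdgeSet n} {A : Fin 3 → Finset (Fin n)} {e : Sym2 (Fin n)} :
    e ∈ rebuild T₀ x y z A ↔ (e ∈ T₀ ∧ ¬ (x ∈ e ∨ y ∈ e ∨ z ∈ e))
      ∨ (∃ j, (j ∈ A 0 ∧ j ∉ ({x, y, z} : Finset (Fin n))) ∧ s(x, j) = e)
      ∨ (∃ j, (j ∈ A 1 ∧ j ∉ ({x, y, z} : Finset (Fin n))) ∧ s(y, j) = e)
      ∨ (∃ j, (j ∈ A 2 ∧ j ∉ ({x, y, z} : Finset (Fin n))) ∧ s(z, j) = e)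
      ∨ (x ∉ A 0 ∧ e = s(y, z)) ∨ (x ∉ A 1 ∧ e = s(x, z)) ∨ (x ∉ A 2 ∧ e = s(x, y)) := by
  unfold rebuild cellsT
  have e1 : ∀ (b : Prop) [Decidable b] (t : Sym2 (Fin n)),
      (e ∈ (if b then (∅ : EdgeSet n) else {t})) ↔ (¬ b ∧ e = t) := by
    intro b _ t
    split_ifs with h <;> simp [h]
  simp only [Finset.mem_union, Finset.mem_sdiff, Finset.mem_filter, Finset.mem_univ, true_and,
    Finset.mem_image, e1, or_assoc]

section Rebuild

variable {T₀ : EdgeSet n} {A : Fin 3 → Finset (Fin n)}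

theorem rebuild_off {u v : Fin n} (hu : u ∉ ({x, y, z} : Finset (Fin n)))
    (hv : v ∉ ({x, y, z} : Finset (Fin n))) :
    s(u, v) ∈ rebuild T₀ x y z A ↔ s(u, v) ∈ T₀ := by
  simp only [Finset.mem_insert, Finset.mem_singleton, not_or] at hu hv
  rw [mem_rebuild]
  simp [Sym2.eq_iff, hu.1, hu.2.1, hu.2.2, hv.1, hv.2.1, hv.2.2, Ne.symm hu.1, Ne.symm hu.2.1,
    Ne.symm hu.2.2, Ne.symm hv.1, Ne.symm hv.2.1, Ne.symm hv.2.2]

theorem rebuild_row0 (hxy : x ≠ y) (hxz : x ≠ z) (hyz : y ≠ z) {j : Fin n}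
    (hj : j ∉ ({x, y, z} : Finset (Fin n))) : s(x, j) ∈ rebuild T₀ x y z A ↔ j ∈ A 0 := by
  have hj' := hj
  simp only [Finset.mem_insert, Finset.mem_singleton, not_or] at hj'
  obtain ⟨j1, j2, j3⟩ := hj'
  rw [mem_rebuild]
  constructor
  · rintro (⟨_, h⟩ | ⟨k, ⟨h1, _⟩, h2⟩ | ⟨k, _, h2⟩ | ⟨k, _, h2⟩ | ⟨_, h2⟩ | ⟨_, h2⟩ | ⟨_, h2⟩)
    · simp at h
    · rw [Sym2.congr_right.mp h2] at h1
      exact h1
    all_goals
      simp only [Sym2.eq_iff] at h2
      omega
  · intro h
    exact Or.inr (Or.inl ⟨j, ⟨h, hj⟩, rfl⟩)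

theorem rebuild_row1 (hxy : x ≠ y) (hxz : x ≠ z) (hyz : y ≠ z) {j : Fin n}
    (hj : j ∉ ({x, y, z} : Finset (Fin n))) : s(y, j) ∈ rebuild T₀ x y z A ↔ j ∈ A 1 := by
  have hj' := hj
  simp only [Finset.mem_insert, Finset.mem_singleton, not_or] at hj'
  obtain ⟨j1, j2, j3⟩ := hj'
  rw [mem_rebuild]
  constructor
  · rintro (⟨_, h⟩ | ⟨k, _, h2⟩ | ⟨k, ⟨h1, _⟩, h2⟩ | ⟨k, _, h2⟩ | ⟨_, h2⟩ | ⟨_, h2⟩ | ⟨_, h2⟩)
    · simp at h
    · simp only [Sym2.eq_iff] at h2
      omega
    · rw [Sym2.congr_right.mp h2] at h1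
      exact h1
    all_goals
      simp only [Sym2.eq_iff] at h2
      omega
  · intro h
    exact Or.inr (Or.inr (Or.inl ⟨j, ⟨h, hj⟩, rfl⟩))

theorem rebuild_row2 (hxy : x ≠ y) (hxz : x ≠ z) (hyz : y ≠ z) {j : Fin n}
    (hj : j ∉ ({x, y, z} : Finset (Fin n))) : s(z, j) ∈ rebuild T₀ x y z A ↔ j ∈ A 2 := by
  have hj' := hj
  simp only [Finset.mem_insert, Finset.mem_singleton, not_or] at hj'
  obtain ⟨j1, j2, j3⟩ := hj'
  rw [mem_rebuild]
  constructor
  · rintro (⟨_, h⟩ | ⟨k, _, h2⟩ | ⟨k, _, h2⟩ | ⟨k, ⟨h1, _⟩, h2⟩ | ⟨_, h2⟩ | ⟨_, h2⟩ | ⟨_, h2⟩)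
    · simp at h
    · simp only [Sym2.eq_iff] at h2
      omega
    · simp only [Sym2.eq_iff] at h2
      omega
    · rw [Sym2.congr_right.mp h2] at h1
      exact h1
    all_goals
      simp only [Sym2.eq_iff] at h2
      omega
  · intro h
    exact Or.inr (Or.inr (Or.inr (Or.inl ⟨j, ⟨h, hj⟩, rfl⟩)))

/-- Cells with both ends in the triple: only the three triangle edges may occur. -/
theorem rebuild_tri0 (hxy : x ≠ y) (hxz : x ≠ z) (hyz : y ≠ z) :
    s(y, z) ∈ rebuild T₀ x y z A ↔ x ∉ A 0 := by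
  rw [mem_rebuild]
  constructor
  · rintro (⟨_, h⟩ | ⟨k, ⟨_, hk⟩, h2⟩ | ⟨k, ⟨_, hk⟩, h2⟩ | ⟨k, ⟨_, hk⟩, h2⟩ | ⟨h, _⟩ | ⟨_, h2⟩ | ⟨_, h2⟩)
    · simp at h
    · simp only [Finset.mem_insert, Finset.mem_singleton, not_or] at hk
      simp only [Sym2.eq_iff] at h2
      omega
    · simp only [Finset.mem_insert, Finset.mem_singleton, not_or] at hk
      simp only [Sym2.eq_iff] at h2
      omega
    · simp only [Finset.mem_insert, Finset.mem_singleton, not_or] at hk
      simp only [Sym2.eq_iff] at h2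
      omega
    · exact h
    · simp only [Sym2.eq_iff] at h2
      omega
    · simp only [Sym2.eq_iff] at h2
      omega
  · intro h
    exact Or.inr (Or.inr (Or.inr (Or.inr (Or.inl ⟨h, rfl⟩))))

theorem rebuild_tri1 (hxy : x ≠ y) (hxz : x ≠ z) (hyz : y ≠ z) :
    s(x, z) ∈ rebuild T₀ x y z A ↔ x ∉ A 1 := by
  rw [mem_rebuild]
  constructor
  · rintro (⟨_, h⟩ | ⟨k, ⟨_, hk⟩, h2⟩ | ⟨k, ⟨_, hk⟩, h2⟩ | ⟨k, ⟨_, hk⟩, h2⟩ | ⟨_, h2⟩ | ⟨h, _⟩ | ⟨_, h2⟩)
    · simp at h
    · simp only [Finset.mem_insert, Finset.mem_singleton, not_or] at hk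
      simp only [Sym2.eq_iff] at h2
      omega
    · simp only [Finset.mem_insert, Finset.mem_singleton, not_or] at hk
      simp only [Sym2.eq_iff] at h2
      omega
    · simp only [Finset.mem_insert, Finset.mem_singleton, not_or] at hk
      simp only [Sym2.eq_iff] at h2
      omega
    · simp only [Sym2.eq_iff] at h2
      omega
    · exact h
    · simp only [Sym2.eq_iff] at h2
      omega
  · intro h
    exact Or.inr (Or.inr (Or.inr (Or.inr (Or.inr (Or.inl ⟨h, rfl⟩)))))

theorem rebuild_tri2 (hxy : x ≠ y) (hxz : x ≠ z) (hyz : y ≠ z) :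
    s(x, y) ∈ rebuild T₀ x y z A ↔ x ∉ A 2 := by
  rw [mem_rebuild]
  constructor
  · rintro (⟨_, h⟩ | ⟨k, ⟨_, hk⟩, h2⟩ | ⟨k, ⟨_, hk⟩, h2⟩ | ⟨k, ⟨_, hk⟩, h2⟩ | ⟨_, h2⟩ | ⟨_, h2⟩ | ⟨h, _⟩)
    · simp at h
    · simp only [Finset.mem_insert, Finset.mem_singleton, not_or] at hk
      simp only [Sym2.eq_iff] at h2
      omega
    · simp only [Finset.mem_insert, Finset.mem_singleton, not_or] at hk
      simp only [Sym2.eq_iff] at h2
      omega
    · simp only [Finset.mem_insert, Finset.mem_singleton, not_or] at hk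
      simp only [Sym2.eq_iff] at h2
      omega
    · simp only [Sym2.eq_iff] at h2
      omega
    · simp only [Sym2.eq_iff] at h2
      omega
    · exact h
  · intro h
    exact Or.inr (Or.inr (Or.inr (Or.inr (Or.inr (Or.inr ⟨h, rfl⟩)))))

theorem rebuild_loop (hT₀ : ∀ v, s(v, v) ∉ T₀) (hxy : x ≠ y) (hxz : x ≠ z) (hyz : y ≠ z) (v : Fin n) :
    s(v, v) ∉ rebuild T₀ x y z A := by
  rw [mem_rebuild]
  rintro (⟨h, _⟩ | ⟨k, ⟨_, hk⟩, h2⟩ | ⟨k, ⟨_, hk⟩, h2⟩ | ⟨k, ⟨_, hk⟩, h2⟩ | ⟨_, h2⟩ | ⟨_, h2⟩ | ⟨_, h2⟩)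
  · exact hT₀ v h
  · simp only [Finset.mem_insert, Finset.mem_singleton, not_or] at hk
    rw [Sym2.eq_iff] at h2
    rcases h2 with ⟨h3, h4⟩ | ⟨h3, h4⟩
    · exact hk.1 (h4.trans h3.symm)
    · exact hk.1 (h3.trans h4.symm).symm
  · simp only [Finset.mem_insert, Finset.mem_singleton, not_or] at hk
    rw [Sym2.eq_iff] at h2
    rcases h2 with ⟨h3, h4⟩ | ⟨h3, h4⟩
    · exact hk.2.1 (h4.trans h3.symm)
    · exact hk.2.1 (h3.trans h4.symm).symm
  · simp only [Finset.mem_insert, Finset.mem_singleton, not_or] at hk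
    rw [Sym2.eq_iff] at h2
    rcases h2 with ⟨h3, h4⟩ | ⟨h3, h4⟩
    · exact hk.2.2 (h4.trans h3.symm)
    · exact hk.2.2 (h3.trans h4.symm).symm
  · rw [Sym2.eq_iff] at h2
    rcases h2 with ⟨h3, h4⟩ | ⟨h3, h4⟩
    · exact hyz (h3.symm.trans h4)
    · exact hyz (h4.symm.trans h3)
  · rw [Sym2.eq_iff] at h2
    rcases h2 with ⟨h3, h4⟩ | ⟨h3, h4⟩
    · exact hxz (h3.symm.trans h4)
    · exact hxz (h4.symm.trans h3)
  · rw [Sym2.eq_iff] at h2
    rcases h2 with ⟨h3, h4⟩ | ⟨h3, h4⟩
    · exact hxy (h3.symm.trans h4)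
    · exact hxy (h4.symm.trans h3)

end Rebuild

theorem triCount_le (G : EdgeSet n) : triCount x y z G ≤ 3 := by
  unfold triCount
  split_ifs <;> omega

/-- Outside the triple, the number of neighbours inside the triple agrees on a fibre. -/
theorem out_inter_eq {W : Finset (Fin n)} {G G₀ : EdgeSet n} (hG : G ∈ Omega d) (hG₀ : G₀ ∈ Omega d)
    (h : ∀ u v, u ∉ W → v ∉ W → (s(u, v) ∈ G ↔ s(u, v) ∈ G₀)) {j : Fin n} (hj : j ∉ W) :
    (nbrs G j ∩ W).card = (nbrs G₀ j ∩ W).card := by
  have e1 := row_split W G j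
  have e2 := row_split W G₀ j
  have e3 : nbrs G j \ W = nbrs G₀ j \ W := by
    ext v
    simp only [Finset.mem_sdiff, mem_nbrs]
    constructor
    · rintro ⟨h1, h2⟩
      exact ⟨(h j v hj h2).mp h1, h2⟩
    · rintro ⟨h1, h2⟩
      exact ⟨(h j v hj h2).mpr h1, h2⟩
  rw [(mem_Omega.mp hG).2 j] at e1
  rw [(mem_Omega.mp hG₀).2 j] at e2
  rw [e3] at e1
  omega

/-- Agreement off the triple in terms of the map forgetting the cells at the triple. -/
theorem offT_iff {G G' : EdgeSet n} :
    offT x y z G = offT x y z G' ↔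
      ∀ u v, u ∉ ({x, y, z} : Finset (Fin n)) → v ∉ ({x, y, z} : Finset (Fin n)) →
        (s(u, v) ∈ G ↔ s(u, v) ∈ G') := by
  rw [offT_eq_iff]
  constructor
  · intro h u v hu hv
    simp only [Finset.mem_insert, Finset.mem_singleton, not_or] at hu hv
    exact h u v hu.1 hu.2.1 hu.2.2 hv.1 hv.2.1 hv.2.2
  · intro h u v h1 h2 h3 h4 h5 h6
    exact h u v (by simp [h1, h2, h3]) (by simp [h4, h5, h6])

/-- Rows of a table with the extra column: removing the triple. -/
theorem card_sdiff_triple {B : Finset (Fin n)} (hy : y ∉ B) (hz : z ∉ B) :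
    (B \ {x, y, z}).card + (if x ∈ B then 1 else 0) = B.card := by
  have e : B ∩ {x, y, z} = if x ∈ B then {x} else ∅ := by
    ext v
    simp only [Finset.mem_inter, Finset.mem_insert, Finset.mem_singleton]
    split_ifs with h
    · simp only [Finset.mem_singleton]
      constructor
      · rintro ⟨h1, h2 | h2 | h2⟩
        · exact h2
        · exact absurd (h2 ▸ h1) hy
        · exact absurd (h2 ▸ h1) hz
      · rintro rfl
        exact ⟨h, Or.inl rfl⟩
    · simp only [Finset.notMem_empty, iff_false, not_and]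
      rintro h1 (h2 | h2 | h2)
      · exact h (h2 ▸ h1)
      · exact hy (h2 ▸ h1)
      · exact hz (h2 ▸ h1)
  have h1 := Finset.card_sdiff_add_card_inter B {x, y, z}
  rw [e] at h1
  split_ifs at h1 ⊢ <;> simp at h1 <;> omega

/-- The fibre of the triple is exactly a set of three-row tables. -/
theorem fibre_image (hxy : x ≠ y) (hxz : x ≠ z) (hyz : y ≠ z) {T₀ : EdgeSet n} (hT₀ : T₀ ∈ Omega d) :
    ((Omega d).filter (fun G => offT x y z G = offT x y z T₀)).image (fun G p => rhoT x y z p G)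
      = ThreeRow (fun p => (rhoT x y z p T₀).card)
          (fun j => (univ.filter (fun p => j ∈ rhoT x y z p T₀)).card) := by
  ext A
  rw [mem_ThreeRow, Finset.mem_image]
  obtain ⟨r0, r1, r2⟩ := rhoT_card_add (d := d) hxy hxz hyz hT₀
  constructor
  · rintro ⟨G, hG, rfl⟩
    have hG1 := (Finset.mem_filter.mp hG).1
    have hag := offT_iff.mp (Finset.mem_filter.mp hG).2
    have htri := tri_inv hxy hxz hyz hG1 hT₀ hag
    obtain ⟨g0, g1, g2⟩ := rhoT_card_add (d := d) hxy hxz hyz hG1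
    constructor
    · intro p
      fin_cases p
      · show (rhoT x y z 0 G).card = (rhoT x y z 0 T₀).card
        omega
      · show (rhoT x y z 1 G).card = (rhoT x y z 1 T₀).card
        omega
      · show (rhoT x y z 2 G).card = (rhoT x y z 2 T₀).card
        omega
    · intro j
      rw [rhoT_col hxy hxz hyz G j, rhoT_col hxy hxz hyz T₀ j, htri]
      split_ifs with h1 h2
      · rfl
      · rfl
      · apply out_inter_eq hG1 hT₀ hag
        simp only [Finset.mem_insert, Finset.mem_singleton, not_or]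
        push Not at h2
        exact ⟨h1, h2.1, h2.2⟩
  · rintro ⟨h1, h2⟩
    have c0 : ∀ p, y ∉ A p := by
      intro p hp
      have := h2 y
      rw [rhoT_col hxy hxz hyz T₀ y, if_neg (Ne.symm hxy), if_pos (Or.inl rfl)] at this
      have hm : p ∈ univ.filter (fun p => y ∈ A p) := by simp [hp]
      rw [Finset.card_eq_zero.mp this] at hm
      simp at hm
    have c1 : ∀ p, z ∉ A p := by
      intro p hp
      have := h2 z
      rw [rhoT_col hxy hxz hyz T₀ z, if_neg (Ne.symm hxz), if_pos (Or.inr rfl)] at this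
      have hm : p ∈ univ.filter (fun p => z ∈ A p) := by simp [hp]
      rw [Finset.card_eq_zero.mp this] at hm
      simp at hm
    have hcount : ∀ j, (univ.filter (fun p => j ∈ A p)).card
        = (if j ∈ A 0 then 1 else 0) + (if j ∈ A 1 then 1 else 0) + (if j ∈ A 2 then 1 else 0) := by
      intro j
      rw [Finset.card_filter, Fin.sum_univ_three]
    have cx := h2 x
    rw [rhoT_col hxy hxz hyz T₀ x, if_pos rfl, hcount x] at cx
    have ht3 := triCount_le (x := x) (y := y) (z := z) T₀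
    have hirr₀ := irrefl_of_Omega hT₀
    set G := rebuild T₀ x y z A with hGdef
    have hGloop : ∀ v, s(v, v) ∉ G := rebuild_loop hirr₀ hxy hxz hyz
    have hs0 : nbrs G x \ {x, y, z} = A 0 \ {x, y, z} := by
      ext v
      simp only [Finset.mem_sdiff, mem_nbrs]
      constructor
      · rintro ⟨h3, h4⟩
        exact ⟨(rebuild_row0 hxy hxz hyz h4).mp h3, h4⟩
      · rintro ⟨h3, h4⟩
        exact ⟨(rebuild_row0 hxy hxz hyz h4).mpr h3, h4⟩
    have hs1 : nbrs G y \ {x, y, z} = A 1 \ {x, y, z} := by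
      ext v
      simp only [Finset.mem_sdiff, mem_nbrs]
      constructor
      · rintro ⟨h3, h4⟩
        exact ⟨(rebuild_row1 hxy hxz hyz h4).mp h3, h4⟩
      · rintro ⟨h3, h4⟩
        exact ⟨(rebuild_row1 hxy hxz hyz h4).mpr h3, h4⟩
    have hs2 : nbrs G z \ {x, y, z} = A 2 \ {x, y, z} := by
      ext v
      simp only [Finset.mem_sdiff, mem_nbrs]
      constructor
      · rintro ⟨h3, h4⟩
        exact ⟨(rebuild_row2 hxy hxz hyz h4).mp h3, h4⟩
      · rintro ⟨h3, h4⟩
        exact ⟨(rebuild_row2 hxy hxz hyz h4).mpr h3, h4⟩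
    have d0 := card_sdiff_triple (x := x) (y := y) (z := z) (c0 0) (c1 0)
    have d1 := card_sdiff_triple (x := x) (y := y) (z := z) (c0 1) (c1 1)
    have d2 := card_sdiff_triple (x := x) (y := y) (z := z) (c0 2) (c1 2)
    have a0 := h1 0
    have a1 := h1 1
    have a2 := h1 2
    have t0 : s(y, z) ∈ G ↔ x ∉ A 0 := rebuild_tri0 hxy hxz hyz
    have t1 : s(x, z) ∈ G ↔ x ∉ A 1 := rebuild_tri1 hxy hxz hyz
    have t2 : s(x, y) ∈ G ↔ x ∉ A 2 := rebuild_tri2 hxy hxz hyz
    have hdeg : ∀ v, (nbrs G v).card = d v := by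
      intro v
      by_cases hx : v = x
      · subst hx
        rw [card_nbrs_triple (c := v) hW0 hyz hGloop, hs0]
        simp only [t1, t2]
        split_ifs at d0 cx ⊢ <;> simp at cx <;> omega
      by_cases hy : v = y
      · subst hy
        rw [card_nbrs_triple (c := v) hW1 hxz hGloop, hs1, Sym2.eq_swap (a := v) (b := x)]
        simp only [t0, t2]
        split_ifs at d1 cx ⊢ <;> simp at cx <;> omega
      by_cases hz : v = z
      · subst hz
        rw [card_nbrs_triple (c := v) hW2 hxy hGloop, hs2, Sym2.eq_swap (a := v) (b := x),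
          Sym2.eq_swap (a := v) (b := y)]
        simp only [t0, t1]
        split_ifs at d2 cx ⊢ <;> simp at cx <;> omega
      · have hv : v ∉ ({x, y, z} : Finset (Fin n)) := by simp [hx, hy, hz]
        have e1 := row_split {x, y, z} G v
        have e2 := row_split {x, y, z} T₀ v
        rw [(mem_Omega.mp hT₀).2 v] at e2
        have e3 : nbrs G v \ {x, y, z} = nbrs T₀ v \ {x, y, z} := by
          ext w
          simp only [Finset.mem_sdiff, mem_nbrs]
          constructor
          · rintro ⟨h3, h4⟩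
            exact ⟨(rebuild_off hv h4).mp h3, h4⟩
          · rintro ⟨h3, h4⟩
            exact ⟨(rebuild_off hv h4).mpr h3, h4⟩
        have e4 : (nbrs G v ∩ {x, y, z}).card = (nbrs T₀ v ∩ {x, y, z}).card := by
          have e5 := h2 v
          rw [rhoT_col hxy hxz hyz T₀ v, if_neg hx, if_neg (not_or.mpr ⟨hy, hz⟩), hcount v] at e5
          rw [← e5, card_inter_triple hxy hxz hyz, Sym2.eq_swap (a := v) (b := x),
            Sym2.eq_swap (a := v) (b := y), Sym2.eq_swap (a := v) (b := z)]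
          simp only [rebuild_row0 hxy hxz hyz hv, rebuild_row1 hxy hxz hyz hv,
            rebuild_row2 hxy hxz hyz hv, hGdef]
        rw [e1, e3, e4]
        omega
    have hGO : G ∈ Omega d := by
      rw [mem_Omega]
      refine ⟨?_, hdeg⟩
      intro e he
      induction e using Sym2.ind with
      | _ u v =>
        rw [Sym2.mk_isDiag_iff]
        rintro rfl
        exact hGloop _ he
    refine ⟨G, Finset.mem_filter.mpr ⟨hGO, offT_iff.mpr (fun u v hu hv => rebuild_off hu hv)⟩, ?_⟩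
    funext p
    fin_cases p
    · show extRow {x, y, z} x x y z G = A 0
      ext j
      rw [mem_extRow, rebuild_tri0 hxy hxz hyz]
      by_cases hj : j ∈ ({x, y, z} : Finset (Fin n))
      · simp only [hj, not_true_eq_false, false_and, false_or, not_not]
        simp only [Finset.mem_insert, Finset.mem_singleton] at hj
        rcases hj with rfl | rfl | rfl
        · simp
        · simp [Ne.symm hxy, c0 0]
        · simp [Ne.symm hxz, c1 0]
      · have hjx : j ≠ x := fun e => hj (by simp [e])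
        simp only [hj, not_false_eq_true, true_and, hjx, false_and, or_false]
        exact rebuild_row0 hxy hxz hyz hj
    · show extRow {x, y, z} x y x z G = A 1
      ext j
      rw [mem_extRow, rebuild_tri1 hxy hxz hyz]
      by_cases hj : j ∈ ({x, y, z} : Finset (Fin n))
      · simp only [hj, not_true_eq_false, false_and, false_or, not_not]
        simp only [Finset.mem_insert, Finset.mem_singleton] at hj
        rcases hj with rfl | rfl | rfl
        · simp
        · simp [Ne.symm hxy, c0 1]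
        · simp [Ne.symm hxz, c1 1]
      · have hjx : j ≠ x := fun e => hj (by simp [e])
        simp only [hj, not_false_eq_true, true_and, hjx, false_and, or_false]
        exact rebuild_row1 hxy hxz hyz hj
    · show extRow {x, y, z} x z x y G = A 2
      ext j
      rw [mem_extRow, rebuild_tri2 hxy hxz hyz]
      by_cases hj : j ∈ ({x, y, z} : Finset (Fin n))
      · simp only [hj, not_true_eq_false, false_and, false_or, not_not]
        simp only [Finset.mem_insert, Finset.mem_singleton] at hj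
        rcases hj with rfl | rfl | rfl
        · simp
        · simp [Ne.symm hxy, c0 2]
        · simp [Ne.symm hxz, c1 2]
      · have hjx : j ≠ x := fun e => hj (by simp [e])
        simp only [hj, not_false_eq_true, true_and, hjx, false_and, or_false]
        exact rebuild_row2 hxy hxz hyz hj

/-- A graph of a fibre is determined by the three extended rows. -/
theorem rhoT_inj (hxy : x ≠ y) (hxz : x ≠ z) (hyz : y ≠ z) {T₀ : EdgeSet n} :
    Set.InjOn (fun G (p : Fin 3) => rhoT x y z p G)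
      (((Omega d).filter (fun G => offT x y z G = offT x y z T₀) : Finset (EdgeSet n)) :
        Set (EdgeSet n)) := by
  intro G hG G' hG' h
  have hG := Finset.mem_coe.mp hG
  have hG' := Finset.mem_coe.mp hG'
  have hG1 := (Finset.mem_filter.mp hG).1
  have hG1' := (Finset.mem_filter.mp hG').1
  have hag := offT_iff.mp (Finset.mem_filter.mp hG).2
  have hag' := offT_iff.mp (Finset.mem_filter.mp hG').2
  have hoff : ∀ u v, u ∉ ({x, y, z} : Finset (Fin n)) → v ∉ ({x, y, z} : Finset (Fin n)) →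
      (s(u, v) ∈ G ↔ s(u, v) ∈ G') := fun u v hu hv => (hag u v hu hv).trans (hag' u v hu hv).symm
  have hr : ∀ p, rhoT x y z p G = rhoT x y z p G' := fun p => congrFun h p
  have h0 : extRow {x, y, z} x x y z G = extRow {x, y, z} x x y z G' := hr 0
  have h1 : extRow {x, y, z} x y x z G = extRow {x, y, z} x y x z G' := hr 1
  have h2 : extRow {x, y, z} x z x y G = extRow {x, y, z} x z x y G' := hr 2
  have hmx : x ∉ ({x, y, z} : Finset (Fin n)) → False := fun h => h (by simp)
  have tri : ∀ {c a b : Fin n}, extRow {x, y, z} x c a b G = extRow {x, y, z} x c a b G' →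
      (s(a, b) ∈ G ↔ s(a, b) ∈ G') := by
    intro c a b he
    have := Finset.ext_iff.mp he x
    simp only [mem_extRow, Finset.mem_insert, true_or, not_true_eq_false, false_and, false_or,
      true_and] at this
    exact not_iff_not.mp this
  have row : ∀ {c a b j : Fin n}, extRow {x, y, z} x c a b G = extRow {x, y, z} x c a b G' →
      j ∉ ({x, y, z} : Finset (Fin n)) → (s(c, j) ∈ G ↔ s(c, j) ∈ G') := by
    intro c a b j he hj
    have hjx : j ≠ x := fun e => hj (by simp [e])
    have := Finset.ext_iff.mp he j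
    simpa only [mem_extRow, hj, not_false_eq_true, true_and, hjx, false_and, or_false] using this
  have hyz' := tri h0
  have hxz' := tri h1
  have hxy' := tri h2
  ext e
  induction e using Sym2.ind with
  | _ u v =>
    by_cases hu : u ∈ ({x, y, z} : Finset (Fin n))
    · by_cases hv : v ∈ ({x, y, z} : Finset (Fin n))
      · simp only [Finset.mem_insert, Finset.mem_singleton] at hu hv
        rcases hu with rfl | rfl | rfl <;> rcases hv with rfl | rfl | rfl
        · exact iff_of_false (irrefl_of_Omega hG1 _) (irrefl_of_Omega hG1' _)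
        · exact hxy'
        · exact hxz'
        · rw [Sym2.eq_swap]; exact hxy'
        · exact iff_of_false (irrefl_of_Omega hG1 _) (irrefl_of_Omega hG1' _)
        · exact hyz'
        · rw [Sym2.eq_swap]; exact hxz'
        · rw [Sym2.eq_swap]; exact hyz'
        · exact iff_of_false (irrefl_of_Omega hG1 _) (irrefl_of_Omega hG1' _)
      · simp only [Finset.mem_insert, Finset.mem_singleton] at hu
        rcases hu with rfl | rfl | rfl
        · exact row h0 hv
        · exact row h1 hv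
        · exact row h2 hv
    · by_cases hv : v ∈ ({x, y, z} : Finset (Fin n))
      · rw [Sym2.eq_swap]
        simp only [Finset.mem_insert, Finset.mem_singleton] at hv
        rcases hv with rfl | rfl | rfl
        · exact row h0 hu
        · exact row h1 hu
        · exact row h2 hu
      · exact hoff u v hu hv

/-- On a fibre of the map forgetting a triple of vertices, the star inequality holds for the three
extended rows. -/
theorem fibre_star_graph (hxy : x ≠ y) (hxz : x ≠ z) (hyz : y ≠ z) {T₀ : EdgeSet n}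
    (hT₀ : T₀ ∈ Omega d) (g : Fin 3 → Finset (Fin n) → ℝ) :
    Star ((Omega d).filter (fun G => offT x y z G = offT x y z T₀))
      (fun p G => g p (rhoT x y z p G)) := by
  have hstar := threeRow_star (fun p => (rhoT x y z p T₀).card)
    (fun j => (univ.filter (fun p => j ∈ rhoT x y z p T₀)).card) g
  rw [← fibre_image (d := d) hxy hxz hyz hT₀] at hstar
  unfold Star at hstar ⊢
  rw [var_image (rhoT_inj hxy hxz hyz)] at hstar
  simp only [var_image (rhoT_inj hxy hxz hyz)] at hstar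
  exact hstar

/-- The three overlapping cross terms on three vertices have nonnegative sum. -/
theorem cross_triple_graph (hxy : x ≠ y) (hxz : x ≠ z) (hyz : y ≠ z) (f : EdgeSet n → ℝ) :
    0 ≤ ipS (Omega d) (cQ (Omega d) (offP x y) f) (cQ (Omega d) (offP x z) f)
      + ipS (Omega d) (cQ (Omega d) (offP y x) f) (cQ (Omega d) (offP y z) f)
      + ipS (Omega d) (cQ (Omega d) (offP z x) f) (cQ (Omega d) (offP z y) f) := by
  rw [offP_comm y x, offP_comm z x, offP_comm z y]
  have hmaps : ∀ G ∈ Omega d, offT x y z G ∈ (Omega d).image (offT x y z) :=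
    fun G hG => Finset.mem_image_of_mem _ hG
  have e : ∀ a b : EdgeSet n → ℝ, ipS (Omega d) a b = ∑ t ∈ (Omega d).image (offT x y z),
      ∑ G ∈ (Omega d).filter (fun G => offT x y z G = t), a G * b G := by
    intro a b
    unfold ipS
    rw [Finset.sum_fiberwise_of_maps_to hmaps]
  rw [e, e, e, ← Finset.sum_add_distrib, ← Finset.sum_add_distrib]
  apply Finset.sum_nonneg
  intro t ht
  obtain ⟨T₀, hT₀, rfl⟩ := Finset.mem_image.mp ht
  set Sz := (Omega d).filter (fun G => offT x y z G = offT x y z T₀) with hSz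
  have hmem : ∀ V, V ∈ Sz ↔ V ∈ Omega d ∧
      ∀ u v, u ∉ ({x, y, z} : Finset (Fin n)) → v ∉ ({x, y, z} : Finset (Fin n)) →
        (s(u, v) ∈ V ↔ s(u, v) ∈ T₀) := by
    intro V
    rw [hSz, Finset.mem_filter, offT_iff]
  have hb := block_nonneg (S := Sz) (f := f) (fun (p : Fin 3) (G : EdgeSet n) => rhoT x y z p G)
    (fun g => fibre_star_graph hxy hxz hyz hT₀ g)
  have hs : x ∈ ({x, y, z} : Finset (Fin n)) := by simp
  have e1 : ∀ G ∈ Sz, cQ (Omega d) (offP x y) f G = cQ Sz (extRow {x, y, z} x z x y) f G :=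
    fun G hG => cQ_fibre_graph hW2 hs (Ne.symm hxz) (Ne.symm hyz) Sz hmem hG f
  have e2 : ∀ G ∈ Sz, cQ (Omega d) (offP x z) f G = cQ Sz (extRow {x, y, z} x y x z) f G :=
    fun G hG => cQ_fibre_graph hW1 hs (Ne.symm hxy) hyz Sz hmem hG f
  have e3 : ∀ G ∈ Sz, cQ (Omega d) (offP y z) f G = cQ Sz (extRow {x, y, z} x x y z) f G :=
    fun G hG => cQ_fibre_graph hW0 hs hxy hxz Sz hmem hG f
  have hb' : 0 ≤ ipS Sz (cQ Sz (extRow {x, y, z} x z x y) f) (cQ Sz (extRow {x, y, z} x y x z) f)
      + ipS Sz (cQ Sz (extRow {x, y, z} x z x y) f) (cQ Sz (extRow {x, y, z} x x y z) f)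
      + ipS Sz (cQ Sz (extRow {x, y, z} x y x z) f) (cQ Sz (extRow {x, y, z} x x y z) f) := hb
  rw [← ipS_congr e1 e2, ← ipS_congr e1 e3, ← ipS_congr e2 e3] at hb'
  exact hb'

end Triple

end Vale.Agent.Lib.P335
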