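import Vale.Agent.Lib.P335.SliceStar

/-!
The star inequality for balanced three-block partitions: slices glued along the count level.
-/

namespace Vale.Agent.Lib.P335

open Finset BigOperators

/-- Weight sequences. -/
noncomputable def fw (c : ℝ) (l l' s : ℕ) : ℝ :=
  c / (((l + s).factorial : ℝ) * ((l' + s).factorial : ℝ))

theorem fw_pos {c : ℝ} (hc : 0 < c) (l l' s : ℕ) : 0 < fw c l l' s := by
  unfold fw
  positivity

theorem fw_succ (c : ℝ) (l l' s : ℕ) :
    fw c l l' (s + 1) = fw c l l' s / (((l + s + 1 : ℕ) : ℝ) * ((l' + s + 1 : ℕ) : ℝ)) := by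
  unfold fw
  have e1 : l + (s + 1) = (l + s) + 1 := by ring
  have e2 : l' + (s + 1) = (l' + s) + 1 := by ring
  rw [e1, e2, Nat.factorial_succ, Nat.factorial_succ]
  have h1 : ((l + s).factorial : ℝ) ≠ 0 := by positivity
  have h2 : ((l' + s).factorial : ℝ) ≠ 0 := by positivity
  have h3 : ((l + s + 1 : ℕ) : ℝ) ≠ 0 := by positivity
  have h4 : ((l' + s + 1 : ℕ) : ℝ) ≠ 0 := by positivity
  push_cast at *
  field_simp

theorem fw_lc2 {c : ℝ} (hc : 0 < c) (l l' : ℕ) : LC2 (fw c l l') := by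
  intro p q hpq
  rw [fw_succ, fw_succ]
  have hp := fw_pos hc l l' p
  have hq := fw_pos hc l l' q
  have h1 : (0 : ℝ) < ((l + p + 1 : ℕ) : ℝ) * ((l' + p + 1 : ℕ) : ℝ) := by positivity
  have h2 : (0 : ℝ) < ((l + q + 1 : ℕ) : ℝ) * ((l' + q + 1 : ℕ) : ℝ) := by positivity
  have h3 : ((l + p + 1 : ℕ) : ℝ) * ((l' + p + 1 : ℕ) : ℝ)
      ≤ ((l + q + 1 : ℕ) : ℝ) * ((l' + q + 1 : ℕ) : ℝ) := by
    apply mul_le_mul
    · exact_mod_cast (by omega : l + p + 1 ≤ l + q + 1)
    · exact_mod_cast (by omega : l' + p + 1 ≤ l' + q + 1)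
    · positivity
    · positivity
  have e1 : fw c l l' p * (fw c l l' q / (((l + q + 1 : ℕ) : ℝ) * ((l' + q + 1 : ℕ) : ℝ)))
      = fw c l l' p * fw c l l' q / (((l + q + 1 : ℕ) : ℝ) * ((l' + q + 1 : ℕ) : ℝ)) := by ring
  have e2 : fw c l l' p / (((l + p + 1 : ℕ) : ℝ) * ((l' + p + 1 : ℕ) : ℝ)) * fw c l l' q
      = fw c l l' p * fw c l l' q / (((l + p + 1 : ℕ) : ℝ) * ((l' + p + 1 : ℕ) : ℝ)) := by ring
  rw [e1, e2]
  exact div_le_div_of_nonneg_left (by positivity) h1 h3

theorem choose_formula (x0 x1 x2 : ℕ) :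
    (((x0 + x1 + x2).choose x0 : ℝ)) * (((x0 + x1 + x2 - x0).choose x1 : ℝ))
      = ((x0 + x1 + x2).factorial : ℝ) /
        ((x0.factorial : ℝ) * (x1.factorial : ℝ) * (x2.factorial : ℝ)) := by
  have e1 : x0 + x1 + x2 - x0 = x1 + x2 := by omega
  rw [e1]
  have h1 := Nat.choose_mul_factorial_mul_factorial (show x0 ≤ x0 + x1 + x2 by omega)
  have h2 := Nat.choose_mul_factorial_mul_factorial (show x1 ≤ x1 + x2 by omega)
  have e2 : x0 + x1 + x2 - x0 = x1 + x2 := by omega
  have e3 : x1 + x2 - x1 = x2 := by omega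
  rw [e2] at h1
  rw [e3] at h2
  have h1' : (((x0 + x1 + x2).choose x0 : ℝ)) * (x0.factorial : ℝ) * ((x1 + x2).factorial : ℝ)
      = ((x0 + x1 + x2).factorial : ℝ) := by exact_mod_cast h1
  have h2' : (((x1 + x2).choose x1 : ℝ)) * (x1.factorial : ℝ) * (x2.factorial : ℝ)
      = ((x1 + x2).factorial : ℝ) := by exact_mod_cast h2
  have p0 : (x0.factorial : ℝ) ≠ 0 := by positivity
  have p1 : (x1.factorial : ℝ) ≠ 0 := by positivity
  have p2 : (x2.factorial : ℝ) ≠ 0 := by positivity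
  rw [eq_div_iff (by positivity), ← h1', ← h2']
  ring

variable {κ : Type*} [DecidableEq κ] {t : κ → Bool}

/-- The cardinality of a slice. -/
theorem card_Slice {E : Finset κ} (x : Fin 3 → Bool → ℕ)
    (hcons : ∀ b, sz t E b = x 0 b + x 1 b + x 2 b) :
    (Slice t E (fun p b => (x p b : ℤ))).card
      = ((sz t E true).choose (x 0 true) * (sz t E false).choose (x 0 false))
        * ((sz t E true - x 0 true).choose (x 1 true) * (sz t E false - x 0 false).choose (x 1 false)) := by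
  set n : Fin 3 → Bool → ℤ := fun p b => (x p b : ℤ) with hn
  have hcons' : ∀ b, (sz t E b : ℤ) = n 0 b + n 1 b + n 2 b := by
    intro b; simp only [hn]; rw [hcons b]; push_cast; ring
  have hmaps : ∀ A ∈ Slice t E n, A 0 ∈ Marg t E (n 0) := by
    intro A hA
    obtain ⟨h1, _, h3⟩ := mem_Slice.mp hA
    exact mem_Marg.mpr ⟨h1 0, h3 0⟩
  rw [Finset.card_eq_sum_card_fiberwise (f := fun A => A 0) (t := Marg t E (n 0))
    (fun A hA => Finset.mem_coe.mpr (hmaps A (Finset.mem_coe.mp hA)))]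
  have hfib : ∀ B ∈ Marg t E (n 0), ((Slice t E n).filter (fun A => A 0 = B)).card
      = ((sz t E true - x 0 true).choose (x 1 true) * (sz t E false - x 0 false).choose (x 1 false)) := by
    intro B hB
    rw [fiber_card hcons' 0 hB]
    have h01 : (0 : Fin 3) + 1 = 1 := by decide
    rw [h01, card_Marg _ (by intro b; simp only [hn]; positivity)]
    obtain ⟨hBE, hBsz⟩ := mem_Marg.mp hB
    have s1 := fun b => sz_sdiff (t := t) hBE b
    have s2 : ∀ b, sz t (E \ B) b = sz t E b - x 0 b := by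
      intro b
      have a1 := s1 b
      have a2 : sz t B b = x 0 b := by
        have := hBsz b
        simp only [hn] at this
        exact_mod_cast this
      omega
    rw [s2, s2]
    simp [hn]
  rw [Finset.sum_congr rfl hfib, Finset.sum_const, smul_eq_mul]
  congr 1
  rw [card_Marg _ (by intro b; simp only [hn]; positivity)]
  simp [hn]

/-- Block sizes attached to a point of the count simplex. -/
def nn (l l' : Fin 3 → ℕ) (τ : ℕ × ℕ × ℕ) : Fin 3 → Bool → ℤ :=
  fun p b => (((if b then l p else l' p) + ![τ.1, τ.2.1, τ.2.2] p : ℕ) : ℤ)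

/-- Balanced partitions. -/
noncomputable def Bal (t : κ → Bool) (E : Finset κ) (l l' : Fin 3 → ℕ) (a : ℕ) :
    Finset (Fin 3 → Finset κ) :=
  (Tri a).biUnion (fun τ => Slice t E (nn l l' τ))

theorem card_Slice_nn {E : Finset κ} {l l' : Fin 3 → ℕ} {a : ℕ}
    (h1 : sz t E true = l 0 + l 1 + l 2 + a) (h2 : sz t E false = l' 0 + l' 1 + l' 2 + a)
    {τ : ℕ × ℕ × ℕ} (hτ : τ ∈ Tri a) :
    ((Slice t E (nn l l' τ)).card : ℝ)
      = wgt (fw (((sz t E true).factorial : ℝ) * ((sz t E false).factorial : ℝ)) (l 0) (l' 0))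
          (fw 1 (l 1) (l' 1)) (fw 1 (l 2) (l' 2)) τ := by
  have hsum := mem_Tri.mp hτ
  set x : Fin 3 → Bool → ℕ := fun p b => (if b then l p else l' p) + ![τ.1, τ.2.1, τ.2.2] p with hx
  have e : nn l l' τ = fun p b => (x p b : ℤ) := rfl
  have hcons : ∀ b, sz t E b = x 0 b + x 1 b + x 2 b := by
    intro b
    cases b
    · simp only [hx, h2]
      simp
      omega
    · simp only [hx, h1]
      simp
      omega
  rw [e, card_Slice x hcons]
  push_cast
  have c1 := choose_formula (x 0 true) (x 1 true) (x 2 true)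
  have c2 := choose_formula (x 0 false) (x 1 false) (x 2 false)
  rw [← hcons true] at c1
  rw [← hcons false] at c2
  have : (((sz t E true).choose (x 0 true) : ℝ)) * ((sz t E false).choose (x 0 false) : ℝ)
        * (((sz t E true - x 0 true).choose (x 1 true) : ℝ) * ((sz t E false - x 0 false).choose (x 1 false) : ℝ))
      = (((sz t E true).choose (x 0 true) : ℝ) * ((sz t E true - x 0 true).choose (x 1 true) : ℝ))
        * (((sz t E false).choose (x 0 false) : ℝ) * ((sz t E false - x 0 false).choose (x 1 false) : ℝ)) := by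
    ring
  rw [this, c1, c2]
  unfold wgt fw
  simp only [hx]
  simp
  have p1 : ((l 0 + τ.1).factorial : ℝ) ≠ 0 := by positivity
  have p2 : ((l' 0 + τ.1).factorial : ℝ) ≠ 0 := by positivity
  have p3 : ((l 1 + τ.2.1).factorial : ℝ) ≠ 0 := by positivity
  have p4 : ((l' 1 + τ.2.1).factorial : ℝ) ≠ 0 := by positivity
  have p5 : ((l 2 + τ.2.2).factorial : ℝ) ≠ 0 := by positivity
  have p6 : ((l' 2 + τ.2.2).factorial : ℝ) ≠ 0 := by positivity
  field_simp

/-- The star inequality for balanced partitions. -/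
theorem bal_star {E : Finset κ} {l l' : Fin 3 → ℕ} {a : ℕ}
    (h1 : sz t E true = l 0 + l 1 + l 2 + a) (h2 : sz t E false = l' 0 + l' 1 + l' 2 + a)
    (g : Fin 3 → Finset κ → ℝ) :
    Star (Bal t E l l' a) (fun p A => g p (A p)) := by
  classical
  set S := Bal t E l l' a with hS
  set c : ℝ := ((sz t E true).factorial : ℝ) * ((sz t E false).factorial : ℝ) with hc
  have hcpos : 0 < c := by rw [hc]; positivity
  set f0 := fw c (l 0) (l' 0) with hf0
  set f1 := fw 1 (l 1) (l' 1) with hf1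
  set f2 := fw 1 (l 2) (l' 2) with hf2
  have pf0 : ∀ s, 0 < f0 s := fw_pos hcpos _ _
  have pf1 : ∀ s, 0 < f1 s := fw_pos one_pos _ _
  have pf2 : ∀ s, 0 < f2 s := fw_pos one_pos _ _
  -- the classifying map
  set φ : (Fin 3 → Finset κ) → ℕ × ℕ × ℕ :=
    fun A => (sz t (A 0) true - l 0, sz t (A 1) true - l 1, sz t (A 2) true - l 2) with hφ
  have hφslice : ∀ τ, ∀ A ∈ Slice t E (nn l l' τ), φ A = τ := by
    intro τ A hA
    have h3 := (mem_Slice.mp hA).2.2
    have a0 := h3 0 true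
    have a1 := h3 1 true
    have a2 := h3 2 true
    simp only [nn] at a0 a1 a2
    simp at a0 a1 a2
    simp only [hφ]
    have b0 : sz t (A 0) true = l 0 + τ.1 := by exact_mod_cast a0
    have b1 : sz t (A 1) true = l 1 + τ.2.1 := by exact_mod_cast a1
    have b2 : sz t (A 2) true = l 2 + τ.2.2 := by exact_mod_cast a2
    rw [b0, b1, b2]
    ext <;> simp
  have hfilter : ∀ τ ∈ Tri a, S.filter (fun A => φ A = τ) = Slice t E (nn l l' τ) := by
    intro τ hτ
    ext A
    simp only [Finset.mem_filter, hS, Bal, Finset.mem_biUnion]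
    constructor
    · rintro ⟨⟨τ', _, hA⟩, he⟩
      have := hφslice τ' A hA
      rw [← he, this]
      exact hA
    · intro hA
      exact ⟨⟨τ, hτ, hA⟩, hφslice τ A hA⟩
  have hmaps : ∀ A ∈ S, φ A ∈ Tri a := by
    intro A hA
    simp only [hS, Bal, Finset.mem_biUnion] at hA
    obtain ⟨τ, hτ, hA⟩ := hA
    rw [hφslice τ A hA]
    exact hτ
  apply star_of_parts S φ (Tri a) hmaps
  · intro τ hτ
    rw [hfilter τ hτ]
    exact slice_star E _ g
  · -- the count level
    set W : ℕ × ℕ × ℕ → ℝ := wgt f0 f1 f2 with hW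
    have hWcard : ∀ τ ∈ Tri a, ((Slice t E (nn l l' τ)).card : ℝ) = W τ :=
      fun τ hτ => card_Slice_nn h1 h2 hτ
    set mm : Fin 3 → ℕ → Bool → ℤ := fun q s b => (((if b then l q else l' q) + s : ℕ) : ℤ) with hmm
    set gb : Fin 3 → ℕ → ℝ := fun q s =>
      (∑ B ∈ Marg t E (mm q s), g q B) / ((Marg t E (mm q s)).card : ℝ) with hgb
    have hnnq : ∀ τ q, nn l l' τ q = mm q (![τ.1, τ.2.1, τ.2.2] q) := fun τ q => rfl
    have hblock : ∀ τ ∈ Tri a, ∀ q, ∑ A ∈ Slice t E (nn l l' τ), g q (A q)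
        = W τ * gb q (![τ.1, τ.2.1, τ.2.2] q) := by
      intro τ hτ q
      obtain ⟨K, hK⟩ := marg_sum (t := t) E (nn l l' τ) q
      have e3 := hK (fun B => g q B)
      have e4 := hK (fun _ => (1 : ℝ))
      simp only [Finset.sum_const, nsmul_eq_mul, mul_one] at e3 e4
      rw [e3, ← hWcard τ hτ, e4, hnnq]
      simp only [hgb]
      by_cases h0 : ((Marg t E (mm q (![τ.1, τ.2.1, τ.2.2] q))).card : ℝ) = 0
      · have h00 : Marg t E (mm q (![τ.1, τ.2.1, τ.2.2] q)) = ∅ := by
          have : (Marg t E (mm q (![τ.1, τ.2.1, τ.2.2] q))).card = 0 := by exact_mod_cast h0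
          exact Finset.card_eq_zero.mp this
        simp [h00]
      · field_simp
    -- `between` as a weighted variance
    have hbet : ∀ (F : (Fin 3 → Finset κ) → ℝ) (G : ℕ × ℕ × ℕ → ℝ),
        (∀ τ ∈ Tri a, ∑ A ∈ Slice t E (nn l l' τ), F A = W τ * G τ) →
        between S φ (Tri a) F = wvar (Tri a) W G := by
      intro F G hFG
      unfold between wvar
      have e1 : ∑ τ ∈ Tri a, (∑ x ∈ S.filter (fun x => φ x = τ), F x) ^ 2
            / ((S.filter (fun x => φ x = τ)).card : ℝ) = ∑ τ ∈ Tri a, W τ * G τ ^ 2 := by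
        apply Finset.sum_congr rfl
        intro τ hτ
        rw [hfilter τ hτ, hFG τ hτ, hWcard τ hτ, sq_mul_div_self]
      have e2 : ∑ x ∈ S, F x = ∑ τ ∈ Tri a, W τ * G τ := by
        rw [← Finset.sum_fiberwise_of_maps_to hmaps]
        apply Finset.sum_congr rfl
        intro τ hτ
        rw [hfilter τ hτ, hFG τ hτ]
      have e3 : (S.card : ℝ) = ∑ τ ∈ Tri a, W τ := by
        rw [Finset.card_eq_sum_card_fiberwise (f := φ) (t := Tri a)
          (fun x hx => Finset.mem_coe.mpr (hmaps x (Finset.mem_coe.mp hx)))]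
        push_cast
        apply Finset.sum_congr rfl
        intro τ hτ
        rw [hfilter τ hτ, hWcard τ hτ]
      rw [e1, e2, e3]
    have hb0 := hbet (fun A => g 0 (A 0)) (fun τ => gb 0 τ.1) (fun τ hτ => hblock τ hτ 0)
    have hb1 := hbet (fun A => g 1 (A 1)) (fun τ => gb 1 τ.2.1) (fun τ hτ => hblock τ hτ 1)
    have hb2 := hbet (fun A => g 2 (A 2)) (fun τ => gb 2 τ.2.2) (fun τ hτ => hblock τ hτ 2)
    have hbF := hbet (fun A => ∑ p, g p (A p)) (fun τ => gb 0 τ.1 + gb 1 τ.2.1 + gb 2 τ.2.2) (by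
      intro τ hτ
      have h0 := hblock τ hτ 0
      have h1 := hblock τ hτ 1
      have h2 := hblock τ hτ 2
      simp only [Fin.sum_univ_three, Finset.sum_add_distrib]
      rw [h0, h1, h2]
      simp
      ring)
    rw [hbF]
    simp only [Fin.sum_univ_three]
    rw [hb0, hb1, hb2]
    exact count_star a pf0 pf1 pf2 (fw_lc2 hcpos _ _) (fw_lc2 one_pos _ _) (fw_lc2 one_pos _ _) _ _ _

end Vale.Agent.Lib.P335
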