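import Vale.Agent.Lib.P335.ThreeRow

/-!
Conditional expectations on finite sets (uniform measure), as explicit averages.
-/

namespace Vale.Agent.Lib.P335

open Finset BigOperators

variable {α β : Type*} [DecidableEq β]

/-- Average of `f` over the fibre of `π` through `x`, inside `S`. -/
noncomputable def cond (S : Finset α) (π : α → β) (f : α → ℝ) (x : α) : ℝ :=
  (∑ y ∈ S.filter (fun y => π y = π x), f y) / ((S.filter (fun y => π y = π x)).card : ℝ)

/-- `f` minus its conditional expectation. -/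
noncomputable def cQ (S : Finset α) (π : α → β) (f : α → ℝ) (x : α) : ℝ := f x - cond S π f x

/-- Inner product over a finite set. -/
def ipS (S : Finset α) (f g : α → ℝ) : ℝ := ∑ x ∈ S, f x * g x

theorem ipS_comm (S : Finset α) (f g : α → ℝ) : ipS S f g = ipS S g f := by
  unfold ipS
  exact Finset.sum_congr rfl (fun x _ => mul_comm _ _)

theorem ipS_congr {S : Finset α} {f f' g g' : α → ℝ} (h1 : ∀ x ∈ S, f x = f' x)
    (h2 : ∀ x ∈ S, g x = g' x) : ipS S f g = ipS S f' g' := by
  unfold ipS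
  exact Finset.sum_congr rfl (fun x hx => by rw [h1 x hx, h2 x hx])

theorem ipS_self_nonneg (S : Finset α) (f : α → ℝ) : 0 ≤ ipS S f f :=
  Finset.sum_nonneg (fun x _ => mul_self_nonneg _)

theorem ipS_sub_left (S : Finset α) (f g h : α → ℝ) :
    ipS S (fun x => f x - g x) h = ipS S f h - ipS S g h := by
  unfold ipS
  rw [← Finset.sum_sub_distrib]
  exact Finset.sum_congr rfl (fun x _ => by ring)

theorem ipS_sub_right (S : Finset α) (f g h : α → ℝ) :
    ipS S h (fun x => f x - g x) = ipS S h f - ipS S h g := by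
  unfold ipS
  rw [← Finset.sum_sub_distrib]
  exact Finset.sum_congr rfl (fun x _ => by ring)

theorem ipS_expand (S : Finset α) (a b c : α → ℝ) :
    ipS S (fun x => a x - b x) (fun x => a x - c x)
      = ipS S a a - ipS S a c - ipS S b a + ipS S b c := by
  unfold ipS
  rw [← Finset.sum_sub_distrib, ← Finset.sum_sub_distrib, ← Finset.sum_add_distrib]
  exact Finset.sum_congr rfl (fun x _ => by ring)

theorem cond_eq_of_eq {S : Finset α} {π : α → β} {f : α → ℝ} {x y : α} (h : π y = π x) :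
    cond S π f y = cond S π f x := by
  unfold cond
  rw [h]

theorem cond_congr {S : Finset α} {π : α → β} {f g : α → ℝ} (h : ∀ x ∈ S, f x = g x) (x : α) :
    cond S π f x = cond S π g x := by
  unfold cond
  congr 1
  exact Finset.sum_congr rfl (fun y hy => h y (Finset.mem_filter.mp hy).1)

theorem fiber_card_pos {S : Finset α} {π : α → β} {x : α} (hx : x ∈ S) :
    (0 : ℝ) < ((S.filter (fun y => π y = π x)).card : ℝ) := by
  have : 0 < (S.filter (fun y => π y = π x)).card :=
    Finset.card_pos.mpr ⟨x, Finset.mem_filter.mpr ⟨hx, rfl⟩⟩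
  exact_mod_cast this

/-- `cond` of a function constant on the fibres. -/
theorem cond_of_factor {S : Finset α} {π : α → β} {f : α → ℝ} {x : α} (hx : x ∈ S)
    (hf : ∀ y ∈ S, π y = π x → f y = f x) : cond S π f x = f x := by
  unfold cond
  have hc := fiber_card_pos (π := π) hx
  rw [Finset.sum_congr rfl (g := fun _ => f x)
    (fun y hy => hf y (Finset.mem_filter.mp hy).1 (Finset.mem_filter.mp hy).2)]
  simp only [Finset.sum_const, nsmul_eq_mul]
  field_simp

theorem cond_cond (S : Finset α) (π : α → β) (f : α → ℝ) {x : α} (hx : x ∈ S) :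
    cond S π (cond S π f) x = cond S π f x :=
  cond_of_factor hx (fun _ _ h => cond_eq_of_eq h)

theorem cond_const (S : Finset α) (π : α → β) (k : ℝ) {x : α} (hx : x ∈ S) :
    cond S π (fun _ => k) x = k :=
  cond_of_factor hx (fun _ _ _ => rfl)

theorem cond_add (S : Finset α) (π : α → β) (f g : α → ℝ) (x : α) :
    cond S π (fun y => f y + g y) x = cond S π f x + cond S π g x := by
  unfold cond
  rw [← add_div, ← Finset.sum_add_distrib]

theorem cond_sub (S : Finset α) (π : α → β) (f g : α → ℝ) (x : α) :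
    cond S π (fun y => f y - g y) x = cond S π f x - cond S π g x := by
  unfold cond
  rw [← sub_div, ← Finset.sum_sub_distrib]

theorem cond_smul (S : Finset α) (π : α → β) (k : ℝ) (f : α → ℝ) (x : α) :
    cond S π (fun y => k * f y) x = k * cond S π f x := by
  unfold cond
  rw [← mul_div_assoc, Finset.mul_sum]

/-- Self-adjointness of `cond`. -/
theorem ipS_cond (S : Finset α) (π : α → β) (f g : α → ℝ) :
    ipS S (cond S π f) g = ipS S f (cond S π g) := by
  classical
  unfold ipS cond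
  -- both sides are a double sum over pairs in the same fibre
  have e1 : ∀ x ∈ S, (∑ y ∈ S.filter (fun y => π y = π x), f y) /
        ((S.filter (fun y => π y = π x)).card : ℝ) * g x
      = ∑ y ∈ S, if π y = π x then f y * g x / ((S.filter (fun z => π z = π x)).card : ℝ) else 0 := by
    intro x _
    rw [Finset.sum_ite, Finset.sum_const_zero, add_zero, div_mul_eq_mul_div, Finset.sum_mul,
      Finset.sum_div]
  have e2 : ∀ x ∈ S, f x * ((∑ y ∈ S.filter (fun y => π y = π x), g y) /
        ((S.filter (fun y => π y = π x)).card : ℝ))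
      = ∑ y ∈ S, if π y = π x then f x * g y / ((S.filter (fun z => π z = π x)).card : ℝ) else 0 := by
    intro x _
    rw [Finset.sum_ite, Finset.sum_const_zero, add_zero, ← mul_div_assoc, Finset.mul_sum,
      Finset.sum_div]
  rw [Finset.sum_congr rfl e1, Finset.sum_congr rfl e2, Finset.sum_comm]
  apply Finset.sum_congr rfl
  intro x _
  apply Finset.sum_congr rfl
  intro y _
  by_cases h : π x = π y
  · rw [if_pos h, if_pos h.symm, h]
  · rw [if_neg h, if_neg (fun h' => h h'.symm)]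

theorem ipS_cQ (S : Finset α) (π : α → β) (f g : α → ℝ) :
    ipS S (cQ S π f) g = ipS S f (cQ S π g) := by
  unfold cQ
  have := ipS_cond S π f g
  rw [ipS_sub_left, ipS_sub_right, this]

theorem cQ_cQ (S : Finset α) (π : α → β) (f : α → ℝ) {x : α} (hx : x ∈ S) :
    cQ S π (cQ S π f) x = cQ S π f x := by
  unfold cQ
  rw [cond_sub, cond_cond S π f hx]
  ring

/-- `‖Qf‖² = ⟨f, Qf⟩`. -/
theorem ipS_cQ_self (S : Finset α) (π : α → β) (f : α → ℝ) :
    ipS S (cQ S π f) (cQ S π f) = ipS S f (cQ S π f) := by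
  rw [ipS_cQ]
  exact ipS_congr (fun _ _ => rfl) (fun x hx => cQ_cQ S π f hx)

/-- `‖Pf‖² = ⟨f, Pf⟩`. -/
theorem ipS_cond_self (S : Finset α) (π : α → β) (f : α → ℝ) :
    ipS S (cond S π f) (cond S π f) = ipS S f (cond S π f) := by
  rw [ipS_cond]
  exact ipS_congr (fun _ _ => rfl) (fun x hx => cond_cond S π f hx)

/-- If two conditional expectations commute, the cross term of the complements is nonnegative. -/
theorem cross_nonneg_of_commute {S : Finset α} {β' : Type*} [DecidableEq β'] (π : α → β) (π' : α → β')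
    (hcomm : ∀ g : α → ℝ, ∀ x ∈ S, cond S π (cond S π' g) x = cond S π' (cond S π g) x)
    (f : α → ℝ) : 0 ≤ ipS S (cQ S π f) (cQ S π' f) := by
  -- `Q Q' f = Q' Q f` on `S`
  have hQQ : ∀ x ∈ S, cQ S π (cQ S π' f) x = cQ S π' (cQ S π f) x := by
    intro x hx
    unfold cQ
    rw [cond_sub, cond_sub, hcomm f x hx]
    ring
  have e1 : ipS S (cQ S π f) (cQ S π' f) = ipS S (cQ S π' (cQ S π f)) (cQ S π' (cQ S π f)) := by
    calc ipS S (cQ S π f) (cQ S π' f)
        = ipS S (cQ S π f) (cQ S π' (cQ S π' f)) :=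
          ipS_congr (fun _ _ => rfl) (fun x hx => (cQ_cQ S π' f hx).symm)
      _ = ipS S (cQ S π' (cQ S π f)) (cQ S π' f) := (ipS_cQ S π' _ _).symm
      _ = ipS S (cQ S π (cQ S π' f)) (cQ S π' f) :=
          ipS_congr (fun x hx => (hQQ x hx).symm) (fun _ _ => rfl)
      _ = ipS S (cQ S π' f) (cQ S π (cQ S π' f)) := ipS_cQ S π _ _
      _ = ipS S (cQ S π (cQ S π' f)) (cQ S π (cQ S π' f)) := (ipS_cQ_self S π _).symm
      _ = ipS S (cQ S π' (cQ S π f)) (cQ S π' (cQ S π f)) :=
          ipS_congr (fun x hx => hQQ x hx) (fun x hx => hQQ x hx)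
  rw [e1]
  exact ipS_self_nonneg _ _

/-- Star inequality from the block maps, mean-zero form. -/
theorem star_meanzero {S : Finset α} {g : Fin 3 → α → ℝ} (h : Star S g)
    (hm : ∀ p, ∑ x ∈ S, g p x = 0) :
    ∑ x ∈ S, (∑ p, g p x) ^ 2 ≤ 2 * ∑ p, ∑ x ∈ S, g p x ^ 2 := by
  unfold Star var at h
  have e0 : ∑ x ∈ S, ∑ p, g p x = 0 := by
    rw [Finset.sum_comm]
    exact Finset.sum_eq_zero (fun p _ => hm p)
  rw [e0] at h
  simp only [hm] at h
  simpa using h

/-- The block inequality: for three maps satisfying the star inequality, the complements have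
nonnegative total correlation. -/
theorem block_nonneg {S : Finset α} (ρ : Fin 3 → α → β)
    (hstar : ∀ g : Fin 3 → β → ℝ, Star S (fun p x => g p (ρ p x))) (f : α → ℝ) :
    0 ≤ ipS S (cQ S (ρ 2) f) (cQ S (ρ 1) f) + ipS S (cQ S (ρ 2) f) (cQ S (ρ 0) f)
      + ipS S (cQ S (ρ 1) f) (cQ S (ρ 0) f) := by
  rcases S.eq_empty_or_nonempty with rfl | hS
  · simp [ipS]
  have hc : (0 : ℝ) < (S.card : ℝ) := by exact_mod_cast S.card_pos.mpr hS
  -- centre `f`
  set mean : ℝ := (∑ x ∈ S, f x) / (S.card : ℝ) with hmean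
  set h : α → ℝ := fun x => f x - mean with hh
  have hsum : ∑ x ∈ S, h x = 0 := by
    simp only [hh, Finset.sum_sub_distrib, Finset.sum_const, nsmul_eq_mul, hmean]
    field_simp
    ring
  have hQ : ∀ p, ∀ x ∈ S, cQ S (ρ p) f x = h x - cond S (ρ p) h x := by
    intro p x hx
    unfold cQ
    simp only [hh]
    rw [cond_sub, cond_const S _ _ hx]
    ring
  set gg : Fin 3 → α → ℝ := fun p => cond S (ρ p) h with hgg
  have hQ' : ∀ p q, ipS S (cQ S (ρ p) f) (cQ S (ρ q) f)
      = ipS S h h - ipS S h (gg q) - ipS S (gg p) h + ipS S (gg p) (gg q) := by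
    intro p q
    rw [ipS_congr (hQ p) (hQ q)]
    exact ipS_expand S h (gg p) (gg q)
  have hgnorm : ∀ p, ipS S (gg p) (gg p) = ipS S h (gg p) := fun p => ipS_cond_self S (ρ p) h
  have hgsum : ∀ p, ∑ x ∈ S, gg p x = 0 := by
    intro p
    have := ipS_cond S (ρ p) h (fun _ => 1)
    unfold ipS at this
    simp only [mul_one] at this
    rw [this]
    have e : ∑ x ∈ S, h x * cond S (ρ p) (fun _ => (1 : ℝ)) x = ∑ x ∈ S, h x := by
      apply Finset.sum_congr rfl
      intro x hx
      rw [cond_const S _ _ hx, mul_one]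
    rw [e, hsum]
  -- the star inequality applied to the conditional expectations
  have hs := star_meanzero (S := S) (g := gg)
    (hstar (fun p B => (∑ y ∈ S.filter (fun y => ρ p y = B), h y) /
      ((S.filter (fun y => ρ p y = B)).card : ℝ))) hgsum
  set G0 := ipS S (gg 0) (gg 0) with hG0
  set G1 := ipS S (gg 1) (gg 1) with hG1
  set G2 := ipS S (gg 2) (gg 2) with hG2
  set C01 := ipS S (gg 0) (gg 1) with hC01
  set C02 := ipS S (gg 0) (gg 2) with hC02
  set C12 := ipS S (gg 1) (gg 2) with hC12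
  set n := ipS S h h with hn
  have hn0 : 0 ≤ n := ipS_self_nonneg _ _
  have hG00 : 0 ≤ G0 := ipS_self_nonneg _ _
  have hG10 : 0 ≤ G1 := ipS_self_nonneg _ _
  have hG20 : 0 ≤ G2 := ipS_self_nonneg _ _
  have hsq : ∑ x ∈ S, (∑ p, gg p x) ^ 2 = G0 + G1 + G2 + 2 * (C01 + C02 + C12) := by
    simp only [hG0, hG1, hG2, hC01, hC02, hC12, ipS, Fin.sum_univ_three, Finset.mul_sum,
      ← Finset.sum_add_distrib]
    exact Finset.sum_congr rfl (fun x _ => by ring)
  have hsq2 : ∑ p, ∑ x ∈ S, gg p x ^ 2 = G0 + G1 + G2 := by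
    simp only [hG0, hG1, hG2, ipS, Fin.sum_univ_three]
    rw [← Finset.sum_add_distrib, ← Finset.sum_add_distrib, ← Finset.sum_add_distrib,
      ← Finset.sum_add_distrib]
    exact Finset.sum_congr rfl (fun x _ => by ring)
  rw [hsq, hsq2] at hs
  -- Cauchy-Schwarz: `G² ≤ n · ‖Σg‖²`
  set GG := G0 + G1 + G2 with hGG
  have hGpos : 0 ≤ GG := by positivity
  have hcs : GG ^ 2 ≤ n * (GG + 2 * (C01 + C02 + C12)) := by
    have e1 : GG = ∑ x ∈ S, h x * (∑ p, gg p x) := by
      simp only [hGG, hG0, hG1, hG2, hgnorm]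
      simp only [ipS, Fin.sum_univ_three, mul_add, Finset.sum_add_distrib]
    have e2 : GG + 2 * (C01 + C02 + C12) = ∑ x ∈ S, (∑ p, gg p x) ^ 2 := hsq.symm
    rw [e2]
    nth_rewrite 1 [e1]
    exact Finset.sum_mul_sq_le_sq_mul_sq S h (fun x => ∑ p, gg p x) |>.trans (by
      simp only [hn, ipS, sq]
      exact le_rfl)
  have hG2n : GG ≤ 2 * n := by
    by_cases h0 : GG = 0
    · rw [h0]; positivity
    · have hp : 0 < GG := lt_of_le_of_ne hGpos (Ne.symm h0)
      have : GG * GG ≤ (2 * n) * GG := by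
        have h2 : GG + 2 * (C01 + C02 + C12) ≤ 2 * GG := by linarith
        nlinarith
      exact le_of_mul_le_mul_right this hp
  -- the algebra
  have e12 : ipS S (gg 2) (gg 1) = C12 := ipS_comm _ _ _
  have e02 : ipS S (gg 2) (gg 0) = C02 := ipS_comm _ _ _
  have e01 : ipS S (gg 1) (gg 0) = C01 := ipS_comm _ _ _
  rw [hQ' 2 1, hQ' 2 0, hQ' 1 0, e12, e02, e01]
  have a0 : ipS S h (gg 0) = G0 := (hgnorm 0).symm
  have a1 : ipS S h (gg 1) = G1 := (hgnorm 1).symm
  have a2 : ipS S h (gg 2) = G2 := (hgnorm 2).symm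
  have b0 : ipS S (gg 0) h = G0 := by rw [ipS_comm]; exact a0
  have b1 : ipS S (gg 1) h = G1 := by rw [ipS_comm]; exact a1
  have b2 : ipS S (gg 2) h = G2 := by rw [ipS_comm]; exact a2
  rw [a0, a1, b1, b2]
  -- `2·target = ‖2h - Σg‖² + (2n - G)`
  have hnormsq : 0 ≤ ∑ x ∈ S, (2 * h x - ∑ p, gg p x) ^ 2 := Finset.sum_nonneg (fun x _ => sq_nonneg _)
  have hexp : ∑ x ∈ S, (2 * h x - ∑ p, gg p x) ^ 2 = 4 * n - 3 * GG + 2 * (C01 + C02 + C12) := by
    have e3 : ∑ x ∈ S, (2 * h x - ∑ p, gg p x) ^ 2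
        = 4 * n - 4 * ∑ x ∈ S, h x * (∑ p, gg p x) + ∑ x ∈ S, (∑ p, gg p x) ^ 2 := by
      simp only [hn, ipS, Finset.mul_sum]
      rw [← Finset.sum_sub_distrib, ← Finset.sum_add_distrib]
      apply Finset.sum_congr rfl
      intro x _
      simp only [Fin.sum_univ_three]
      ring
    have e4 : GG = ∑ x ∈ S, h x * (∑ p, gg p x) := by
      simp only [hGG, hG0, hG1, hG2, hgnorm]
      simp only [ipS, Fin.sum_univ_three, mul_add, Finset.sum_add_distrib]
    rw [e3, ← e4, hsq]
    ring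
  nlinarith

end Vale.Agent.Lib.P335
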