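import Vale.Agent.Lib.P335.Tables

/-!
The switch on a table, and connectivity of tables under row-pair moves (Ryser).
-/

namespace Vale.Agent.Lib.P335

open Finset BigOperators

variable {ι κ : Type*} [Fintype ι] [DecidableEq ι] [Fintype κ] [DecidableEq κ]

/-- The switch on a table: row `x` loses `j` and gains `l`, row `y` loses `l` and gains `j`. -/
def sw (T : ι → Finset κ) (x y : ι) (j l : κ) : ι → Finset κ :=
  fun a => if a = x then insert l ((T x).erase j) else if a = y then insert j ((T y).erase l) else T a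

theorem sw_left (T : ι → Finset κ) (x y : ι) (j l : κ) : sw T x y j l x = insert l ((T x).erase j) := by
  simp [sw]

theorem sw_right (T : ι → Finset κ) {x y : ι} (hxy : x ≠ y) (j l : κ) :
    sw T x y j l y = insert j ((T y).erase l) := by
  simp [sw, hxy.symm]

theorem sw_other (T : ι → Finset κ) {x y a : ι} (h1 : a ≠ x) (h2 : a ≠ y) (j l : κ) :
    sw T x y j l a = T a := by
  simp [sw, h1, h2]

theorem sw_off (T : ι → Finset κ) (x y : ι) (j l : κ) :
    offRows x y (sw T x y j l) = offRows x y T := by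
  rw [offRows_eq_iff]
  intro i h1 h2
  exact sw_other T h1 h2 j l

theorem sw_mem {r : ι → ℕ} {c : κ → ℕ} {X : ι → Finset κ} (hX : X ∈ Tables r c) {x y : ι}
    (hxy : x ≠ y) {j l : κ} (hjx : j ∈ X x) (hlx : l ∉ X x) (hly : l ∈ X y) (hjy : j ∉ X y) :
    sw X x y j l ∈ Tables r c := by
  rw [mem_Tables] at hX ⊢
  have hjl : j ≠ l := fun h => hlx (h ▸ hjx)
  constructor
  · intro a
    by_cases h1 : a = x
    · rw [h1, sw_left, Finset.card_insert_of_notMem (by simp [hlx]),
        Finset.card_erase_of_mem hjx, ← hX.1 x]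
      have : 0 < (X x).card := Finset.card_pos.mpr ⟨j, hjx⟩
      omega
    by_cases h2 : a = y
    · rw [h2, sw_right X hxy, Finset.card_insert_of_notMem (by simp [hjy]),
        Finset.card_erase_of_mem hly, ← hX.1 y]
      have : 0 < (X y).card := Finset.card_pos.mpr ⟨l, hly⟩
      omega
    · rw [sw_other X h1 h2]
      exact hX.1 a
  · intro b
    rw [col_split hxy, colOff_congr (T' := X) (fun i h1 h2 => sw_other X h1 h2 j l) b,
      sw_left, sw_right X hxy, ← hX.2 b, col_split hxy X b]
    simp only [Finset.mem_insert, Finset.mem_erase]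
    by_cases hbj : b = j
    · subst hbj
      simp [hjl, hjx, hjy]
    by_cases hbl : b = l
    · subst hbl
      simp [hbj, hlx, hly]
    simp [hbj, hbl]

/-- Total overlap of two tables. -/
def overlap (X Y : ι → Finset κ) : ℕ := ∑ a, (X a ∩ Y a).card

theorem overlap_comm (X Y : ι → Finset κ) : overlap X Y = overlap Y X := by
  unfold overlap
  exact Finset.sum_congr rfl (fun a _ => by rw [Finset.inter_comm])

theorem overlap_sum_split {x y : ι} (hxy : x ≠ y) (h : ι → ℕ) :
    ∑ a, h a = h x + h y + ∑ a ∈ univ.filter (fun z => z ≠ x ∧ z ≠ y), h a := by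
  have hu : (univ : Finset ι) = {x, y} ∪ univ.filter (fun z => z ≠ x ∧ z ≠ y) := by
    ext z
    simp only [Finset.mem_univ, Finset.mem_union, Finset.mem_insert, Finset.mem_singleton,
      Finset.mem_filter, true_and, true_iff]
    tauto
  have hd : Disjoint ({x, y} : Finset ι) (univ.filter (fun z => z ≠ x ∧ z ≠ y)) := by
    rw [Finset.disjoint_left]
    intro z hz hz'
    simp only [Finset.mem_insert, Finset.mem_singleton] at hz
    simp only [Finset.mem_filter, Finset.mem_univ, true_and] at hz'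
    tauto
  conv_lhs => rw [hu]
  rw [Finset.sum_union hd, Finset.sum_pair hxy]

/-- The gain of overlap in the row that loses `j` and gains `l`. -/
theorem gain1 {A B : Finset κ} {j l : κ} (hl : l ∉ A) (hjB : j ∉ B) (hlB : l ∈ B) :
    (insert l (A.erase j) ∩ B).card = (A ∩ B).card + 1 := by
  have e : insert l (A.erase j) ∩ B = insert l (A ∩ B) := by
    ext b
    simp only [Finset.mem_inter, Finset.mem_insert, Finset.mem_erase]
    constructor
    · rintro ⟨h | h, h2⟩
      · exact Or.inl h
      · exact Or.inr ⟨h.2, h2⟩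
    · rintro (h | h)
      · exact ⟨Or.inl h, h ▸ hlB⟩
      · refine ⟨Or.inr ⟨?_, h.1⟩, h.2⟩
        rintro rfl
        exact hjB h.2
  rw [e, Finset.card_insert_of_notMem (by simp [hl])]

/-- The other row: no loss of overlap unless the pattern is excluded. -/
theorem gain2 {A B : Finset κ} {j l : κ} (hjl : j ≠ l) (hl : l ∈ A) (hj : j ∉ A)
    (hB : ¬ (l ∈ B ∧ j ∉ B)) : (A ∩ B).card ≤ (insert j (A.erase l) ∩ B).card := by
  by_cases hlB : l ∈ B
  · have hjB : j ∈ B := by
      by_contra h
      exact hB ⟨hlB, h⟩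
    have e : insert j (A.erase l) ∩ B = insert j ((A ∩ B).erase l) := by
      ext b
      simp only [Finset.mem_inter, Finset.mem_insert, Finset.mem_erase]
      constructor
      · rintro ⟨h | h, h2⟩
        · exact Or.inl h
        · exact Or.inr ⟨h.1, h.2, h2⟩
      · rintro (h | h)
        · exact ⟨Or.inl h, h ▸ hjB⟩
        · exact ⟨Or.inr ⟨h.1, h.2.1⟩, h.2.2⟩
    rw [e, Finset.card_insert_of_notMem (by simp [hj]),
      Finset.card_erase_of_mem (Finset.mem_inter.mpr ⟨hl, hlB⟩)]
    omega
  · apply Finset.card_le_card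
    intro b hb
    rw [Finset.mem_inter] at hb ⊢
    refine ⟨?_, hb.2⟩
    rw [Finset.mem_insert, Finset.mem_erase]
    refine Or.inr ⟨?_, hb.1⟩
    rintro rfl
    exact hlB hb.2

/-- A good switch strictly increases the overlap. -/
theorem overlap_gain {X Y : ι → Finset κ} {x y : ι} (hxy : x ≠ y) {j l : κ} (hjl : j ≠ l)
    (hlx : l ∉ X x) (hly : l ∈ X y) (hjy : j ∉ X y) (hj' : j ∉ Y x) (hl' : l ∈ Y x)
    (hB : ¬ (l ∈ Y y ∧ j ∉ Y y)) : overlap X Y < overlap (sw X x y j l) Y := by
  unfold overlap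
  rw [overlap_sum_split hxy, overlap_sum_split hxy (fun a => (sw X x y j l a ∩ Y a).card)]
  simp only [sw_left, sw_right X hxy]
  rw [gain1 hlx hj' hl']
  have h2 := gain2 (B := Y y) hjl hly hjy hB
  have h3 : ∑ a ∈ univ.filter (fun z => z ≠ x ∧ z ≠ y), (sw X x y j l a ∩ Y a).card
      = ∑ a ∈ univ.filter (fun z => z ≠ x ∧ z ≠ y), (X a ∩ Y a).card := by
    apply Finset.sum_congr rfl
    intro a ha
    have ha' := (Finset.mem_filter.mp ha).2
    rw [sw_other X ha'.1 ha'.2]
  rw [h3]
  omega

/-- Two different tables: one of them admits a switch that raises the overlap. -/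
theorem exists_gain {r : ι → ℕ} {c : κ → ℕ} {X Y : ι → Finset κ} (hX : X ∈ Tables r c)
    (hY : Y ∈ Tables r c) (hne : X ≠ Y) :
    (∃ x y j l, x ≠ y ∧ sw X x y j l ∈ Tables r c ∧ overlap X Y < overlap (sw X x y j l) Y) ∨
    (∃ x y j l, x ≠ y ∧ sw Y x y j l ∈ Tables r c ∧ overlap Y X < overlap (sw Y x y j l) X) := by
  classical
  have hX' := mem_Tables.mp hX
  have hY' := mem_Tables.mp hY
  obtain ⟨i, hi⟩ : ∃ i, X i ≠ Y i := by
    by_contra h
    push Not at h
    exact hne (funext h)
  have hcard : (X i).card = (Y i).card := by rw [hX'.1, hY'.1]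
  obtain ⟨j, hj, hj'⟩ : ∃ j, j ∈ X i ∧ j ∉ Y i := by
    by_contra h
    push Not at h
    exact hi (Finset.eq_of_subset_of_card_le h hcard.ge)
  obtain ⟨l, hl', hl⟩ : ∃ l, l ∈ Y i ∧ l ∉ X i := by
    by_contra h
    push Not at h
    exact hi (Finset.eq_of_subset_of_card_le h hcard.le).symm
  have hjl : j ≠ l := fun h => hl (h ▸ hj)
  -- the signed count
  let w : ι → ℤ := fun a => (if l ∈ X a then 1 else 0) - (if j ∈ X a then 1 else 0)
    - (if l ∈ Y a then 1 else 0) + (if j ∈ Y a then 1 else 0)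
  have hsum : ∑ a, w a = 0 := by
    have e1 : ∑ a, (if l ∈ X a then (1 : ℤ) else 0) = (c l : ℤ) := by
      rw [← hX'.2 l, Finset.card_filter]
      push_cast
      rfl
    have e2 : ∑ a, (if j ∈ X a then (1 : ℤ) else 0) = (c j : ℤ) := by
      rw [← hX'.2 j, Finset.card_filter]
      push_cast
      rfl
    have e3 : ∑ a, (if l ∈ Y a then (1 : ℤ) else 0) = (c l : ℤ) := by
      rw [← hY'.2 l, Finset.card_filter]
      push_cast
      rfl
    have e4 : ∑ a, (if j ∈ Y a then (1 : ℤ) else 0) = (c j : ℤ) := by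
      rw [← hY'.2 j, Finset.card_filter]
      push_cast
      rfl
    simp only [w, Finset.sum_add_distrib, Finset.sum_sub_distrib, e1, e2, e3, e4]
    ring
  have hwi : w i = -2 := by
    simp [w, hj, hj', hl, hl']
  obtain ⟨k, hki, hk⟩ : ∃ k, k ≠ i ∧ 0 < w k := by
    by_contra h
    push Not at h
    have : ∑ a, w a ≤ w i := by
      rw [← Finset.add_sum_erase _ _ (Finset.mem_univ i)]
      have : ∑ a ∈ univ.erase i, w a ≤ 0 :=
        Finset.sum_nonpos (fun a ha => h a (Finset.mem_erase.mp ha).1)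
      linarith
    rw [hsum, hwi] at this
    omega
  by_cases hcase : l ∈ X k ∧ j ∉ X k
  · left
    refine ⟨i, k, j, l, hki.symm, sw_mem hX hki.symm hj hl hcase.1 hcase.2, ?_⟩
    apply overlap_gain hki.symm hjl hl hcase.1 hcase.2 hj' hl'
    rintro ⟨h1, h2⟩
    simp only [w, if_pos hcase.1, if_neg hcase.2, if_pos h1, if_neg h2] at hk
    omega
  · have hc2 : j ∈ Y k ∧ l ∉ Y k := by
      by_contra h
      simp only [w] at hk
      by_cases a1 : l ∈ X k <;> by_cases a2 : j ∈ X k <;> by_cases a3 : l ∈ Y k <;>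
        by_cases a4 : j ∈ Y k <;> simp_all
    right
    refine ⟨i, k, l, j, hki.symm, sw_mem hY hki.symm hl' hj' hc2.1 hc2.2, ?_⟩
    apply overlap_gain hki.symm hjl.symm hj' hc2.1 hc2.2 hl hj
    rintro ⟨h1, h2⟩
    simp only [w, if_neg h2, if_pos h1, if_neg hc2.2, if_pos hc2.1] at hk
    omega

theorem overlap_le {r : ι → ℕ} {c : κ → ℕ} {X : ι → Finset κ} (hX : X ∈ Tables r c)
    (Y : ι → Finset κ) : overlap X Y ≤ ∑ a, r a := by
  unfold overlap
  apply Finset.sum_le_sum
  intro a _
  rw [← (mem_Tables.mp hX).1 a]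
  exact Finset.card_le_card Finset.inter_subset_left

/-- A function constant along all row-pair fibres is constant. -/
theorem const_of_fibres {r : ι → ℕ} {c : κ → ℕ} (f : (ι → Finset κ) → ℝ)
    (h : ∀ x y, x ≠ y → ∀ T ∈ Tables r c, ∀ T' ∈ Tables r c, offRows x y T' = offRows x y T → f T' = f T) :
    ∀ X ∈ Tables r c, ∀ Y ∈ Tables r c, f X = f Y := by
  have key : ∀ n : ℕ, ∀ X ∈ Tables r c, ∀ Y ∈ Tables r c,
      (∑ a, r a) - overlap X Y ≤ n → f X = f Y := by
    intro n
    induction n with
    | zero =>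
      intro X hX Y hY hn
      by_contra hne
      have hXY : X ≠ Y := fun e => hne (e ▸ rfl)
      have hlow := overlap_le hX Y
      rcases exists_gain hX hY hXY with ⟨x, y, j, l, _, hm, hg⟩ | ⟨x, y, j, l, _, hm, hg⟩
      · have := overlap_le hm Y
        omega
      · have := overlap_le hm X
        rw [overlap_comm] at hg
        omega
    | succ n ih =>
      intro X hX Y hY hn
      by_cases hXY : X = Y
      · rw [hXY]
      rcases exists_gain hX hY hXY with ⟨x, y, j, l, hxy, hm, hg⟩ | ⟨x, y, j, l, hxy, hm, hg⟩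
      · have h1 := h x y hxy X hX _ hm (sw_off X x y j l)
        have h2 := ih _ hm Y hY (by
          have := overlap_le hm Y
          omega)
        rw [← h1, h2]
      · have h1 := h x y hxy Y hY _ hm (sw_off Y x y j l)
        have h2 := ih X hX _ hm (by
          have := overlap_le hm X
          rw [overlap_comm X] at *
          omega)
        rw [h2, h1]
  intro X hX Y hY
  exact key _ X hX Y hY le_rfl

end Vale.Agent.Lib.P335
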