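import Vale.Agent.Lib.P335.Var

/-!
The count level of the three-row inequality: product weights on a simplex.
-/

namespace Vale.Agent.Lib.P335

open Finset BigOperators

/-- Ratio-decreasing positive sequences. -/
def LC2 (h : ℕ → ℝ) : Prop := ∀ p q, p ≤ q → h p * h (q + 1) ≤ h (p + 1) * h q

/-- Total weight on an antidiagonal. -/
noncomputable def conv (f h : ℕ → ℝ) (S : ℕ) : ℝ := ∑ q ∈ antidiagonal S, f q.1 * h q.2

/-- Conditional mean of `u` of the first coordinate given the sum `S`. -/
noncomputable def Em (f h u : ℕ → ℝ) (S : ℕ) : ℝ :=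
  (∑ q ∈ antidiagonal S, f q.1 * h q.2 * u q.1) / conv f h S

theorem conv_pos {f h : ℕ → ℝ} (hf : ∀ t, 0 < f t) (hh : ∀ t, 0 < h t) (S : ℕ) : 0 < conv f h S := by
  unfold conv
  apply Finset.sum_pos
  · intro q _
    exact mul_pos (hf _) (hh _)
  · exact ⟨(0, S), by simp⟩

theorem conv_comm (f h : ℕ → ℝ) (S : ℕ) : conv f h S = conv h f S := by
  unfold conv
  rw [← Finset.Nat.sum_antidiagonal_swap]
  exact Finset.sum_congr rfl (fun q _ => by simp [mul_comm])

/-- Efron monotonicity for product weights. -/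
theorem efron {f h u : ℕ → ℝ} (hf : ∀ t, 0 < f t) (hh : ∀ t, 0 < h t) (lc : LC2 h) (S : ℕ)
    (hu : ∀ i j, i ≤ j → j ≤ S + 1 → u i ≤ u j) : Em f h u S ≤ Em f h u (S + 1) := by
  unfold Em
  rw [div_le_div_iff₀ (conv_pos hf hh S) (conv_pos hf hh (S + 1))]
  unfold conv
  simp only [Finset.Nat.sum_antidiagonal_eq_sum_range_succ_mk]
  -- extend the first weight by zero
  set c : ℕ → ℝ := fun t => if t ≤ S then f t * h (S - t) else 0 with hc
  set d : ℕ → ℝ := fun t => f t * h (S + 1 - t) with hd
  have e1 : ∑ k ∈ range (S + 1), f k * h (S - k) * u k = ∑ k ∈ range (S + 2), c k * u k := by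
    rw [Finset.sum_range_succ _ (S + 1)]
    simp only [hc]
    rw [if_neg (by omega), zero_mul, add_zero]
    apply Finset.sum_congr rfl
    intro k hk
    rw [if_pos (by simpa [Nat.lt_succ_iff] using hk)]
  have e2 : ∑ k ∈ range (S + 1), f k * h (S - k) = ∑ k ∈ range (S + 2), c k := by
    rw [Finset.sum_range_succ _ (S + 1)]
    simp only [hc]
    rw [if_neg (by omega), add_zero]
    apply Finset.sum_congr rfl
    intro k hk
    rw [if_pos (by simpa [Nat.lt_succ_iff] using hk)]
  rw [e1, e2]
  change (∑ k ∈ range (S + 2), c k * u k) * (∑ k ∈ range (S + 1 + 1), d k)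
    ≤ (∑ k ∈ range (S + 1 + 1), d k * u k) * (∑ k ∈ range (S + 2), c k)
  -- the symmetrised double sum
  have key : 0 ≤ ∑ s ∈ range (S + 2), ∑ t ∈ range (S + 2),
      (c s * d t - c t * d s) * (u t - u s) := by
    apply Finset.sum_nonneg
    intro s hs
    apply Finset.sum_nonneg
    intro t ht
    have hs' : s ≤ S + 1 := by simpa [Nat.lt_succ_iff] using hs
    have ht' : t ≤ S + 1 := by simpa [Nat.lt_succ_iff] using ht
    -- the cross inequality for `a ≤ b`
    have cross : ∀ a b, a ≤ b → b ≤ S + 1 → c b * d a ≤ c a * d b := by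
      intro a b hab hb
      by_cases hbS : b ≤ S
      · have ha : a ≤ S := le_trans hab hbS
        simp only [hc, hd]
        rw [if_pos hbS, if_pos ha]
        have e3 : S + 1 - a = (S - a) + 1 := by omega
        have e4 : S + 1 - b = (S - b) + 1 := by omega
        rw [e3, e4]
        have l := lc (S - b) (S - a) (by omega)
        have hpos : 0 ≤ f a * f b := (mul_pos (hf a) (hf b)).le
        nlinarith [mul_le_mul_of_nonneg_left l hpos]
      · simp only [hc, hd]
        rw [if_neg hbS, zero_mul]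
        have : 0 ≤ (if a ≤ S then f a * h (S - a) else 0) := by
          split_ifs
          · exact (mul_pos (hf _) (hh _)).le
          · exact le_rfl
        exact mul_nonneg this (mul_pos (hf _) (hh _)).le
    rcases le_total s t with hst | hst
    · have h1 := cross s t hst ht'
      have h2 := hu s t hst ht'
      exact mul_nonneg (by linarith) (by linarith)
    · have h1 := cross t s hst hs'
      have h2 := hu t s hst hs'
      exact mul_nonneg_of_nonpos_of_nonpos (by linarith) (by linarith)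
  have expand : ∑ s ∈ range (S + 2), ∑ t ∈ range (S + 2), (c s * d t - c t * d s) * (u t - u s)
      = 2 * ((∑ k ∈ range (S + 2), d k * u k) * (∑ k ∈ range (S + 2), c k)
          - (∑ k ∈ range (S + 2), c k * u k) * (∑ k ∈ range (S + 2), d k)) := by
    have a1 : ∑ s ∈ range (S + 2), ∑ t ∈ range (S + 2), c s * d t * u t
        = (∑ k ∈ range (S + 2), d k * u k) * (∑ k ∈ range (S + 2), c k) := by
      rw [mul_comm, Finset.sum_mul_sum]
      exact Finset.sum_congr rfl (fun _ _ => Finset.sum_congr rfl (fun _ _ => by ring))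
    have a2 : ∑ s ∈ range (S + 2), ∑ t ∈ range (S + 2), c s * d t * u s
        = (∑ k ∈ range (S + 2), c k * u k) * (∑ k ∈ range (S + 2), d k) := by
      rw [Finset.sum_mul_sum]
      exact Finset.sum_congr rfl (fun _ _ => Finset.sum_congr rfl (fun _ _ => by ring))
    have a3 : ∑ s ∈ range (S + 2), ∑ t ∈ range (S + 2), c t * d s * u t
        = (∑ k ∈ range (S + 2), c k * u k) * (∑ k ∈ range (S + 2), d k) := by
      rw [Finset.sum_comm, Finset.sum_mul_sum]
      exact Finset.sum_congr rfl (fun _ _ => Finset.sum_congr rfl (fun _ _ => by ring))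
    have a4 : ∑ s ∈ range (S + 2), ∑ t ∈ range (S + 2), c t * d s * u s
        = (∑ k ∈ range (S + 2), d k * u k) * (∑ k ∈ range (S + 2), c k) := by
      rw [Finset.sum_comm, mul_comm, Finset.sum_mul_sum]
      exact Finset.sum_congr rfl (fun _ _ => Finset.sum_congr rfl (fun _ _ => by ring))
    have a5 : ∀ s t, (c s * d t - c t * d s) * (u t - u s)
        = c s * d t * u t - c s * d t * u s - c t * d s * u t + c t * d s * u s := by
      intro s t; ring
    simp only [a5, Finset.sum_sub_distrib, Finset.sum_add_distrib]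
    rw [a1, a2, a3, a4]
    ring
  rw [expand] at key
  have : (∑ k ∈ range (S + 1 + 1), d k) = ∑ k ∈ range (S + 2), d k := rfl
  simp only [show S + 1 + 1 = S + 2 from rfl] at *
  linarith

/-- Conditional mean of `u(first) + v(second)` given the sum. -/
noncomputable def Phi (f h u v : ℕ → ℝ) (S : ℕ) : ℝ :=
  (∑ q ∈ antidiagonal S, f q.1 * h q.2 * (u q.1 + v q.2)) / conv f h S

theorem Phi_eq (f h u v : ℕ → ℝ) (S : ℕ) : Phi f h u v S = Em f h u S + Em h f v S := by
  unfold Phi Em
  rw [conv_comm h f, ← add_div]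
  congr 1
  have : ∑ q ∈ antidiagonal S, h q.1 * f q.2 * v q.1
      = ∑ q ∈ antidiagonal S, f q.1 * h q.2 * v q.2 := by
    rw [← Finset.Nat.sum_antidiagonal_swap]
    exact Finset.sum_congr rfl (fun q _ => by simp [mul_comm])
  rw [this, ← Finset.sum_add_distrib]
  exact Finset.sum_congr rfl (fun q _ => by ring)

theorem Em_add_id {f h : ℕ → ℝ} (hf : ∀ t, 0 < f t) (hh : ∀ t, 0 < h t) (S : ℕ) :
    Em f h (fun t => (t : ℝ)) S + Em h f (fun t => (t : ℝ)) S = S := by
  have := Phi_eq f h (fun t => (t : ℝ)) (fun t => (t : ℝ)) S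
  rw [← this]
  unfold Phi
  have e : ∑ q ∈ antidiagonal S, f q.1 * h q.2 * ((q.1 : ℝ) + (q.2 : ℝ))
      = ∑ q ∈ antidiagonal S, f q.1 * h q.2 * (S : ℝ) := by
    apply Finset.sum_congr rfl
    intro q hq
    have : q.1 + q.2 = S := Finset.HasAntidiagonal.mem_antidiagonal.mp hq
    rw [← this]; push_cast; ring
  rw [e, ← Finset.sum_mul]
  have hc := conv_pos hf hh S
  unfold conv at *
  field_simp

theorem Em_add (f h u v : ℕ → ℝ) (S : ℕ) :
    Em f h (fun t => u t + v t) S = Em f h u S + Em f h v S := by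
  unfold Em
  rw [← add_div, ← Finset.sum_add_distrib]
  congr 1
  exact Finset.sum_congr rfl (fun q _ => by ring)

theorem Em_smul (f h u : ℕ → ℝ) (c : ℝ) (S : ℕ) :
    Em f h (fun t => c * u t) S = c * Em f h u S := by
  unfold Em
  rw [← mul_div_assoc, Finset.mul_sum]
  congr 1
  exact Finset.sum_congr rfl (fun q _ => by ring)

/-- Lipschitz bound for `Phi` in `S`, one sided. -/
theorem Phi_step_aux {f h u v : ℕ → ℝ} (hf : ∀ t, 0 < f t) (hh : ∀ t, 0 < h t) (lf : LC2 f)
    (lh : LC2 h) (M : ℝ) (S : ℕ)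
    (hu : ∀ t, t < S + 1 → u t - u (t + 1) ≤ M)
    (hv : ∀ t, t < S + 1 → v t - v (t + 1) ≤ M) :
    Phi f h u v S - Phi f h u v (S + 1) ≤ M := by
  have monoU : ∀ i j, i ≤ j → j ≤ S + 1 → u i + M * (i : ℝ) ≤ u j + M * (j : ℝ) := by
    intro i j hij
    induction j, hij using Nat.le_induction with
    | base => intro _; exact le_rfl
    | succ k hk ih =>
      intro hk2
      have := ih (by omega)
      have h2 := hu k (by omega)
      push_cast
      linarith
  have monoV : ∀ i j, i ≤ j → j ≤ S + 1 → v i + M * (i : ℝ) ≤ v j + M * (j : ℝ) := by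
    intro i j hij
    induction j, hij using Nat.le_induction with
    | base => intro _; exact le_rfl
    | succ k hk ih =>
      intro hk2
      have := ih (by omega)
      have h2 := hv k (by omega)
      push_cast
      linarith
  have e1 := efron (u := fun t => u t + M * (t : ℝ)) hf hh lh S monoU
  have e2 := efron (u := fun t => v t + M * (t : ℝ)) hh hf lf S monoV
  rw [Em_add, Em_add, Em_smul f h (fun t => (t : ℝ)), Em_smul f h (fun t => (t : ℝ))] at e1
  rw [Em_add, Em_add, Em_smul h f (fun t => (t : ℝ)), Em_smul h f (fun t => (t : ℝ))] at e2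
  rw [Phi_eq, Phi_eq]
  have i1 := Em_add_id hf hh S
  have i2 := Em_add_id hf hh (S + 1)
  push_cast at i2
  have : M * Em f h (fun t => (t : ℝ)) S + M * Em h f (fun t => (t : ℝ)) S = M * S := by
    rw [← mul_add, i1]
  have : M * Em f h (fun t => (t : ℝ)) (S + 1) + M * Em h f (fun t => (t : ℝ)) (S + 1)
      = M * (S + 1) := by
    rw [← mul_add, i2]
  nlinarith

theorem Phi_neg (f h u v : ℕ → ℝ) (S : ℕ) :
    Phi f h (fun t => - u t) (fun t => - v t) S = - Phi f h u v S := by
  unfold Phi
  rw [← neg_div, ← Finset.sum_neg_distrib]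
  congr 1
  exact Finset.sum_congr rfl (fun q _ => by ring)

/-- Lipschitz bound for `Phi` in `S`. -/
theorem Phi_step {f h u v : ℕ → ℝ} (hf : ∀ t, 0 < f t) (hh : ∀ t, 0 < h t) (lf : LC2 f)
    (lh : LC2 h) (M : ℝ) (S : ℕ)
    (hu : ∀ t, t < S + 1 → |u (t + 1) - u t| ≤ M)
    (hv : ∀ t, t < S + 1 → |v (t + 1) - v t| ≤ M) :
    |Phi f h u v (S + 1) - Phi f h u v S| ≤ M := by
  rw [abs_le]
  constructor
  · have := Phi_step_aux hf hh lf lh M S
      (fun t ht => by have := (abs_le.mp (hu t ht)).1; linarith)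
      (fun t ht => by have := (abs_le.mp (hv t ht)).1; linarith)
    linarith
  · have := Phi_step_aux (u := fun t => - u t) (v := fun t => - v t) hf hh lf lh M S
      (fun t ht => by have := (abs_le.mp (hu t ht)).2; linarith)
      (fun t ht => by have := (abs_le.mp (hv t ht)).2; linarith)
    rw [Phi_neg, Phi_neg] at this
    linarith

end Vale.Agent.Lib.P335
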