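import Vale.Agent.Lib.P335.Count

/-!
The count level of the three-row inequality: the operator `K` and the power trick.
-/

namespace Vale.Agent.Lib.P335

open Finset BigOperators

/-- Triples of naturals with sum `a`. -/
def Tri (a : ℕ) : Finset (ℕ × ℕ × ℕ) :=
  (range (a + 1) ×ˢ range (a + 1) ×ˢ range (a + 1)).filter (fun t => t.1 + t.2.1 + t.2.2 = a)

theorem mem_Tri {a : ℕ} {t : ℕ × ℕ × ℕ} : t ∈ Tri a ↔ t.1 + t.2.1 + t.2.2 = a := by
  unfold Tri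
  simp only [Finset.mem_filter, Finset.mem_product, Finset.mem_range]
  constructor
  · exact fun h => h.2
  · intro h
    exact ⟨⟨by omega, by omega, by omega⟩, h⟩

theorem sum_Tri_fst (a : ℕ) (F : ℕ × ℕ × ℕ → ℝ) :
    ∑ t ∈ Tri a, F t = ∑ x ∈ range (a + 1), ∑ q ∈ antidiagonal (a - x), F (x, q.1, q.2) := by
  rw [Finset.sum_sigma']
  apply Finset.sum_bij' (fun t _ => (⟨t.1, (t.2.1, t.2.2)⟩ : Σ _ : ℕ, ℕ × ℕ))
    (fun s _ => (s.1, s.2.1, s.2.2))
  · intro t ht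
    have := mem_Tri.mp ht
    simp only [Finset.mem_sigma, Finset.mem_range, Finset.HasAntidiagonal.mem_antidiagonal]
    omega
  · intro s hs
    simp only [Finset.mem_sigma, Finset.mem_range, Finset.HasAntidiagonal.mem_antidiagonal] at hs
    apply mem_Tri.mpr
    simp only
    omega
  · intro t _; rfl
  · intro s _; rfl
  · intro t _; rfl

theorem sum_Tri_snd (a : ℕ) (F : ℕ × ℕ × ℕ → ℝ) :
    ∑ t ∈ Tri a, F t = ∑ y ∈ range (a + 1), ∑ q ∈ antidiagonal (a - y), F (q.1, y, q.2) := by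
  rw [Finset.sum_sigma']
  apply Finset.sum_bij' (fun t _ => (⟨t.2.1, (t.1, t.2.2)⟩ : Σ _ : ℕ, ℕ × ℕ))
    (fun s _ => (s.2.1, s.1, s.2.2))
  · intro t ht
    have := mem_Tri.mp ht
    simp only [Finset.mem_sigma, Finset.mem_range, Finset.HasAntidiagonal.mem_antidiagonal]
    omega
  · intro s hs
    simp only [Finset.mem_sigma, Finset.mem_range, Finset.HasAntidiagonal.mem_antidiagonal] at hs
    apply mem_Tri.mpr
    simp only
    omega
  · intro t _; rfl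
  · intro s _; rfl
  · intro t _; rfl

theorem sum_Tri_thd (a : ℕ) (F : ℕ × ℕ × ℕ → ℝ) :
    ∑ t ∈ Tri a, F t = ∑ z ∈ range (a + 1), ∑ q ∈ antidiagonal (a - z), F (q.1, q.2, z) := by
  rw [Finset.sum_sigma']
  apply Finset.sum_bij' (fun t _ => (⟨t.2.2, (t.1, t.2.1)⟩ : Σ _ : ℕ, ℕ × ℕ))
    (fun s _ => (s.2.1, s.2.2, s.1))
  · intro t ht
    have := mem_Tri.mp ht
    simp only [Finset.mem_sigma, Finset.mem_range, Finset.HasAntidiagonal.mem_antidiagonal]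
    omega
  · intro s hs
    simp only [Finset.mem_sigma, Finset.mem_range, Finset.HasAntidiagonal.mem_antidiagonal] at hs
    apply mem_Tri.mpr
    simp only
    omega
  · intro t _; rfl
  · intro s _; rfl
  · intro t _; rfl

/-- Triple of functions. -/
abbrev U3 := (ℕ → ℝ) × (ℕ → ℝ) × (ℕ → ℝ)

section Fixed

variable (f0 f1 f2 : ℕ → ℝ) (a : ℕ)

/-- Product weight. -/
def wgt (t : ℕ × ℕ × ℕ) : ℝ := f0 t.1 * f1 t.2.1 * f2 t.2.2

/-- Diagonal form. -/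
noncomputable def BB (u v : U3) : ℝ :=
  ∑ t ∈ Tri a, wgt f0 f1 f2 t *
    (u.1 t.1 * v.1 t.1 + u.2.1 t.2.1 * v.2.1 t.2.1 + u.2.2 t.2.2 * v.2.2 t.2.2)

/-- Off-diagonal form. -/
noncomputable def Cr (u v : U3) : ℝ :=
  ∑ t ∈ Tri a, wgt f0 f1 f2 t *
    ((u.2.1 t.2.1 + u.2.2 t.2.2) * v.1 t.1 + (u.1 t.1 + u.2.2 t.2.2) * v.2.1 t.2.1
      + (u.1 t.1 + u.2.1 t.2.1) * v.2.2 t.2.2)

/-- The conditional expectation operator on triples. -/
noncomputable def KK (u : U3) : U3 :=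
  (fun s => Phi f1 f2 u.2.1 u.2.2 (a - s),
   fun s => Phi f0 f2 u.1 u.2.2 (a - s),
   fun s => Phi f0 f1 u.1 u.2.1 (a - s))

theorem Cr_comm (u v : U3) : Cr f0 f1 f2 a u v = Cr f0 f1 f2 a v u := by
  unfold Cr
  exact Finset.sum_congr rfl (fun t _ => by ring)

theorem BB_comm (u v : U3) : BB f0 f1 f2 a u v = BB f0 f1 f2 a v u := by
  unfold BB
  exact Finset.sum_congr rfl (fun t _ => by ring)

variable {f0 f1 f2}

theorem wgt_pos (h0 : ∀ t, 0 < f0 t) (h1 : ∀ t, 0 < f1 t) (h2 : ∀ t, 0 < f2 t)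
    (t : ℕ × ℕ × ℕ) : 0 < wgt f0 f1 f2 t :=
  mul_pos (mul_pos (h0 _) (h1 _)) (h2 _)

theorem BB_KK_aux {g1 g2 : ℕ → ℝ} (hg1 : ∀ t, 0 < g1 t) (hg2 : ∀ t, 0 < g2 t)
    (x1 x2 : ℕ → ℝ) (v : ℕ → ℝ) (x : ℕ) (c : ℝ) :
    ∑ q ∈ antidiagonal (a - x), c * g1 q.1 * g2 q.2 * (Phi g1 g2 x1 x2 (a - x) * v x)
      = ∑ q ∈ antidiagonal (a - x), c * g1 q.1 * g2 q.2 * ((x1 q.1 + x2 q.2) * v x) := by
  have hc := conv_pos hg1 hg2 (a - x)
  have e1 : ∑ q ∈ antidiagonal (a - x), c * g1 q.1 * g2 q.2 * (Phi g1 g2 x1 x2 (a - x) * v x)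
      = c * v x * (Phi g1 g2 x1 x2 (a - x) * conv g1 g2 (a - x)) := by
    unfold conv
    rw [Finset.mul_sum, Finset.mul_sum]
    exact Finset.sum_congr rfl (fun q _ => by ring)
  have e2 : Phi g1 g2 x1 x2 (a - x) * conv g1 g2 (a - x)
      = ∑ q ∈ antidiagonal (a - x), g1 q.1 * g2 q.2 * (x1 q.1 + x2 q.2) := by
    unfold Phi
    field_simp
  rw [e1, e2, Finset.mul_sum]
  exact Finset.sum_congr rfl (fun q _ => by ring)

theorem BB_KK (h0 : ∀ t, 0 < f0 t) (h1 : ∀ t, 0 < f1 t) (h2 : ∀ t, 0 < f2 t) (u v : U3) :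
    BB f0 f1 f2 a (KK f0 f1 f2 a u) v = Cr f0 f1 f2 a u v := by
  unfold BB Cr KK wgt
  simp only [mul_add, Finset.sum_add_distrib]
  congr 1
  · congr 1
    · rw [sum_Tri_fst, sum_Tri_fst]
      apply Finset.sum_congr rfl
      intro x _
      simp only []
      exact BB_KK_aux a h1 h2 u.2.1 u.2.2 v.1 x (f0 x)
    · rw [sum_Tri_snd, sum_Tri_snd]
      apply Finset.sum_congr rfl
      intro x _
      simp only []
      have := BB_KK_aux a h0 h2 u.1 u.2.2 v.2.1 x (f1 x)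
      calc _ = ∑ q ∈ antidiagonal (a - x), f1 x * f0 q.1 * f2 q.2 * (Phi f0 f2 u.1 u.2.2 (a - x) * v.2.1 x) :=
            Finset.sum_congr rfl (fun q _ => by ring)
        _ = ∑ q ∈ antidiagonal (a - x), f1 x * f0 q.1 * f2 q.2 * ((u.1 q.1 + u.2.2 q.2) * v.2.1 x) := this
        _ = _ := Finset.sum_congr rfl (fun q _ => by ring)
  · rw [sum_Tri_thd, sum_Tri_thd]
    apply Finset.sum_congr rfl
    intro x _
    simp only []
    have := BB_KK_aux a h0 h1 u.1 u.2.1 v.2.2 x (f2 x)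
    calc _ = ∑ q ∈ antidiagonal (a - x), f2 x * f0 q.1 * f1 q.2 * (Phi f0 f1 u.1 u.2.1 (a - x) * v.2.2 x) :=
          Finset.sum_congr rfl (fun q _ => by ring)
      _ = ∑ q ∈ antidiagonal (a - x), f2 x * f0 q.1 * f1 q.2 * ((u.1 q.1 + u.2.1 q.2) * v.2.2 x) := this
      _ = _ := Finset.sum_congr rfl (fun q _ => by ring)

theorem BB_self_nonneg (h0 : ∀ t, 0 < f0 t) (h1 : ∀ t, 0 < f1 t) (h2 : ∀ t, 0 < f2 t) (u : U3) :
    0 ≤ BB f0 f1 f2 a u u := by
  unfold BB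
  apply Finset.sum_nonneg
  intro t _
  apply mul_nonneg (wgt_pos h0 h1 h2 t).le
  nlinarith [mul_self_nonneg (u.1 t.1), mul_self_nonneg (u.2.1 t.2.1), mul_self_nonneg (u.2.2 t.2.2)]

/-- Cauchy-Schwarz for the diagonal form. -/
theorem BB_cs (h0 : ∀ t, 0 < f0 t) (h1 : ∀ t, 0 < f1 t) (h2 : ∀ t, 0 < f2 t) (u v : U3) :
    BB f0 f1 f2 a u v ^ 2 ≤ BB f0 f1 f2 a u u * BB f0 f1 f2 a v v := by
  have hq : ∀ l : ℝ, 0 ≤ BB f0 f1 f2 a v v * (l * l) + (2 * BB f0 f1 f2 a u v) * l + BB f0 f1 f2 a u u := by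
    intro l
    have := BB_self_nonneg a h0 h1 h2
      ((fun s => u.1 s + l * v.1 s, fun s => u.2.1 s + l * v.2.1 s, fun s => u.2.2 s + l * v.2.2 s) : U3)
    have e : BB f0 f1 f2 a
        ((fun s => u.1 s + l * v.1 s, fun s => u.2.1 s + l * v.2.1 s, fun s => u.2.2 s + l * v.2.2 s) : U3)
        ((fun s => u.1 s + l * v.1 s, fun s => u.2.1 s + l * v.2.1 s, fun s => u.2.2 s + l * v.2.2 s) : U3)
        = BB f0 f1 f2 a v v * (l * l) + (2 * BB f0 f1 f2 a u v) * l + BB f0 f1 f2 a u u := by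
      unfold BB
      simp only [Finset.sum_mul, Finset.mul_sum]
      rw [← Finset.sum_add_distrib, ← Finset.sum_add_distrib]
      exact Finset.sum_congr rfl (fun t _ => by ring)
    rw [e] at this
    exact this
  have := discrim_le_zero hq
  unfold discrim at this
  nlinarith

/-- Mean zero triples. -/
def MeanZero (f0 f1 f2 : ℕ → ℝ) (a : ℕ) (u : U3) : Prop :=
  ∑ t ∈ Tri a, wgt f0 f1 f2 t * u.1 t.1 = 0 ∧ ∑ t ∈ Tri a, wgt f0 f1 f2 t * u.2.1 t.2.1 = 0 ∧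
    ∑ t ∈ Tri a, wgt f0 f1 f2 t * u.2.2 t.2.2 = 0

/-- Lipschitz triples. -/
def LipT (a : ℕ) (M : ℝ) (u : U3) : Prop :=
  ∀ s, s < a → |u.1 (s + 1) - u.1 s| ≤ M ∧ |u.2.1 (s + 1) - u.2.1 s| ≤ M ∧
    |u.2.2 (s + 1) - u.2.2 s| ≤ M

theorem KK_meanZero (h0 : ∀ t, 0 < f0 t) (h1 : ∀ t, 0 < f1 t) (h2 : ∀ t, 0 < f2 t) {u : U3}
    (hu : MeanZero f0 f1 f2 a u) : MeanZero f0 f1 f2 a (KK f0 f1 f2 a u) := by
  obtain ⟨m0, m1, m2⟩ := hu
  refine ⟨?_, ?_, ?_⟩
  · have := BB_KK a h0 h1 h2 u ((fun _ => 1, fun _ => 0, fun _ => 0) : U3)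
    unfold BB Cr at this
    simp only [mul_one, mul_zero, add_zero, zero_add] at this
    rw [this]
    simp only [mul_add, Finset.sum_add_distrib, m1, m2, add_zero]
  · have := BB_KK a h0 h1 h2 u ((fun _ => 0, fun _ => 1, fun _ => 0) : U3)
    unfold BB Cr at this
    simp only [mul_one, mul_zero, add_zero, zero_add] at this
    rw [this]
    simp only [mul_add, Finset.sum_add_distrib, m0, m2, add_zero]
  · have := BB_KK a h0 h1 h2 u ((fun _ => 0, fun _ => 0, fun _ => 1) : U3)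
    unfold BB Cr at this
    simp only [mul_one, mul_zero, add_zero, zero_add] at this
    rw [this]
    simp only [mul_add, Finset.sum_add_distrib, m0, m1, add_zero]

theorem KK_lip (h0 : ∀ t, 0 < f0 t) (h1 : ∀ t, 0 < f1 t) (h2 : ∀ t, 0 < f2 t)
    (l0 : LC2 f0) (l1 : LC2 f1) (l2 : LC2 f2) {M : ℝ} {u : U3}
    (hu : LipT a M u) : LipT a M (KK f0 f1 f2 a u) := by
  intro s hs
  have hS : a - s = (a - (s + 1)) + 1 := by omega
  refine ⟨?_, ?_, ?_⟩
  · simp only [KK]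
    rw [hS, abs_sub_comm]
    apply Phi_step h1 h2 l1 l2
    · intro t ht; exact (hu t (by omega)).2.1
    · intro t ht; exact (hu t (by omega)).2.2
  · simp only [KK]
    rw [hS, abs_sub_comm]
    apply Phi_step h0 h2 l0 l2
    · intro t ht; exact (hu t (by omega)).1
    · intro t ht; exact (hu t (by omega)).2.2
  · simp only [KK]
    rw [hS, abs_sub_comm]
    apply Phi_step h0 h1 l0 l1
    · intro t ht; exact (hu t (by omega)).1
    · intro t ht; exact (hu t (by omega)).2.1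

/-- Oscillation bound on an initial segment. -/
theorem osc_bound {v : ℕ → ℝ} {a : ℕ} {M : ℝ} (hM : 0 ≤ M) (hv : ∀ s, s < a → |v (s + 1) - v s| ≤ M)
    (i j : ℕ) (hi : i ≤ a) (hj : j ≤ a) : |v i - v j| ≤ (a : ℝ) * M := by
  have step : ∀ i j, i ≤ j → j ≤ a → |v j - v i| ≤ ((j - i : ℕ) : ℝ) * M := by
    intro i j hij
    induction j, hij using Nat.le_induction with
    | base => intro _; simp
    | succ k hk ih =>
      intro hk2
      have h1 := ih (by omega)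
      have h2 := hv k (by omega)
      have e : ((k + 1 - i : ℕ) : ℝ) = ((k - i : ℕ) : ℝ) + 1 := by
        have : k + 1 - i = (k - i) + 1 := by omega
        rw [this]; push_cast; ring
      rw [e]
      calc |v (k + 1) - v i| = |(v (k + 1) - v k) + (v k - v i)| := by ring_nf
        _ ≤ |v (k + 1) - v k| + |v k - v i| := abs_add_le _ _
        _ ≤ (((k - i : ℕ) : ℝ) + 1) * M := by nlinarith
  rcases le_total i j with h | h
  · have h1 := step i j h hj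
    rw [abs_sub_comm]
    refine le_trans h1 (mul_le_mul_of_nonneg_right ?_ hM)
    have : j - i ≤ a := by omega
    exact_mod_cast this
  · have h1 := step j i h hi
    refine le_trans h1 (mul_le_mul_of_nonneg_right ?_ hM)
    have : i - j ≤ a := by omega
    exact_mod_cast this

theorem mean_zero_bound {W : ℝ} {a : ℕ} {C : ℝ} {v : ℕ → ℝ} {T : Finset (ℕ × ℕ × ℕ)}
    {w : ℕ × ℕ × ℕ → ℝ} {pr : ℕ × ℕ × ℕ → ℕ} (hw : ∀ t, 0 < w t) (hT : T.Nonempty)
    (hW : W = ∑ t ∈ T, w t)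
    (hpr : ∀ t ∈ T, pr t ≤ a) (hosc : ∀ i j, i ≤ a → j ≤ a → |v i - v j| ≤ C)
    (hm : ∑ t ∈ T, w t * v (pr t) = 0) (s : ℕ) (hs : s ≤ a) : |v s| ≤ C := by
  have hWpos : 0 < W := by
    rw [hW]; exact Finset.sum_pos (fun t _ => hw t) hT
  have e : v s * W = ∑ t ∈ T, w t * (v s - v (pr t)) := by
    rw [hW, Finset.mul_sum]
    have : ∑ t ∈ T, w t * (v s - v (pr t)) = ∑ t ∈ T, w t * v s - ∑ t ∈ T, w t * v (pr t) := by
      rw [← Finset.sum_sub_distrib]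
      exact Finset.sum_congr rfl (fun t _ => by ring)
    rw [this, hm, sub_zero]
    exact Finset.sum_congr rfl (fun t _ => by ring)
  have h2 : |v s * W| ≤ C * W := by
    rw [e, hW, Finset.mul_sum]
    refine le_trans (Finset.abs_sum_le_sum_abs _ _) ?_
    apply Finset.sum_le_sum
    intro t ht
    rw [abs_mul, abs_of_pos (hw t), mul_comm]
    exact mul_le_mul_of_nonneg_right (hosc s (pr t) hs (hpr t ht)) (hw t).le
  rw [abs_mul, abs_of_pos hWpos] at h2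
  exact le_of_mul_le_mul_right h2 hWpos

/-- Log-convex bounded sequences do not increase at the start. -/
theorem seq_lemma {b : ℕ → ℝ} {C : ℝ} (hb : ∀ n, 0 ≤ b n) (hlc : ∀ n, b (n + 1) ^ 2 ≤ b n * b (n + 2))
    (hC : ∀ n, b n ≤ C) : b 1 ≤ b 0 := by
  by_contra hcon
  push Not at hcon
  have hb0 : 0 < b 0 := by
    rcases (hb 0).lt_or_eq with h | h
    · exact h
    · exfalso
      have := hlc 0
      rw [← h] at this
      simp only [zero_mul] at this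
      have h1 : 0 < b 1 := lt_of_le_of_lt (hb 0) hcon
      nlinarith
  set r := b 1 / b 0 with hr
  have hr1 : 1 < r := by
    rw [hr, one_lt_div hb0]; exact hcon
  have main : ∀ n, 0 < b n ∧ r * b n ≤ b (n + 1) := by
    intro n
    induction n with
    | zero =>
      refine ⟨hb0, ?_⟩
      rw [hr]
      field_simp
      exact le_rfl
    | succ k ih =>
      obtain ⟨ih1, ih2⟩ := ih
      have hpos : 0 < b (k + 1) := lt_of_lt_of_le (by positivity) ih2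
      refine ⟨hpos, ?_⟩
      have h3 := hlc k
      have : r * b (k + 1) * b k ≤ b (k + 2) * b k := by
        have : r * b k * b (k + 1) ≤ b (k + 1) * b (k + 1) :=
          mul_le_mul_of_nonneg_right ih2 hpos.le
        nlinarith
      exact le_of_mul_le_mul_right this ih1
  have growth : ∀ n, r ^ n * b 0 ≤ b n := by
    intro n
    induction n with
    | zero => simp
    | succ k ih =>
      have := (main k).2
      have hr0 : 0 < r := by linarith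
      calc r ^ (k + 1) * b 0 = r * (r ^ k * b 0) := by ring
        _ ≤ r * b k := mul_le_mul_of_nonneg_left ih hr0.le
        _ ≤ b (k + 1) := this
  obtain ⟨n, hn⟩ := pow_unbounded_of_one_lt (C / b 0) hr1
  have h4 := growth n
  have h5 := hC n
  rw [div_lt_iff₀ hb0] at hn
  linarith

theorem iterate_props (h0 : ∀ t, 0 < f0 t) (h1 : ∀ t, 0 < f1 t) (h2 : ∀ t, 0 < f2 t)
    (l0 : LC2 f0) (l1 : LC2 f1) (l2 : LC2 f2) {M : ℝ} {u : U3}
    (hm : MeanZero f0 f1 f2 a u) (hl : LipT a M u) (n : ℕ) :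
    MeanZero f0 f1 f2 a ((KK f0 f1 f2 a)^[n] u) ∧ LipT a M ((KK f0 f1 f2 a)^[n] u) := by
  induction n with
  | zero => exact ⟨hm, hl⟩
  | succ k ih =>
    rw [Function.iterate_succ_apply']
    exact ⟨KK_meanZero a h0 h1 h2 ih.1, KK_lip a h0 h1 h2 l0 l1 l2 ih.2⟩

/-- A uniform bound for `BB` on mean zero Lipschitz triples. -/
theorem BB_bound (h0 : ∀ t, 0 < f0 t) (h1 : ∀ t, 0 < f1 t) (h2 : ∀ t, 0 < f2 t) {M : ℝ} (hM : 0 ≤ M)
    {u : U3} (hm : MeanZero f0 f1 f2 a u) (hl : LipT a M u) :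
    BB f0 f1 f2 a u u ≤ ∑ t ∈ Tri a, wgt f0 f1 f2 t * (3 * ((a : ℝ) * M) ^ 2) := by
  have hT : (Tri a).Nonempty := ⟨(a, 0, 0), mem_Tri.mpr (by simp)⟩
  have hw := wgt_pos h0 h1 h2
  unfold BB
  apply Finset.sum_le_sum
  intro t ht
  have ht' := mem_Tri.mp ht
  apply mul_le_mul_of_nonneg_left _ (hw t).le
  have b0 : |u.1 t.1| ≤ (a : ℝ) * M :=
    mean_zero_bound (pr := fun t => t.1) hw hT rfl
      (fun t ht => by have := mem_Tri.mp ht; omega)
      (osc_bound hM (fun s hs => (hl s hs).1)) hm.1 _ (by omega)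
  have b1 : |u.2.1 t.2.1| ≤ (a : ℝ) * M :=
    mean_zero_bound (pr := fun t => t.2.1) hw hT rfl
      (fun t ht => by have := mem_Tri.mp ht; omega)
      (osc_bound hM (fun s hs => (hl s hs).2.1)) hm.2.1 _ (by omega)
  have b2 : |u.2.2 t.2.2| ≤ (a : ℝ) * M :=
    mean_zero_bound (pr := fun t => t.2.2) hw hT rfl
      (fun t ht => by have := mem_Tri.mp ht; omega)
      (osc_bound hM (fun s hs => (hl s hs).2.2)) hm.2.2 _ (by omega)
  have s0 := sq_le_sq' (abs_le.mp b0).1 (abs_le.mp b0).2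
  have s1 := sq_le_sq' (abs_le.mp b1).1 (abs_le.mp b1).2
  have s2 := sq_le_sq' (abs_le.mp b2).1 (abs_le.mp b2).2
  nlinarith

/-- The key inequality: the off-diagonal form is dominated by the diagonal one. -/
theorem Cr_le_BB (h0 : ∀ t, 0 < f0 t) (h1 : ∀ t, 0 < f1 t) (h2 : ∀ t, 0 < f2 t)
    (l0 : LC2 f0) (l1 : LC2 f1) (l2 : LC2 f2) {u : U3} (hm : MeanZero f0 f1 f2 a u) :
    Cr f0 f1 f2 a u u ≤ BB f0 f1 f2 a u u := by
  -- a Lipschitz constant
  set M : ℝ := ∑ s ∈ range a, (|u.1 (s + 1) - u.1 s| + |u.2.1 (s + 1) - u.2.1 s| + |u.2.2 (s + 1) - u.2.2 s|)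
    with hMdef
  have hM : 0 ≤ M := Finset.sum_nonneg (fun s _ => by positivity)
  have hl : LipT a M u := by
    intro s hs
    have hs' : s ∈ range a := Finset.mem_range.mpr hs
    have := Finset.single_le_sum (f := fun s => |u.1 (s + 1) - u.1 s| + |u.2.1 (s + 1) - u.2.1 s| + |u.2.2 (s + 1) - u.2.2 s|)
      (fun s _ => by positivity) hs'
    have a0 := abs_nonneg (u.1 (s + 1) - u.1 s)
    have a1 := abs_nonneg (u.2.1 (s + 1) - u.2.1 s)
    have a2 := abs_nonneg (u.2.2 (s + 1) - u.2.2 s)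
    refine ⟨by linarith, by linarith, by linarith⟩
  set K := KK f0 f1 f2 a with hK
  set b : ℕ → ℝ := fun n => BB f0 f1 f2 a (K^[n] u) (K^[n] u) with hb
  have hb0 : ∀ n, 0 ≤ b n := fun n => BB_self_nonneg a h0 h1 h2 _
  have hsym : ∀ x y, BB f0 f1 f2 a (K x) y = BB f0 f1 f2 a x (K y) := by
    intro x y
    rw [hK, BB_KK a h0 h1 h2, BB_comm, BB_KK a h0 h1 h2, Cr_comm]
  have hlc : ∀ n, b (n + 1) ^ 2 ≤ b n * b (n + 2) := by
    intro n
    have e : b (n + 1) = BB f0 f1 f2 a (K^[n] u) (K^[n + 2] u) := by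
      simp only [hb]
      rw [Function.iterate_succ_apply', hsym, ← Function.iterate_succ_apply' K, ← Function.iterate_succ_apply' K]
    rw [e]
    exact BB_cs a h0 h1 h2 _ _
  have hC : ∀ n, b n ≤ ∑ t ∈ Tri a, wgt f0 f1 f2 t * (3 * ((a : ℝ) * M) ^ 2) := by
    intro n
    have := iterate_props a h0 h1 h2 l0 l1 l2 hm hl n
    exact BB_bound a h0 h1 h2 hM this.1 this.2
  have hone := seq_lemma hb0 hlc hC
  have e1 : Cr f0 f1 f2 a u u = BB f0 f1 f2 a (K u) u := (BB_KK a h0 h1 h2 u u).symm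
  have hb1 : b 1 = BB f0 f1 f2 a (K u) (K u) := rfl
  have hb00 : b 0 = BB f0 f1 f2 a u u := rfl
  have cs := BB_cs a h0 h1 h2 (K u) u
  rw [e1]
  rw [← hb1, ← hb00] at cs
  rw [← hb00]
  have hb0' := hb0 0
  have hb1' := hb0 1
  have : BB f0 f1 f2 a (K u) u ^ 2 ≤ b 0 ^ 2 := by
    refine le_trans cs ?_
    have : b 1 * b 0 ≤ b 0 * b 0 := mul_le_mul_of_nonneg_right hone hb0'
    nlinarith
  exact abs_le_of_sq_le_sq' this hb0' |>.2

/-- Weighted variance over a finite index set. -/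
noncomputable def wvar {γ : Type*} (T : Finset γ) (w F : γ → ℝ) : ℝ :=
  ∑ t ∈ T, w t * F t ^ 2 - (∑ t ∈ T, w t * F t) ^ 2 / ∑ t ∈ T, w t

theorem wvar_eq {γ : Type*} {T : Finset γ} {w F : γ → ℝ} (hW : 0 < ∑ t ∈ T, w t) :
    wvar T w F = ∑ t ∈ T, w t * (F t - (∑ s ∈ T, w s * F s) / ∑ s ∈ T, w s) ^ 2 := by
  unfold wvar
  set W := ∑ t ∈ T, w t with hWdef
  set m := ∑ t ∈ T, w t * F t with hm
  have : ∀ t, w t * (F t - m / W) ^ 2 = w t * F t ^ 2 - 2 * (m / W) * (w t * F t) + (m / W) ^ 2 * w t := by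
    intro t; ring
  simp only [this, Finset.sum_add_distrib, Finset.sum_sub_distrib, ← Finset.mul_sum]
  rw [← hWdef, ← hm]
  field_simp
  ring

/-- The count-level star inequality. -/
theorem count_star (h0 : ∀ t, 0 < f0 t) (h1 : ∀ t, 0 < f1 t) (h2 : ∀ t, 0 < f2 t)
    (l0 : LC2 f0) (l1 : LC2 f1) (l2 : LC2 f2) (u0 u1 u2 : ℕ → ℝ) :
    wvar (Tri a) (wgt f0 f1 f2) (fun t => u0 t.1 + u1 t.2.1 + u2 t.2.2)
      ≤ 2 * (wvar (Tri a) (wgt f0 f1 f2) (fun t => u0 t.1)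
        + wvar (Tri a) (wgt f0 f1 f2) (fun t => u1 t.2.1)
        + wvar (Tri a) (wgt f0 f1 f2) (fun t => u2 t.2.2)) := by
  have hT : (Tri a).Nonempty := ⟨(a, 0, 0), mem_Tri.mpr (by simp)⟩
  have hw := wgt_pos h0 h1 h2
  have hW : 0 < ∑ t ∈ Tri a, wgt f0 f1 f2 t := Finset.sum_pos (fun t _ => hw t) hT
  set W := ∑ t ∈ Tri a, wgt f0 f1 f2 t with hWdef
  set m0 := (∑ s ∈ Tri a, wgt f0 f1 f2 s * u0 s.1) / W with hm0
  set m1 := (∑ s ∈ Tri a, wgt f0 f1 f2 s * u1 s.2.1) / W with hm1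
  set m2 := (∑ s ∈ Tri a, wgt f0 f1 f2 s * u2 s.2.2) / W with hm2
  set v : U3 := (fun s => u0 s - m0, fun s => u1 s - m1, fun s => u2 s - m2) with hv
  have hW' : W ≠ 0 := hW.ne'
  have c0 : m0 * W = ∑ s ∈ Tri a, wgt f0 f1 f2 s * u0 s.1 := by rw [hm0]; field_simp
  have c1 : m1 * W = ∑ s ∈ Tri a, wgt f0 f1 f2 s * u1 s.2.1 := by rw [hm1]; field_simp
  have c2 : m2 * W = ∑ s ∈ Tri a, wgt f0 f1 f2 s * u2 s.2.2 := by rw [hm2]; field_simp
  have mz : MeanZero f0 f1 f2 a v := by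
    refine ⟨?_, ?_, ?_⟩
    · simp only [hv, mul_sub, Finset.sum_sub_distrib, ← Finset.sum_mul]
      rw [← hWdef, ← c0]; ring
    · simp only [hv, mul_sub, Finset.sum_sub_distrib, ← Finset.sum_mul]
      rw [← hWdef, ← c1]; ring
    · simp only [hv, mul_sub, Finset.sum_sub_distrib, ← Finset.sum_mul]
      rw [← hWdef, ← c2]; ring
  have key := Cr_le_BB a h0 h1 h2 l0 l1 l2 mz
  have eF : wvar (Tri a) (wgt f0 f1 f2) (fun t => u0 t.1 + u1 t.2.1 + u2 t.2.2)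
      = BB f0 f1 f2 a v v + Cr f0 f1 f2 a v v := by
    rw [wvar_eq hW]
    have hmean : (∑ s ∈ Tri a, wgt f0 f1 f2 s * (u0 s.1 + u1 s.2.1 + u2 s.2.2)) / W = m0 + m1 + m2 := by
      have : ∑ s ∈ Tri a, wgt f0 f1 f2 s * (u0 s.1 + u1 s.2.1 + u2 s.2.2)
          = ∑ s ∈ Tri a, wgt f0 f1 f2 s * u0 s.1 + ∑ s ∈ Tri a, wgt f0 f1 f2 s * u1 s.2.1
            + ∑ s ∈ Tri a, wgt f0 f1 f2 s * u2 s.2.2 := by
        rw [← Finset.sum_add_distrib, ← Finset.sum_add_distrib]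
        exact Finset.sum_congr rfl (fun s _ => by ring)
      rw [this, add_div, add_div]
    rw [hmean]
    unfold BB Cr
    rw [← Finset.sum_add_distrib]
    apply Finset.sum_congr rfl
    intro t _
    simp only [hv]
    ring
  have e0 : wvar (Tri a) (wgt f0 f1 f2) (fun t => u0 t.1)
      = ∑ t ∈ Tri a, wgt f0 f1 f2 t * (v.1 t.1) ^ 2 := by
    rw [wvar_eq hW]
  have e1 : wvar (Tri a) (wgt f0 f1 f2) (fun t => u1 t.2.1)
      = ∑ t ∈ Tri a, wgt f0 f1 f2 t * (v.2.1 t.2.1) ^ 2 := by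
    rw [wvar_eq hW]
  have e2 : wvar (Tri a) (wgt f0 f1 f2) (fun t => u2 t.2.2)
      = ∑ t ∈ Tri a, wgt f0 f1 f2 t * (v.2.2 t.2.2) ^ 2 := by
    rw [wvar_eq hW]
  have eB : BB f0 f1 f2 a v v = ∑ t ∈ Tri a, wgt f0 f1 f2 t * (v.1 t.1) ^ 2
      + ∑ t ∈ Tri a, wgt f0 f1 f2 t * (v.2.1 t.2.1) ^ 2
      + ∑ t ∈ Tri a, wgt f0 f1 f2 t * (v.2.2 t.2.2) ^ 2 := by
    unfold BB
    rw [← Finset.sum_add_distrib, ← Finset.sum_add_distrib]
    exact Finset.sum_congr rfl (fun t _ => by ring)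
  rw [eF, e0, e1, e2]
  rw [eB] at key ⊢
  linarith

end Fixed

end Vale.Agent.Lib.P335
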