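import Mathlib

/-!
The switch chain of the problem: graphs on `n` labelled vertices as edge sets, the set of
realizations of a degree vector, perfect matchings on a four-set, the kernel and the mixing time.
-/

namespace Vale.Agent.Lib.P335

open Finset BigOperators

/-- Edge sets on `n` labelled vertices. -/
abbrev EdgeSet (n : ℕ) := Finset (Sym2 (Fin n))

/-- `Ω_d`: the loopless edge sets in which each vertex `i` lies in exactly `d i` edges. -/
def Omega {n : ℕ} (d : Fin n → ℕ) : Finset (EdgeSet n) :=
  univ.filter (fun E => (∀ e ∈ E, ¬ e.IsDiag) ∧ ∀ i, (E.filter (fun e => i ∈ e)).card = d i)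

/-- Perfect matchings of the complete graph on `S`: sets of loopless edges inside `S` such that
each vertex of `S` lies in exactly one of them. -/
def perfectMatchings {n : ℕ} (S : Finset (Fin n)) : Finset (EdgeSet n) :=
  univ.filter (fun F => (∀ e ∈ F, ¬ e.IsDiag ∧ ∀ v ∈ e, v ∈ S) ∧
    ∀ v ∈ S, (F.filter (fun e => v ∈ e)).card = 1)

/-- If both edges of `F` are present and both edges of `F'` are absent, replace `F` by `F'`;
otherwise stay. -/
def switchStep {n : ℕ} (F F' G : EdgeSet n) : EdgeSet n :=
  if F ⊆ G ∧ Disjoint F' G then (G \ F) ∪ F' else G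

/-- The switch chain: with probability `1/2` stay; otherwise choose a uniform four-set `S`, a
uniform one of the six ordered pairs of distinct perfect matchings on `S`, and make the step. -/
noncomputable def switchChain (n : ℕ) : Matrix (EdgeSet n) (EdgeSet n) ℝ := fun G G' =>
  (1 / 2) * (if G = G' then 1 else 0)
    + (1 / 2) * ((1 / (n.choose 4 : ℝ)) * ∑ S ∈ powersetCard 4 (univ : Finset (Fin n)),
        ((1 / 6) * ∑ p ∈ (perfectMatchings S).offDiag,
          (if switchStep p.1 p.2 G = G' then 1 else 0)))

/-- Total variation distance between `P_d^t(G, ·)` and the uniform law on `Ω_d`. -/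
noncomputable def tvDist {n : ℕ} (d : Fin n → ℕ) (t : ℕ) (G : EdgeSet n) : ℝ :=
  (1 / 2) * ∑ G' ∈ Omega d, |(switchChain n ^ t) G G' - 1 / ((Omega d).card : ℝ)|

/-- The mixing time of `P_d`. -/
noncomputable def tmix {n : ℕ} (d : Fin n → ℕ) : ℕ :=
  sInf {t : ℕ | ∀ G ∈ Omega d, tvDist d t G ≤ 1 / 4}

end Vale.Agent.Lib.P335
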