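import Vale.Agent.Lib.P335.Var

/-!
The Johnson graph: the energy dominates twice the variance (each edge counted twice).
-/

namespace Vale.Agent.Lib.P335

open Finset BigOperators

variable {κ : Type*} [DecidableEq κ]

/-- The Johnson energy, each unordered edge counted twice. -/
noncomputable def johnsonE (D : Finset κ) (s : ℕ) (F : Finset κ → ℝ) : ℝ :=
  ∑ A ∈ powersetCard s D, ∑ j ∈ A, ∑ l ∈ D \ A, (F A - F (insert l (A.erase j))) ^ 2

theorem johnsonE_nonneg (D : Finset κ) (s : ℕ) (F : Finset κ → ℝ) : 0 ≤ johnsonE D s F :=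
  Finset.sum_nonneg fun _ _ => Finset.sum_nonneg fun _ _ => Finset.sum_nonneg fun _ _ => sq_nonneg _

/-- Double counting of (set, added element) against (larger set, marked element). -/
theorem sum_insert_pairs (D : Finset κ) (s : ℕ) (H : Finset κ → κ → ℝ) :
    ∑ B ∈ powersetCard s D, ∑ l ∈ D \ B, H (insert l B) l
      = ∑ A ∈ powersetCard (s + 1) D, ∑ j ∈ A, H A j := by
  rw [Finset.sum_sigma', Finset.sum_sigma']
  apply Finset.sum_nbij' (fun x => ⟨insert x.2 x.1, x.2⟩) (fun x => ⟨x.1.erase x.2, x.2⟩)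
  · rintro ⟨B, l⟩ hx
    simp only [Finset.mem_sigma, Finset.mem_powersetCard, Finset.mem_sdiff] at hx ⊢
    refine ⟨⟨?_, ?_⟩, Finset.mem_insert_self _ _⟩
    · exact Finset.insert_subset hx.2.1 hx.1.1
    · rw [Finset.card_insert_of_notMem hx.2.2, hx.1.2]
  · rintro ⟨A, j⟩ hx
    simp only [Finset.mem_sigma, Finset.mem_powersetCard, Finset.mem_sdiff] at hx ⊢
    refine ⟨⟨(Finset.erase_subset _ _).trans hx.1.1, ?_⟩, hx.1.1 hx.2, Finset.notMem_erase _ _⟩
    rw [Finset.card_erase_of_mem hx.2, hx.1.2]
    rfl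
  · rintro ⟨B, l⟩ hx
    simp only [Finset.mem_sigma, Finset.mem_sdiff] at hx
    simp only [Finset.erase_insert hx.2.2]
  · rintro ⟨A, j⟩ hx
    simp only [Finset.mem_sigma] at hx
    simp only [Finset.insert_erase hx.2]
  · rintro ⟨B, l⟩ _
    rfl

/-- The cross energy for an extra element `e`. -/
noncomputable def crossE (D : Finset κ) (s : ℕ) (e : κ) (F : Finset κ → ℝ) : ℝ :=
  ∑ B ∈ powersetCard s D, ∑ l ∈ D \ B, (F (insert e B) - F (insert l B)) ^ 2

theorem not_mem_of_powerset {e : κ} {D A : Finset κ} {s : ℕ} (he : e ∉ D)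
    (hA : A ∈ powersetCard s D) : e ∉ A :=
  fun h => he ((Finset.mem_powersetCard.mp hA).1 h)

/-- Decomposition of the energy when one element is added to the ground set. -/
theorem johnsonE_insert {e : κ} {D : Finset κ} (he : e ∉ D) (s : ℕ) (F : Finset κ → ℝ) :
    johnsonE (insert e D) (s + 1) F
      = johnsonE D (s + 1) F + johnsonE D s (fun B => F (insert e B)) + 2 * crossE D s e F := by
  unfold johnsonE
  rw [Finset.powersetCard_succ_insert he]
  have hdisj : Disjoint (powersetCard (s + 1) D) ((powersetCard s D).image (insert e)) := by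
    rw [Finset.disjoint_left]
    intro A hA hA'
    obtain ⟨B, _, rfl⟩ := Finset.mem_image.mp hA'
    exact not_mem_of_powerset he hA (Finset.mem_insert_self _ _)
  have hinj : Set.InjOn (insert e) (powersetCard s D : Set (Finset κ)) := by
    intro B hB B' hB' h
    have h1 := not_mem_of_powerset he (Finset.mem_coe.mp hB)
    have h2 := not_mem_of_powerset he (Finset.mem_coe.mp hB')
    have := congrArg (fun X => X.erase e) h
    simpa [Finset.erase_insert h1, Finset.erase_insert h2] using this
  rw [Finset.sum_union hdisj, Finset.sum_image hinj]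
  -- the part without `e`
  have p0 : ∑ A ∈ powersetCard (s + 1) D, ∑ j ∈ A, ∑ l ∈ insert e D \ A,
        (F A - F (insert l (A.erase j))) ^ 2
      = ∑ A ∈ powersetCard (s + 1) D, ∑ j ∈ A, ∑ l ∈ D \ A, (F A - F (insert l (A.erase j))) ^ 2
        + crossE D s e F := by
    have e1 : ∀ A ∈ powersetCard (s + 1) D, ∑ j ∈ A, ∑ l ∈ insert e D \ A,
          (F A - F (insert l (A.erase j))) ^ 2
        = ∑ j ∈ A, ∑ l ∈ D \ A, (F A - F (insert l (A.erase j))) ^ 2
          + ∑ j ∈ A, (F A - F (insert e (A.erase j))) ^ 2 := by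
      intro A hA
      have hnot := not_mem_of_powerset he hA
      rw [← Finset.sum_add_distrib]
      apply Finset.sum_congr rfl
      intro j _
      rw [Finset.insert_sdiff_of_notMem _ hnot,
        Finset.sum_insert (fun h => he (Finset.mem_sdiff.mp h).1), add_comm]
    rw [Finset.sum_congr rfl e1, Finset.sum_add_distrib]
    congr 1
    unfold crossE
    rw [← sum_insert_pairs D s (fun A j => (F A - F (insert e (A.erase j))) ^ 2)]
    apply Finset.sum_congr rfl
    intro B _
    apply Finset.sum_congr rfl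
    intro l hl
    rw [Finset.erase_insert (Finset.mem_sdiff.mp hl).2, sub_sq_comm]
  -- the part with `e`
  have p1 : ∑ B ∈ powersetCard s D, ∑ j ∈ insert e B, ∑ l ∈ insert e D \ insert e B,
        (F (insert e B) - F (insert l ((insert e B).erase j))) ^ 2
      = ∑ B ∈ powersetCard s D, ∑ j ∈ B, ∑ l ∈ D \ B,
          (F (insert e B) - F (insert e (insert l (B.erase j)))) ^ 2
        + crossE D s e F := by
    unfold crossE
    rw [← Finset.sum_add_distrib]
    apply Finset.sum_congr rfl
    intro B hB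
    have hnot := not_mem_of_powerset he hB
    have hsd : insert e D \ insert e B = D \ B := by
      ext b
      simp only [Finset.mem_sdiff, Finset.mem_insert, not_or]
      constructor
      · rintro ⟨h1 | h1, h2, h3⟩
        · exact absurd h1 h2
        · exact ⟨h1, h3⟩
      · rintro ⟨h1, h2⟩
        refine ⟨Or.inr h1, ?_, h2⟩
        rintro rfl
        exact he h1
    rw [hsd, Finset.sum_insert hnot, add_comm]
    congr 1
    · apply Finset.sum_congr rfl
      intro j hj
      apply Finset.sum_congr rfl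
      intro l hl
      have hje : j ≠ e := fun h => hnot (h ▸ hj)
      have hle : l ≠ e := fun h => he (h ▸ (Finset.mem_sdiff.mp hl).1)
      rw [Finset.erase_insert_of_ne hje.symm, Finset.insert_comm]
    · apply Finset.sum_congr rfl
      intro l _
      rw [Finset.erase_insert hnot]
  rw [p0, p1]
  ring

/-- The Cauchy-Schwarz estimate for the cross energy. -/
theorem cross_cs {e : κ} (D : Finset κ) (s : ℕ) (F : Finset κ → ℝ) :
    (((D.card : ℝ) - s) * (∑ B ∈ powersetCard s D, F (insert e B))
        - (s + 1) * ∑ A ∈ powersetCard (s + 1) D, F A) ^ 2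
      ≤ (((s : ℝ) + 1) * ((powersetCard (s + 1) D).card : ℝ)) * crossE D s e F := by
  have hcardl : ∀ B ∈ powersetCard s D, ((D \ B).card : ℝ) = (D.card : ℝ) - s := by
    intro B hB
    have h := Finset.mem_powersetCard.mp hB
    rw [Finset.card_sdiff_of_subset h.1, Nat.cast_sub (Finset.card_le_card h.1), h.2]
  -- the sum of the differences
  have hsum : ∑ x ∈ (powersetCard s D).sigma (fun B => D \ B),
        (F (insert e x.1) - F (insert x.2 x.1))
      = ((D.card : ℝ) - s) * (∑ B ∈ powersetCard s D, F (insert e B))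
        - (s + 1) * ∑ A ∈ powersetCard (s + 1) D, F A := by
    rw [Finset.sum_sigma]
    simp only [Finset.sum_sub_distrib]
    have e1 : ∑ B ∈ powersetCard s D, ∑ l ∈ D \ B, F (insert e B)
        = ((D.card : ℝ) - s) * ∑ B ∈ powersetCard s D, F (insert e B) := by
      rw [Finset.mul_sum]
      apply Finset.sum_congr rfl
      intro B hB
      rw [Finset.sum_const, nsmul_eq_mul, hcardl B hB]
    have e2 := sum_insert_pairs D s (fun A _ => F A)
    have e5 : ∑ A ∈ powersetCard (s + 1) D, ∑ _j ∈ A, F A
        = ((s : ℝ) + 1) * ∑ A ∈ powersetCard (s + 1) D, F A := by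
      rw [Finset.mul_sum]
      apply Finset.sum_congr rfl
      intro A hA
      rw [Finset.sum_const, nsmul_eq_mul, (Finset.mem_powersetCard.mp hA).2]
      push_cast
      ring
    rw [e1, e2, e5]
  have hcard : (((powersetCard s D).sigma (fun B => D \ B)).card : ℝ)
      = ((s : ℝ) + 1) * ((powersetCard (s + 1) D).card : ℝ) := by
    rw [Finset.card_sigma]
    have e2 := sum_insert_pairs D s (fun _ _ => (1 : ℝ))
    simp only [Finset.sum_const, nsmul_eq_mul, mul_one] at e2
    push_cast
    rw [e2]
    have e3 : ∀ A ∈ powersetCard (s + 1) D, ((A.card : ℝ)) = (s : ℝ) + 1 := by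
      intro A hA
      rw [(Finset.mem_powersetCard.mp hA).2]
      push_cast
      ring
    rw [Finset.sum_congr rfl e3, Finset.sum_const, nsmul_eq_mul]
    ring
  have hC : crossE D s e F = ∑ x ∈ (powersetCard s D).sigma (fun B => D \ B),
      (F (insert e x.1) - F (insert x.2 x.1)) ^ 2 := by
    unfold crossE
    rw [Finset.sum_sigma]
  rw [hC, ← hsum, ← hcard]
  exact sq_sum_le_card_mul_sum_sq

theorem var_singleton (a : Finset κ) (F : Finset κ → ℝ) : var {a} F = 0 := by
  unfold var
  simp

/-- Real algebra behind the inductive step. -/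
theorem johnson_algebra {n0 n1 p q a0 a1 C : ℝ} (hn0p : 0 < n0) (hn1p : 0 < n1) (hp1 : 1 ≤ p)
    (hqp : 1 ≤ q) (hcount : q * n1 = p * n0) (hC0 : 0 ≤ C)
    (hcs : (q * a1 - p * a0) ^ 2 ≤ (p * n0) * C) :
    2 * (a0 ^ 2 / n0 + a1 ^ 2 / n1 - (a0 + a1) ^ 2 / (n0 + n1)) ≤ C := by
  have hp0 : 0 < p := by linarith
  set X : ℝ := n0 * a1 - n1 * a0 with hX
  have hpX : n1 * (q * a1 - p * a0) = p * X := by
    rw [hX]
    have : n1 * (q * a1 - p * a0) = (q * n1) * a1 - p * (n1 * a0) := by ring
    rw [this, hcount]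
    ring
  have h2 : p * (p * X ^ 2) ≤ p * (n1 ^ 2 * n0 * C) := by
    calc p * (p * X ^ 2) = (p * X) ^ 2 := by ring
      _ = n1 ^ 2 * (q * a1 - p * a0) ^ 2 := by rw [← hpX]; ring
      _ ≤ n1 ^ 2 * ((p * n0) * C) := mul_le_mul_of_nonneg_left hcs (sq_nonneg _)
      _ = p * (n1 ^ 2 * n0 * C) := by ring
  have h3 : p * X ^ 2 ≤ n1 ^ 2 * n0 * C := le_of_mul_le_mul_left h2 hp0
  have hid : a0 ^ 2 / n0 + a1 ^ 2 / n1 - (a0 + a1) ^ 2 / (n0 + n1)
      = X ^ 2 / (n0 * n1 * (n0 + n1)) := by
    rw [hX]
    field_simp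
    ring
  rw [hid]
  have hpos : 0 < n0 * n1 * (n0 + n1) := by positivity
  rw [← mul_div_assoc, div_le_iff₀ hpos]
  have h4 : 2 * n1 ≤ p * (n0 + n1) := by
    have e1 : p * (n0 + n1) = (p + q) * n1 := by
      have : p * n0 = q * n1 := hcount.symm
      calc p * (n0 + n1) = p * n0 + p * n1 := by ring
        _ = q * n1 + p * n1 := by rw [this]
        _ = (p + q) * n1 := by ring
    rw [e1]
    exact mul_le_mul_of_nonneg_right (by linarith) hn1p.le
  have h5 : 0 ≤ n1 * n0 * C := by positivity
  have h7 : (2 * n1) * (n1 * n0 * C) ≤ (p * (n0 + n1)) * (n1 * n0 * C) :=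
    mul_le_mul_of_nonneg_right h4 h5
  have h6 : p * (2 * X ^ 2) ≤ p * (C * (n0 * n1 * (n0 + n1))) := by
    calc p * (2 * X ^ 2) = 2 * (p * X ^ 2) := by ring
      _ ≤ 2 * (n1 ^ 2 * n0 * C) := by linarith
      _ = (2 * n1) * (n1 * n0 * C) := by ring
      _ ≤ (p * (n0 + n1)) * (n1 * n0 * C) := h7
      _ = p * (C * (n0 * n1 * (n0 + n1))) := by ring
  exact le_of_mul_le_mul_left h6 hp0

/-- The inductive step for the Johnson gap. -/
theorem johnson_step {e : κ} {D : Finset κ} (he : e ∉ D) (s : ℕ) (F : Finset κ → ℝ)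
    (h0 : 4 * var (powersetCard (s + 1) D) F ≤ johnsonE D (s + 1) F)
    (h1 : 4 * var (powersetCard s D) (fun B => F (insert e B))
      ≤ johnsonE D s (fun B => F (insert e B))) :
    4 * var (powersetCard (s + 1) (insert e D)) F ≤ johnsonE (insert e D) (s + 1) F := by
  rw [johnsonE_insert he]
  have hC0 : 0 ≤ crossE D s e F :=
    Finset.sum_nonneg fun _ _ => Finset.sum_nonneg fun _ _ => sq_nonneg _
  have hdisj : Disjoint (powersetCard (s + 1) D) ((powersetCard s D).image (insert e)) := by
    rw [Finset.disjoint_left]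
    intro A hA hA'
    obtain ⟨B, _, rfl⟩ := Finset.mem_image.mp hA'
    exact not_mem_of_powerset he hA (Finset.mem_insert_self _ _)
  have hinj : Set.InjOn (insert e) (powersetCard s D : Set (Finset κ)) := by
    intro B hB B' hB' h
    have h1 := not_mem_of_powerset he (Finset.mem_coe.mp hB)
    have h2 := not_mem_of_powerset he (Finset.mem_coe.mp hB')
    have := congrArg (fun X => X.erase e) h
    simpa [Finset.erase_insert h1, Finset.erase_insert h2] using this
  -- reduce to the between-parts inequality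
  set n0 : ℝ := ((powersetCard (s + 1) D).card : ℝ) with hn0
  set n1 : ℝ := ((powersetCard s D).card : ℝ) with hn1
  set a0 : ℝ := ∑ A ∈ powersetCard (s + 1) D, F A with ha0
  set a1 : ℝ := ∑ B ∈ powersetCard s D, F (insert e B) with ha1
  set b0 : ℝ := ∑ A ∈ powersetCard (s + 1) D, F A ^ 2 with hb0
  set b1 : ℝ := ∑ B ∈ powersetCard s D, F (insert e B) ^ 2 with hb1
  set C : ℝ := crossE D s e F with hC
  have hv0 : var (powersetCard (s + 1) D) F = b0 - a0 ^ 2 / n0 := rfl
  have hv1 : var (powersetCard s D) (fun B => F (insert e B)) = b1 - a1 ^ 2 / n1 := rfl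
  have hv : var (powersetCard (s + 1) (insert e D)) F = b0 + b1 - (a0 + a1) ^ 2 / (n0 + n1) := by
    unfold var
    rw [Finset.powersetCard_succ_insert he, Finset.sum_union hdisj, Finset.sum_union hdisj,
      Finset.sum_image hinj, Finset.sum_image hinj, Finset.card_union_of_disjoint hdisj,
      Finset.card_image_of_injOn hinj]
    push_cast
    rfl
  rw [hv]
  rw [hv0] at h0
  rw [hv1] at h1
  have hn00 : 0 ≤ n0 := Nat.cast_nonneg _
  have hn10 : 0 ≤ n1 := Nat.cast_nonneg _
  -- the key inequality
  have key : 2 * (a0 ^ 2 / n0 + a1 ^ 2 / n1 - (a0 + a1) ^ 2 / (n0 + n1)) ≤ C := by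
    by_cases h00 : n0 = 0
    · have ha00 : a0 = 0 := by
        have : powersetCard (s + 1) D = ∅ := by
          rw [hn0] at h00
          exact Finset.card_eq_zero.mp (by exact_mod_cast h00)
        rw [ha0, this]
        simp
      rw [h00, ha00]
      simp only [ne_eq, OfNat.ofNat_ne_zero, not_false_eq_true, zero_pow, div_zero, zero_add]
      simpa using hC0
    by_cases h10 : n1 = 0
    · have ha10 : a1 = 0 := by
        have : powersetCard s D = ∅ := by
          rw [hn1] at h10
          exact Finset.card_eq_zero.mp (by exact_mod_cast h10)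
        rw [ha1, this]
        simp
      rw [h10, ha10]
      simp only [ne_eq, OfNat.ofNat_ne_zero, not_false_eq_true, zero_pow, div_zero, add_zero, zero_add]
      simpa using hC0
    have hn0p : 0 < n0 := lt_of_le_of_ne hn00 (Ne.symm h00)
    have hn1p : 0 < n1 := lt_of_le_of_ne hn10 (Ne.symm h10)
    set p : ℝ := (s : ℝ) + 1 with hp
    have hp1 : 1 ≤ p := by
      have : (0 : ℝ) ≤ (s : ℝ) := Nat.cast_nonneg _
      linarith
    set q : ℝ := (D.card : ℝ) - s with hq
    -- `q n1 = p n0`
    have hcount : q * n1 = p * n0 := by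
      have e2 := sum_insert_pairs D s (fun _ _ => (1 : ℝ))
      simp only [Finset.sum_const, nsmul_eq_mul, mul_one] at e2
      have e3 : ∀ B ∈ powersetCard s D, ((D \ B).card : ℝ) = q := by
        intro B hB
        have h := Finset.mem_powersetCard.mp hB
        rw [hq, Finset.card_sdiff_of_subset h.1, Nat.cast_sub (Finset.card_le_card h.1), h.2]
      have e4 : ∀ A ∈ powersetCard (s + 1) D, ((A.card : ℝ)) = p := by
        intro A hA
        rw [(Finset.mem_powersetCard.mp hA).2, hp]
        push_cast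
        ring
      rw [Finset.sum_congr rfl e3, Finset.sum_congr rfl e4, Finset.sum_const, Finset.sum_const,
        nsmul_eq_mul, nsmul_eq_mul] at e2
      rw [hn1, hn0]
      linarith
    have hqp : 1 ≤ q := by
      -- both levels are nonempty, so `s + 1 ≤ card D`
      have hne : (powersetCard (s + 1) D).Nonempty := by
        apply Finset.card_pos.mp
        have : (0 : ℝ) < ((powersetCard (s + 1) D).card : ℝ) := hn0p
        exact_mod_cast this
      obtain ⟨A, hA⟩ := hne
      have h := Finset.mem_powersetCard.mp hA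
      have h2 : s + 1 ≤ D.card := by
        rw [← h.2]
        exact Finset.card_le_card h.1
      have h3 : ((s + 1 : ℕ) : ℝ) ≤ (D.card : ℝ) := by exact_mod_cast h2
      push_cast at h3
      rw [hq]
      linarith
    have hcs : (q * a1 - p * a0) ^ 2 ≤ (p * n0) * C := cross_cs (e := e) D s F
    exact johnson_algebra hn0p hn1p hp1 hqp hcount hC0 hcs
  have e : b0 + b1 - (a0 + a1) ^ 2 / (n0 + n1)
      = (b0 - a0 ^ 2 / n0) + (b1 - a1 ^ 2 / n1)
        + (a0 ^ 2 / n0 + a1 ^ 2 / n1 - (a0 + a1) ^ 2 / (n0 + n1)) := by ring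
  rw [e]
  linarith

/-- The Johnson gap. -/
theorem johnson_gap (D : Finset κ) (s : ℕ) (F : Finset κ → ℝ) :
    4 * var (powersetCard s D) F ≤ johnsonE D s F := by
  induction D using Finset.induction_on generalizing s F with
  | empty =>
    cases s with
    | zero =>
      rw [Finset.powersetCard_zero, var_singleton]
      simpa using johnsonE_nonneg _ _ _
    | succ s =>
      have : powersetCard (s + 1) (∅ : Finset κ) = ∅ := Finset.powersetCard_eq_empty.mpr (by simp)
      rw [this]
      have h0 : var (∅ : Finset (Finset κ)) F = 0 := by simp [var]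
      rw [h0]
      simpa using johnsonE_nonneg _ _ _
  | insert e D he ih =>
    cases s with
    | zero =>
      rw [Finset.powersetCard_zero, var_singleton]
      simpa using johnsonE_nonneg _ _ _
    | succ s =>
      exact johnson_step he s F (ih (s + 1) F) (ih s _)

end Vale.Agent.Lib.P335
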