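import Vale.Agent.Lib.P335.Connect
import Vale.Agent.Lib.P335.Johnson

/-!
A fibre of the row-pair map is a Johnson graph; the row-pair energy dominates four times the
squared norm of the row-pair complement.
-/

namespace Vale.Agent.Lib.P335

open Finset BigOperators

variable {κ : Type*} [DecidableEq κ]

theorem set_x {I D A : Finset κ} {j l : κ} (hA : A ⊆ D) (hID : Disjoint I D) (hj : j ∈ A)
    (hl : l ∈ D \ A) : insert l ((I ∪ A).erase j) = I ∪ insert l (A.erase j) := by
  have h1 : j ∉ I := fun h => (Finset.disjoint_left.mp hID) h (hA hj)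
  have h2 : j ≠ l := fun h => (Finset.mem_sdiff.mp hl).2 (h ▸ hj)
  ext b
  simp only [Finset.mem_insert, Finset.mem_erase, Finset.mem_union]
  by_cases hb : b = j
  · subst hb
    simp [h1, h2]
  · simp [hb]
    tauto

theorem set_y {I D A : Finset κ} {j l : κ} (hA : A ⊆ D) (hID : Disjoint I D) (hj : j ∈ A)
    (hl : l ∈ D \ A) : insert j ((I ∪ (D \ A)).erase l) = I ∪ (D \ insert l (A.erase j)) := by
  have h1 : l ∉ I := fun h => (Finset.disjoint_left.mp hID) h (Finset.mem_sdiff.mp hl).1
  have h2 : j ≠ l := fun h => (Finset.mem_sdiff.mp hl).2 (h ▸ hj)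
  have h3 : j ∈ D := hA hj
  ext b
  simp only [Finset.mem_insert, Finset.mem_erase, Finset.mem_union, Finset.mem_sdiff]
  by_cases hb : b = j
  · subst hb
    simp [h2, h3]
  by_cases hb2 : b = l
  · subst hb2
    simp [hb, h1]
  · simp [hb, hb2]

theorem diff_x {I D A : Finset κ} (hA : A ⊆ D) (hID : Disjoint I D) :
    (I ∪ A) \ (I ∪ (D \ A)) = A := by
  ext b
  simp only [Finset.mem_sdiff, Finset.mem_union]
  have h3 : b ∈ I → b ∉ D := fun hb => Finset.disjoint_left.mp hID hb
  have h2 := @hA b
  tauto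

theorem diff_y {I D A : Finset κ} (hID : Disjoint I D) :
    (I ∪ (D \ A)) \ (I ∪ A) = D \ A := by
  ext b
  simp only [Finset.mem_sdiff, Finset.mem_union]
  have h3 : b ∈ I → b ∉ D := fun hb => Finset.disjoint_left.mp hID hb
  tauto

variable {ι : Type*} [Fintype ι] [DecidableEq ι] [Fintype κ]

/-- Common part of rows `x, y`. -/
def rowI (T : ι → Finset κ) (x y : ι) : Finset κ := T x ∩ T y

/-- Symmetric difference of rows `x, y`. -/
def rowD (T : ι → Finset κ) (x y : ι) : Finset κ := (T x \ T y) ∪ (T y \ T x)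

theorem rowID_disjoint (T : ι → Finset κ) (x y : ι) : Disjoint (rowI T x y) (rowD T x y) := by
  rw [Finset.disjoint_left]
  intro b h1 h2
  simp only [rowI, rowD, Finset.mem_inter, Finset.mem_union, Finset.mem_sdiff] at h1 h2
  tauto

/-- The table with rows `x, y` given by the subset `A` of the symmetric difference. -/
def beta (T : ι → Finset κ) (x y : ι) (A : Finset κ) : ι → Finset κ := fun a =>
  if a = x then rowI T x y ∪ A else if a = y then rowI T x y ∪ (rowD T x y \ A) else T a

theorem beta_x (T : ι → Finset κ) (x y : ι) (A : Finset κ) : beta T x y A x = rowI T x y ∪ A := by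
  simp [beta]

theorem beta_y (T : ι → Finset κ) {x y : ι} (hxy : x ≠ y) (A : Finset κ) :
    beta T x y A y = rowI T x y ∪ (rowD T x y \ A) := by
  simp [beta, hxy.symm]

theorem beta_other (T : ι → Finset κ) {x y a : ι} (h1 : a ≠ x) (h2 : a ≠ y) (A : Finset κ) :
    beta T x y A a = T a := by
  simp [beta, h1, h2]

theorem rowcard_x (T : ι → Finset κ) (x y : ι) :
    (rowI T x y).card + (T x \ T y).card = (T x).card := by
  rw [add_comm]
  exact Finset.card_sdiff_add_card_inter _ _

theorem rowcard_y (T : ι → Finset κ) (x y : ι) :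
    (rowI T x y).card + (T y \ T x).card = (T y).card := by
  rw [add_comm, rowI, Finset.inter_comm]
  exact Finset.card_sdiff_add_card_inter _ _

theorem rowD_card (T : ι → Finset κ) (x y : ι) :
    (rowD T x y).card = (T x \ T y).card + (T y \ T x).card := by
  unfold rowD
  apply Finset.card_union_of_disjoint
  rw [Finset.disjoint_left]
  intro b h1 h2
  simp only [Finset.mem_sdiff] at h1 h2
  tauto

variable {r : ι → ℕ} {c : κ → ℕ}

theorem beta_mem {x y : ι} (hxy : x ≠ y) {T : ι → Finset κ} (hT : T ∈ Tables r c) {A : Finset κ}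
    (hA : A ∈ powersetCard (T x \ T y).card (rowD T x y)) : beta T x y A ∈ Tables r c := by
  have hA' := Finset.mem_powersetCard.mp hA
  have hT' := mem_Tables.mp hT
  have hd1 : Disjoint (rowI T x y) A :=
    Finset.disjoint_of_subset_right hA'.1 (rowID_disjoint T x y)
  have hd2 : Disjoint (rowI T x y) (rowD T x y \ A) :=
    Finset.disjoint_of_subset_right Finset.sdiff_subset (rowID_disjoint T x y)
  rw [mem_Tables]
  constructor
  · intro a
    by_cases h1 : a = x
    · rw [h1, beta_x, Finset.card_union_of_disjoint hd1, hA'.2, rowcard_x, hT'.1]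
    by_cases h2 : a = y
    · rw [h2, beta_y T hxy, Finset.card_union_of_disjoint hd2, Finset.card_sdiff_of_subset hA'.1,
        rowD_card, hA'.2, Nat.add_sub_cancel_left, rowcard_y, hT'.1]
    · rw [beta_other T h1 h2]
      exact hT'.1 a
  · intro b
    rw [col_split hxy, colOff_congr (T' := T) (fun i h1 h2 => beta_other T h1 h2 A) b,
      beta_x, beta_y T hxy, ← hT'.2 b, col_split hxy T b]
    have hsub := @hA'.1 b
    simp only [rowI, rowD, Finset.mem_union, Finset.mem_inter, Finset.mem_sdiff] at hsub ⊢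
    by_cases h1 : b ∈ T x <;> by_cases h2 : b ∈ T y <;> by_cases h3 : b ∈ A <;> simp_all

/-- Pointwise count of the rows `x, y` in a fibre. -/
theorem col_pair {x y : ι} (hxy : x ≠ y) {T W : ι → Finset κ} (hT : T ∈ Tables r c)
    (hW : W ∈ Tables r c) (h : ∀ i, i ≠ x → i ≠ y → W i = T i) (b : κ) :
    (if b ∈ W x then 1 else 0) + (if b ∈ W y then 1 else 0)
      = (if b ∈ T x then 1 else 0) + (if b ∈ T y then 1 else 0) := by
  have e1 := (mem_Tables.mp hT).2 b
  have e2 := (mem_Tables.mp hW).2 b
  rw [col_split hxy] at e1 e2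
  rw [colOff_congr h b] at e2
  omega

theorem beta_surj {x y : ι} (hxy : x ≠ y) {T W : ι → Finset κ} (hT : T ∈ Tables r c)
    (hW : W ∈ Tables r c) (h : ∀ i, i ≠ x → i ≠ y → W i = T i) :
    W x \ W y ∈ powersetCard (T x \ T y).card (rowD T x y) ∧ beta T x y (W x \ W y) = W := by
  have hc := col_pair hxy hT hW h
  have hI : W x ∩ W y = rowI T x y := by
    ext b
    have := hc b
    simp only [rowI, Finset.mem_inter]
    by_cases a1 : b ∈ W x <;> by_cases a2 : b ∈ W y <;> by_cases a3 : b ∈ T x <;>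
      by_cases a4 : b ∈ T y <;> simp_all
  have hsub : W x \ W y ⊆ rowD T x y := by
    intro b hb
    have := hc b
    simp only [rowD, Finset.mem_union, Finset.mem_sdiff] at hb ⊢
    by_cases a3 : b ∈ T x <;> by_cases a4 : b ∈ T y <;> simp_all
  refine ⟨Finset.mem_powersetCard.mpr ⟨hsub, ?_⟩, ?_⟩
  · have e1 := Finset.card_sdiff_add_card_inter (W x) (W y)
    have e2 := rowcard_x T x y
    rw [hI, (mem_Tables.mp hW).1 x] at e1
    rw [(mem_Tables.mp hT).1 x] at e2
    omega
  · funext a
    by_cases h1 : a = x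
    · rw [h1, beta_x, ← hI]
      ext b
      simp only [Finset.mem_union, Finset.mem_inter, Finset.mem_sdiff]
      tauto
    by_cases h2 : a = y
    · rw [h2, beta_y T hxy]
      ext b
      have := hc b
      have e3 : b ∈ rowI T x y ↔ b ∈ W x ∧ b ∈ W y := by
        rw [← hI, Finset.mem_inter]
      rw [Finset.mem_union, e3, Finset.mem_sdiff, Finset.mem_sdiff]
      simp only [rowD, Finset.mem_union, Finset.mem_sdiff]
      by_cases a1 : b ∈ W x <;> by_cases a2 : b ∈ W y <;> by_cases a3 : b ∈ T x <;>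
        by_cases a4 : b ∈ T y <;> simp_all
    · rw [beta_other T h1 h2, h a h1 h2]

theorem beta_inj {x : ι} {T : ι → Finset κ} {y : ι} :
    Set.InjOn (beta T x y) (powersetCard (T x \ T y).card (rowD T x y) : Set (Finset κ)) := by
  intro A hA A' hA' h
  have hA1 := Finset.mem_powersetCard.mp (Finset.mem_coe.mp hA)
  have hA2 := Finset.mem_powersetCard.mp (Finset.mem_coe.mp hA')
  have e := congrFun h x
  rw [beta_x, beta_x] at e
  have hd := rowID_disjoint T x y
  ext b
  have h1 := @hA1.1 b
  have h2 := @hA2.1 b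
  have h3 : b ∈ rowI T x y → b ∉ rowD T x y := fun hb => Finset.disjoint_left.mp hd hb
  have h4 : b ∈ rowI T x y ∪ A ↔ b ∈ rowI T x y ∪ A' := by rw [e]
  simp only [Finset.mem_union] at h4
  tauto

/-- The fibre as an image of a Johnson level. -/
theorem fibre_eq {x y : ι} (hxy : x ≠ y) {T : ι → Finset κ} (hT : T ∈ Tables r c) :
    (Tables r c).filter (fun W => offRows x y W = offRows x y T)
      = (powersetCard (T x \ T y).card (rowD T x y)).image (beta T x y) := by
  ext W
  rw [Finset.mem_filter, Finset.mem_image, offRows_eq_iff]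
  constructor
  · rintro ⟨h1, h2⟩
    have := beta_surj hxy hT h1 h2
    exact ⟨_, this.1, this.2⟩
  · rintro ⟨A, hA, rfl⟩
    exact ⟨beta_mem hxy hT hA, fun i h1 h2 => beta_other T h1 h2 A⟩

/-- Energy of rows `x, y` (ordered), each unordered edge counted twice. -/
noncomputable def pairE (r : ι → ℕ) (c : κ → ℕ) (x y : ι) (f : (ι → Finset κ) → ℝ) : ℝ :=
  ∑ W ∈ Tables r c, ∑ j ∈ W x \ W y, ∑ l ∈ W y \ W x, (f W - f (sw W x y j l)) ^ 2

theorem pairE_nonneg (r : ι → ℕ) (c : κ → ℕ) (x y : ι) (f : (ι → Finset κ) → ℝ) :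
    0 ≤ pairE r c x y f :=
  Finset.sum_nonneg fun _ _ => Finset.sum_nonneg fun _ _ => Finset.sum_nonneg fun _ _ => sq_nonneg _

/-- Switch of a table given by a subset is the table of the switched subset. -/
theorem sw_beta {x y : ι} (hxy : x ≠ y) (T : ι → Finset κ) {A : Finset κ} (hA : A ⊆ rowD T x y)
    {j l : κ} (hj : j ∈ A) (hl : l ∈ rowD T x y \ A) :
    sw (beta T x y A) x y j l = beta T x y (insert l (A.erase j)) := by
  funext a
  by_cases h1 : a = x
  · rw [h1, sw_left, beta_x, beta_x, set_x hA (rowID_disjoint T x y) hj hl]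
  by_cases h2 : a = y
  · rw [h2, sw_right _ hxy, beta_y T hxy, beta_y T hxy, set_y hA (rowID_disjoint T x y) hj hl]
  · rw [sw_other _ h1 h2, beta_other T h1 h2, beta_other T h1 h2]

/-- Variance on a fibre is the squared norm of the complement. -/
theorem sum_cQ_sq {α β : Type*} [DecidableEq β] (S : Finset α) (π : α → β) (f : α → ℝ) {T : α}
    (hT : T ∈ S) :
    ∑ W ∈ S.filter (fun W => π W = π T), cQ S π f W ^ 2 = var (S.filter (fun W => π W = π T)) f := by
  set Φ := S.filter (fun W => π W = π T) with hΦ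
  have hn : (0 : ℝ) < (Φ.card : ℝ) := fiber_card_pos hT
  set m : ℝ := (∑ W ∈ Φ, f W) / (Φ.card : ℝ) with hm
  have e : ∀ W ∈ Φ, cQ S π f W = f W - m := by
    intro W hW
    unfold cQ
    rw [cond_eq_of_eq (Finset.mem_filter.mp hW).2]
    rfl
  rw [Finset.sum_congr rfl (fun W hW => by rw [e W hW])]
  unfold var
  have e1 : ∀ W, (f W - m) ^ 2 = f W ^ 2 - 2 * m * f W + m ^ 2 := fun W => by ring
  simp only [e1]
  rw [Finset.sum_add_distrib, Finset.sum_sub_distrib, ← Finset.mul_sum, Finset.sum_const,
    nsmul_eq_mul]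
  have e3 : ∑ W ∈ Φ, f W = m * (Φ.card : ℝ) := by
    rw [hm]
    field_simp
  rw [e3]
  field_simp
  ring

/-- The row-pair energy dominates four times the squared norm of the complement. -/
theorem pairE_ge {x y : ι} (hxy : x ≠ y) (f : (ι → Finset κ) → ℝ) :
    4 * ipS (Tables r c) (cQ (Tables r c) (offRows x y) f) (cQ (Tables r c) (offRows x y) f)
      ≤ pairE r c x y f := by
  classical
  have hmaps : ∀ T ∈ Tables r c, offRows x y T ∈ (Tables r c).image (offRows x y) :=
    fun T hT => Finset.mem_image_of_mem _ hT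
  unfold ipS pairE
  rw [← Finset.sum_fiberwise_of_maps_to hmaps, ← Finset.sum_fiberwise_of_maps_to hmaps
    (fun W => ∑ j ∈ W x \ W y, ∑ l ∈ W y \ W x, (f W - f (sw W x y j l)) ^ 2), Finset.mul_sum]
  apply Finset.sum_le_sum
  intro t ht
  obtain ⟨T, hT, rfl⟩ := Finset.mem_image.mp ht
  have e1 : ∑ W ∈ (Tables r c).filter (fun W => offRows x y W = offRows x y T),
      cQ (Tables r c) (offRows x y) f W * cQ (Tables r c) (offRows x y) f W
      = var ((Tables r c).filter (fun W => offRows x y W = offRows x y T)) f := by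
    rw [← sum_cQ_sq (Tables r c) (offRows x y) f hT]
    exact Finset.sum_congr rfl (fun W _ => (sq _).symm)
  rw [e1, fibre_eq hxy hT, var_image beta_inj, Finset.sum_image beta_inj]
  refine le_trans (johnson_gap _ _ _) (le_of_eq ?_)
  unfold johnsonE
  apply Finset.sum_congr rfl
  intro A hA
  have hA' := (Finset.mem_powersetCard.mp hA).1
  rw [beta_x, beta_y T hxy, diff_x hA' (rowID_disjoint T x y), diff_y (rowID_disjoint T x y)]
  apply Finset.sum_congr rfl
  intro j hj
  apply Finset.sum_congr rfl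
  intro l hl
  rw [sw_beta hxy T hA' hj hl]

end Vale.Agent.Lib.P335
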