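import Vale.Agent.Lib.P335.Split

/-!
Cells, blocks and fibres on the set of realizations of a degree vector.
-/

namespace Vale.Agent.Lib.P335

open Finset BigOperators

variable {n : ℕ}

/-- The block of a vertex pair: all cells touching `x` or `y`, except the cell `xy`. -/
def cellsP (x y : Fin n) : Finset (Sym2 (Fin n)) :=
  univ.filter (fun e => (x ∈ e ∨ y ∈ e) ∧ e ≠ s(x, y))

/-- Forget the block of a vertex pair. -/
def offP (x y : Fin n) (G : EdgeSet n) : EdgeSet n := G \ cellsP x y

theorem offP_comm (x y : Fin n) : (offP x y : EdgeSet n → EdgeSet n) = offP y x := by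
  funext G
  unfold offP cellsP
  congr 1
  ext e
  simp only [Finset.mem_filter, Finset.mem_univ, true_and, Sym2.eq_swap (a := x) (b := y), or_comm]

theorem offP_eq_iff {x y : Fin n} {G G' : EdgeSet n} :
    offP x y G = offP x y G' ↔ (s(x, y) ∈ G ↔ s(x, y) ∈ G') ∧
      ∀ u v, u ≠ x → u ≠ y → v ≠ x → v ≠ y → (s(u, v) ∈ G ↔ s(u, v) ∈ G') := by
  unfold offP cellsP
  constructor
  · intro h
    have key : ∀ e, ¬ ((x ∈ e ∨ y ∈ e) ∧ e ≠ s(x, y)) → (e ∈ G ↔ e ∈ G') := by
      intro e he
      have := Finset.ext_iff.mp h e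
      simpa [Finset.mem_sdiff, he] using this
    refine ⟨key _ (by simp), ?_⟩
    intro u v h1 h2 h3 h4
    apply key
    simp [h1, h2, h3, h4, Ne.symm h1, Ne.symm h2, Ne.symm h3, Ne.symm h4]
  · rintro ⟨h1, h2⟩
    ext e
    induction e using Sym2.ind with
    | _ u v =>
      simp only [Finset.mem_sdiff, Finset.mem_filter, Finset.mem_univ, true_and]
      by_cases hc : (x ∈ s(u, v) ∨ y ∈ s(u, v)) ∧ s(u, v) ≠ s(x, y)
      · exact ⟨fun h => absurd hc h.2, fun h => absurd hc h.2⟩
      · rw [and_iff_left hc, and_iff_left hc]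
        push Not at hc
        by_cases he : s(u, v) = s(x, y)
        · rw [he]; exact h1
        · have h3 : x ∉ s(u, v) ∧ y ∉ s(u, v) := by
            by_contra h
            have : x ∈ s(u, v) ∨ y ∈ s(u, v) := by tauto
            exact he (hc this)
          simp only [Sym2.mem_iff, not_or] at h3
          exact h2 u v (Ne.symm h3.1.1) (Ne.symm h3.2.1) (Ne.symm h3.1.2) (Ne.symm h3.2.2)

/-- Cells touching one of three vertices. -/
def cellsT (x y z : Fin n) : Finset (Sym2 (Fin n)) := univ.filter (fun e => x ∈ e ∨ y ∈ e ∨ z ∈ e)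

/-- Forget all cells touching one of three vertices. -/
def offT (x y z : Fin n) (G : EdgeSet n) : EdgeSet n := G \ cellsT x y z

theorem offT_eq_iff {x y z : Fin n} {G G' : EdgeSet n} :
    offT x y z G = offT x y z G' ↔
      ∀ u v, u ≠ x → u ≠ y → u ≠ z → v ≠ x → v ≠ y → v ≠ z → (s(u, v) ∈ G ↔ s(u, v) ∈ G') := by
  unfold offT cellsT
  constructor
  · intro h u v h1 h2 h3 h4 h5 h6
    have := Finset.ext_iff.mp h s(u, v)
    simpa [Finset.mem_sdiff, Sym2.mem_iff, Ne.symm h1, Ne.symm h2, Ne.symm h3, Ne.symm h4,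
      Ne.symm h5, Ne.symm h6] using this
  · intro h
    ext e
    induction e using Sym2.ind with
    | _ u v =>
      simp only [Finset.mem_sdiff, Finset.mem_filter, Finset.mem_univ, true_and]
      by_cases hc : x ∈ s(u, v) ∨ y ∈ s(u, v) ∨ z ∈ s(u, v)
      · exact ⟨fun h => absurd hc h.2, fun h => absurd hc h.2⟩
      · rw [and_iff_left hc, and_iff_left hc]
        simp only [Sym2.mem_iff, not_or] at hc
        exact h u v (Ne.symm hc.1.1) (Ne.symm hc.2.1.1) (Ne.symm hc.2.2.1) (Ne.symm hc.1.2)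
          (Ne.symm hc.2.1.2) (Ne.symm hc.2.2.2)

end Vale.Agent.Lib.P335
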