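import Mathlib

/-!
Mixing of a lazy symmetric kernel from a Poincare inequality.
-/

namespace Vale.Agent.Lib.P335

open Finset BigOperators

variable {X : Type*} [Fintype X] [DecidableEq X]

section Lazy

variable (P : Matrix X X ℝ) (Ω : Finset X)

/-- One step of the kernel restricted to `Ω`, on functions. -/
noncomputable def kerK (h : X → ℝ) (a : X) : ℝ := ∑ b ∈ Ω, P a b * h b

variable {P Ω}

/-- The norm decrease in one step on mean-zero functions. -/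
theorem kerK_norm {γ : ℝ} (hnn : ∀ a b, 0 ≤ P a b) (hsym : ∀ a b, P a b = P b a)
    (hsum : ∀ a ∈ Ω, ∑ b ∈ Ω, P a b = 1) (hlazy : ∀ a ∈ Ω, 1 / 2 ≤ P a a)
    (h : X → ℝ)
    (hgap : γ * ∑ x ∈ Ω, h x ^ 2 ≤ (1 / 2) * ∑ a ∈ Ω, ∑ b ∈ Ω, P a b * (h a - h b) ^ 2) :
    ∑ a ∈ Ω, kerK P Ω h a ^ 2 ≤ (1 - γ) * ∑ x ∈ Ω, h x ^ 2 := by
  set A := ∑ x ∈ Ω, h x ^ 2 with hA
  set B := ∑ a ∈ Ω, h a * kerK P Ω h a with hB
  set U := ∑ a ∈ Ω, kerK P Ω h a ^ 2 with hU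
  -- two marginal identities
  have m1 : ∑ a ∈ Ω, ∑ b ∈ Ω, P a b * h a ^ 2 = A := by
    rw [hA]
    apply Finset.sum_congr rfl
    intro a ha
    rw [← Finset.sum_mul, hsum a ha, one_mul]
  have m2 : ∑ a ∈ Ω, ∑ b ∈ Ω, P a b * h b ^ 2 = A := by
    rw [Finset.sum_comm, hA]
    apply Finset.sum_congr rfl
    intro b hb
    rw [← Finset.sum_mul]
    have : ∑ a ∈ Ω, P a b = 1 := by
      rw [← hsum b hb]
      exact Finset.sum_congr rfl (fun a _ => hsym a b)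
    rw [this, one_mul]
  have m3 : ∑ a ∈ Ω, ∑ b ∈ Ω, P a b * (h a * h b) = B := by
    rw [hB]
    apply Finset.sum_congr rfl
    intro a _
    unfold kerK
    rw [Finset.mul_sum]
    exact Finset.sum_congr rfl (fun b _ => by ring)
  have hD : ∑ a ∈ Ω, ∑ b ∈ Ω, P a b * (h a - h b) ^ 2 = A + A - 2 * B := by
    have e : ∑ a ∈ Ω, ∑ b ∈ Ω, P a b * (h a - h b) ^ 2
        = ∑ a ∈ Ω, ∑ b ∈ Ω, P a b * h a ^ 2 + ∑ a ∈ Ω, ∑ b ∈ Ω, P a b * h b ^ 2
          - 2 * ∑ a ∈ Ω, ∑ b ∈ Ω, P a b * (h a * h b) := by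
      rw [Finset.mul_sum, ← Finset.sum_add_distrib, ← Finset.sum_sub_distrib]
      apply Finset.sum_congr rfl
      intro a _
      rw [Finset.mul_sum, ← Finset.sum_add_distrib, ← Finset.sum_sub_distrib]
      exact Finset.sum_congr rfl (fun b _ => by ring)
    rw [e, m1, m2, m3]
  have hB' : B ≤ (1 - γ) * A := by
    rw [hD] at hgap
    linarith
  -- pointwise Cauchy-Schwarz for `R = 2P - I`
  have hpoint : ∀ a ∈ Ω, (2 * kerK P Ω h a - h a) ^ 2 ≤ 2 * ∑ b ∈ Ω, P a b * h b ^ 2 - h a ^ 2 := by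
    intro a ha
    classical
    let R : X → ℝ := fun b => 2 * P a b - (if a = b then 1 else 0)
    have hR0 : ∀ b ∈ Ω, 0 ≤ R b := by
      intro b _
      simp only [R]
      by_cases hab : a = b
      · subst hab
        rw [if_pos rfl]
        linarith [hlazy a ha]
      · rw [if_neg hab]
        linarith [hnn a b]
    have hdelta : ∀ g : X → ℝ, ∑ b ∈ Ω, (if a = b then (1 : ℝ) else 0) * g b = g a := by
      intro g
      simp only [ite_mul, one_mul, zero_mul]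
      rw [Finset.sum_ite_eq]
      simp [ha]
    have e1 : ∑ b ∈ Ω, R b = 1 := by
      have := hdelta (fun _ => 1)
      simp only [mul_one] at this
      simp only [R, Finset.sum_sub_distrib, ← Finset.mul_sum, hsum a ha, this]
      norm_num
    have e2 : ∑ b ∈ Ω, R b * h b = 2 * kerK P Ω h a - h a := by
      unfold kerK
      rw [Finset.mul_sum]
      rw [← hdelta h, ← Finset.sum_sub_distrib]
      exact Finset.sum_congr rfl (fun b _ => by simp only [R]; ring)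
    have e3 : ∑ b ∈ Ω, R b * h b ^ 2 = 2 * ∑ b ∈ Ω, P a b * h b ^ 2 - h a ^ 2 := by
      rw [Finset.mul_sum]
      have : ∑ b ∈ Ω, (if a = b then (1 : ℝ) else 0) * h b ^ 2 = h a ^ 2 := hdelta (fun b => h b ^ 2)
      rw [← this, ← Finset.sum_sub_distrib]
      exact Finset.sum_congr rfl (fun b _ => by simp only [R]; ring)
    have hcs := Finset.sum_sq_le_sum_mul_sum_of_sq_le_mul Ω (r := fun b => R b * h b) (f := R)
      (g := fun b => R b * h b ^ 2) hR0 (fun b hb => mul_nonneg (hR0 b hb) (sq_nonneg _))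
      (fun b _ => le_of_eq (by ring))
    rw [e1, e2, e3, one_mul] at hcs
    exact hcs
  have hsumpoint : ∑ a ∈ Ω, (2 * kerK P Ω h a - h a) ^ 2
      ≤ ∑ a ∈ Ω, (2 * ∑ b ∈ Ω, P a b * h b ^ 2 - h a ^ 2) := Finset.sum_le_sum hpoint
  have e4 : ∑ a ∈ Ω, (2 * ∑ b ∈ Ω, P a b * h b ^ 2 - h a ^ 2) = 2 * A - A := by
    rw [Finset.sum_sub_distrib, ← Finset.mul_sum, m2]
  have e5 : ∑ a ∈ Ω, (2 * kerK P Ω h a - h a) ^ 2 = 4 * U - 4 * B + A := by
    rw [hU, hB, hA, Finset.mul_sum, Finset.mul_sum, ← Finset.sum_sub_distrib,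
      ← Finset.sum_add_distrib]
    exact Finset.sum_congr rfl (fun a _ => by ring)
  rw [e4, e5] at hsumpoint
  linarith

theorem kerK_sum (hsym : ∀ a b, P a b = P b a) (hsum : ∀ a ∈ Ω, ∑ b ∈ Ω, P a b = 1) (h : X → ℝ) :
    ∑ a ∈ Ω, kerK P Ω h a = ∑ a ∈ Ω, h a := by
  unfold kerK
  rw [Finset.sum_comm]
  apply Finset.sum_congr rfl
  intro b hb
  rw [← Finset.sum_mul]
  have : ∑ a ∈ Ω, P a b = 1 := by
    rw [← hsum b hb]
    exact Finset.sum_congr rfl (fun a _ => hsym a b)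
  rw [this, one_mul]

/-- Mixing from a Poincare inequality for a lazy symmetric kernel. -/
theorem lazy_mixing {γ : ℝ} (hγ1 : γ ≤ 1)
    (hnn : ∀ a b, 0 ≤ P a b) (hsym : ∀ a b, P a b = P b a)
    (hsum : ∀ a ∈ Ω, ∑ b ∈ Ω, P a b = 1) (hout : ∀ a ∈ Ω, ∀ b, b ∉ Ω → P a b = 0)
    (hlazy : ∀ a ∈ Ω, 1 / 2 ≤ P a a)
    (hgap : ∀ h : X → ℝ, ∑ x ∈ Ω, h x = 0 →
      γ * ∑ x ∈ Ω, h x ^ 2 ≤ (1 / 2) * ∑ a ∈ Ω, ∑ b ∈ Ω, P a b * (h a - h b) ^ 2)
    {G : X} (hG : G ∈ Ω) (t : ℕ) :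
    (∑ b ∈ Ω, |(P ^ t) G b - 1 / (Ω.card : ℝ)|) ^ 2 ≤ (Ω.card : ℝ) * (1 - γ) ^ t := by
  have hcard : (0 : ℝ) < (Ω.card : ℝ) := by
    exact_mod_cast Finset.card_pos.mpr ⟨G, hG⟩
  have hγ : 0 ≤ 1 - γ := by linarith
  -- support
  have hsupp : ∀ s : ℕ, ∀ b, b ∉ Ω → (P ^ s) G b = 0 := by
    intro s
    induction s with
    | zero =>
      intro b hb
      have : G ≠ b := fun h => hb (h ▸ hG)
      simp [this]
    | succ s ih =>
      intro b hb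
      rw [pow_succ, Matrix.mul_apply]
      apply Finset.sum_eq_zero
      intro c _
      by_cases hc : c ∈ Ω
      · rw [hout c hc b hb, mul_zero]
      · rw [ih c hc, zero_mul]
  let hh : ℕ → X → ℝ := fun s b => (P ^ s) G b - 1 / (Ω.card : ℝ)
  have hrec : ∀ s, ∀ a ∈ Ω, hh (s + 1) a = kerK P Ω (hh s) a := by
    intro s a ha
    simp only [hh]
    unfold kerK
    have e1 : (P ^ (s + 1)) G a = ∑ b ∈ Ω, P a b * (P ^ s) G b := by
      rw [pow_succ, Matrix.mul_apply]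
      rw [← Finset.sum_subset (Finset.subset_univ Ω) (fun b _ hb => by rw [hsupp s b hb, zero_mul])]
      exact Finset.sum_congr rfl (fun b _ => by rw [hsym b a]; ring)
    rw [e1]
    have e2 : ∑ b ∈ Ω, P a b * ((P ^ s) G b - 1 / (Ω.card : ℝ))
        = ∑ b ∈ Ω, P a b * (P ^ s) G b - (∑ b ∈ Ω, P a b) * (1 / (Ω.card : ℝ)) := by
      rw [Finset.sum_mul, ← Finset.sum_sub_distrib]
      exact Finset.sum_congr rfl (fun b _ => by ring)
    rw [e2, hsum a ha, one_mul]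
  have hrec' : ∀ s (F : ℝ → ℝ), ∑ a ∈ Ω, F (hh (s + 1) a) = ∑ a ∈ Ω, F (kerK P Ω (hh s) a) := by
    intro s F
    exact Finset.sum_congr rfl (fun a ha => by rw [hrec s a ha])
  have hzero : ∀ s, ∑ b ∈ Ω, hh s b = 0 := by
    intro s
    induction s with
    | zero =>
      simp only [hh, pow_zero, Matrix.one_apply, Finset.sum_sub_distrib, Finset.sum_const,
        nsmul_eq_mul]
      rw [Finset.sum_ite_eq]
      simp only [hG, if_true]
      field_simp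
      ring
    | succ s ih =>
      have : ∑ a ∈ Ω, hh (s + 1) a = ∑ a ∈ Ω, kerK P Ω (hh s) a := hrec' s (fun x => x)
      rw [this, kerK_sum hsym hsum, ih]
  have hnorm : ∀ s, ∑ b ∈ Ω, hh s b ^ 2 ≤ (1 - γ) ^ s := by
    intro s
    induction s with
    | zero =>
      simp only [hh, pow_zero, Matrix.one_apply]
      have e : ∀ b, ((if G = b then (1 : ℝ) else 0) - 1 / (Ω.card : ℝ)) ^ 2
          = (if G = b then (1 : ℝ) else 0) * (1 - 2 / (Ω.card : ℝ)) + 1 / (Ω.card : ℝ) ^ 2 := by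
        intro b
        by_cases hb : G = b
        · simp only [if_pos hb]
          field_simp
          ring
        · simp only [if_neg hb]
          field_simp
          ring
      simp only [e, Finset.sum_add_distrib, ite_mul, one_mul, zero_mul, Finset.sum_const,
        nsmul_eq_mul]
      rw [Finset.sum_ite_eq]
      simp only [hG, if_true]
      have e3 : (Ω.card : ℝ) * (1 / (Ω.card : ℝ) ^ 2) = 1 / (Ω.card : ℝ) := by
        field_simp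
      rw [e3]
      have : 0 < 1 / (Ω.card : ℝ) := by positivity
      have e4 : 2 / (Ω.card : ℝ) = 2 * (1 / (Ω.card : ℝ)) := by ring
      rw [e4]
      linarith
    | succ s ih =>
      have : ∑ a ∈ Ω, hh (s + 1) a ^ 2 = ∑ a ∈ Ω, kerK P Ω (hh s) a ^ 2 := hrec' s (fun x => x ^ 2)
      rw [this, pow_succ]
      have h1 := kerK_norm hnn hsym hsum hlazy (hh s) (hgap (hh s) (hzero s))
      calc ∑ a ∈ Ω, kerK P Ω (hh s) a ^ 2 ≤ (1 - γ) * ∑ x ∈ Ω, hh s x ^ 2 := h1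
        _ ≤ (1 - γ) * (1 - γ) ^ s := mul_le_mul_of_nonneg_left ih hγ
        _ = (1 - γ) ^ s * (1 - γ) := by ring
  have hcs : (∑ b ∈ Ω, |hh t b|) ^ 2 ≤ (Ω.card : ℝ) * ∑ b ∈ Ω, |hh t b| ^ 2 :=
    sq_sum_le_card_mul_sum_sq
  simp only [sq_abs] at hcs
  calc (∑ b ∈ Ω, |(P ^ t) G b - 1 / (Ω.card : ℝ)|) ^ 2 = (∑ b ∈ Ω, |hh t b|) ^ 2 := rfl
    _ ≤ (Ω.card : ℝ) * ∑ b ∈ Ω, hh t b ^ 2 := hcs
    _ ≤ (Ω.card : ℝ) * (1 - γ) ^ t := mul_le_mul_of_nonneg_left (hnorm t) hcard.le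

end Lazy

/-- A numerical bound: `(1 - 1/N)^N ≤ 1/2`. -/
theorem one_sub_inv_pow_le (N : ℕ) (hN : 1 ≤ N) : (1 - 1 / (N : ℝ)) ^ N ≤ 1 / 2 := by
  have hN' : (0 : ℝ) < (N : ℝ) := by exact_mod_cast hN
  have h1 : 1 - 1 / (N : ℝ) ≤ Real.exp (-(1 / (N : ℝ))) := Real.one_sub_le_exp_neg _
  have h0 : 0 ≤ 1 - 1 / (N : ℝ) := by
    have : 1 / (N : ℝ) ≤ 1 := by
      rw [div_le_one hN']
      exact_mod_cast hN
    linarith
  calc (1 - 1 / (N : ℝ)) ^ N ≤ Real.exp (-(1 / (N : ℝ))) ^ N := pow_le_pow_left₀ h0 h1 N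
    _ = Real.exp (-1) := by
      rw [← Real.exp_nat_mul]
      congr 1
      field_simp
    _ ≤ 1 / 2 := by
      rw [Real.exp_neg, one_div]
      apply inv_anti₀ (by norm_num)
      have := Real.exp_one_gt_d9
      linarith

/-- The mixing-time arithmetic. -/
theorem mix_numeric (N k t : ℕ) (hN : 1 ≤ N) (ht : N * (k + 2) ≤ t) {c : ℝ} (hc : c ≤ 2 ^ k) :
    c * (1 - 1 / (N : ℝ)) ^ t ≤ 1 / 4 := by
  have hN' : (0 : ℝ) < (N : ℝ) := by exact_mod_cast hN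
  have h0 : 0 ≤ 1 - 1 / (N : ℝ) := by
    have : 1 / (N : ℝ) ≤ 1 := by
      rw [div_le_one hN']
      exact_mod_cast hN
    linarith
  have h1 : 1 - 1 / (N : ℝ) ≤ 1 := by
    have : 0 ≤ 1 / (N : ℝ) := by positivity
    linarith
  have h2 : (1 - 1 / (N : ℝ)) ^ t ≤ (1 / 2) ^ (k + 2) := by
    calc (1 - 1 / (N : ℝ)) ^ t ≤ (1 - 1 / (N : ℝ)) ^ (N * (k + 2)) := pow_le_pow_of_le_one h0 h1 ht
      _ = ((1 - 1 / (N : ℝ)) ^ N) ^ (k + 2) := by rw [pow_mul]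
      _ ≤ (1 / 2) ^ (k + 2) := pow_le_pow_left₀ (pow_nonneg h0 _) (one_sub_inv_pow_le N hN) _
  calc c * (1 - 1 / (N : ℝ)) ^ t ≤ 2 ^ k * (1 - 1 / (N : ℝ)) ^ t :=
        mul_le_mul_of_nonneg_right hc (pow_nonneg h0 _)
    _ ≤ 2 ^ k * (1 / 2) ^ (k + 2) := mul_le_mul_of_nonneg_left h2 (by positivity)
    _ = 1 / 4 := by
      rw [pow_add]
      have : (2 : ℝ) ^ k * (1 / 2) ^ k = 1 := by
        rw [← mul_pow]
        norm_num
      calc (2 : ℝ) ^ k * ((1 / 2) ^ k * (1 / 2) ^ 2) = ((2 : ℝ) ^ k * (1 / 2) ^ k) * (1 / 2) ^ 2 := by ring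
        _ = 1 / 4 := by rw [this]; norm_num

end Vale.Agent.Lib.P335
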