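import Vale.Agent.Lib.P335.Mixing

/-!
The lazy chain driven by a uniformly random move, and its mixing from a Poincare inequality.
-/

namespace Vale.Agent.Lib.P335

open Finset BigOperators

variable {X M : Type*} [Fintype X] [DecidableEq X]

/-- The lazy chain: with probability `1/2` stay, otherwise apply a uniformly random move. -/
noncomputable def moveK (Ms : Finset M) (step : M → X → X) : Matrix X X ℝ := fun G G' =>
  (1 / 2) * (if G = G' then 1 else 0)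
    + (1 / 2) * ((1 / (Ms.card : ℝ)) * ∑ m ∈ Ms, (if step m G = G' then 1 else 0))

theorem moveK_nonneg (Ms : Finset M) (step : M → X → X) (a b : X) : 0 ≤ moveK Ms step a b := by
  unfold moveK
  have h1 : (0 : ℝ) ≤ if a = b then 1 else 0 := by split_ifs <;> norm_num
  have h2 : (0 : ℝ) ≤ ∑ m ∈ Ms, (if step m a = b then 1 else 0) :=
    Finset.sum_nonneg (fun _ _ => by split_ifs <;> norm_num)
  positivity

theorem moveK_lazy (Ms : Finset M) (step : M → X → X) (a : X) : 1 / 2 ≤ moveK Ms step a a := by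
  unfold moveK
  have h2 : (0 : ℝ) ≤ ∑ m ∈ Ms, (if step m a = a then 1 else 0) :=
    Finset.sum_nonneg (fun _ _ => by split_ifs <;> norm_num)
  have h3 : 0 ≤ (1 / 2 : ℝ) * ((1 / (Ms.card : ℝ)) * ∑ m ∈ Ms, (if step m a = a then 1 else 0)) := by
    positivity
  simp only [if_true]
  linarith

theorem moveK_symm {Ms : Finset M} {step : M → X → X} (rev : M → M)
    (hrev : ∀ m ∈ Ms, rev m ∈ Ms) (hrr : ∀ m ∈ Ms, rev (rev m) = m)
    (hstep : ∀ m ∈ Ms, ∀ a b, a ≠ b → step m a = b → step (rev m) b = a) (a b : X) :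
    moveK Ms step a b = moveK Ms step b a := by
  unfold moveK
  by_cases hab : a = b
  · rw [hab]
  have e : ∑ m ∈ Ms, (if step m a = b then (1 : ℝ) else 0) = ∑ m ∈ Ms, (if step m b = a then 1 else 0) := by
    apply Finset.sum_nbij' rev rev hrev hrev hrr hrr
    intro m hm
    by_cases h : step m a = b
    · rw [if_pos h, if_pos (hstep m hm a b hab h)]
    · rw [if_neg h, if_neg]
      intro h2
      have := hstep (rev m) (hrev m hm) b a (Ne.symm hab) h2
      rw [hrr m hm] at this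
      exact h this
  rw [e, if_neg hab, if_neg (Ne.symm hab)]

/-- Integration against the kernel. -/
theorem moveK_integral {Ms : Finset M} {step : M → X → X} {Ω : Finset X} {a : X} (ha : a ∈ Ω)
    (hΩ : ∀ m ∈ Ms, step m a ∈ Ω) (g : X → ℝ) :
    ∑ b ∈ Ω, moveK Ms step a b * g b
      = (1 / 2) * g a + (1 / 2) * ((1 / (Ms.card : ℝ)) * ∑ m ∈ Ms, g (step m a)) := by
  unfold moveK
  simp only [add_mul, Finset.sum_add_distrib]
  congr 1
  · rw [← Finset.sum_congr rfl (fun b _ => by rw [mul_assoc])]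
    rw [← Finset.mul_sum]
    congr 1
    simp only [ite_mul, one_mul, zero_mul]
    rw [Finset.sum_ite_eq]
    simp [ha]
  · have e : ∀ b ∈ Ω, (1 / 2 : ℝ) * ((1 / (Ms.card : ℝ)) * ∑ m ∈ Ms, (if step m a = b then 1 else 0)) * g b
        = (1 / 2 : ℝ) * ((1 / (Ms.card : ℝ)) * ∑ m ∈ Ms, (if step m a = b then g b else 0)) := by
      intro b _
      rw [mul_assoc, mul_assoc, Finset.sum_mul]
      congr 2
      apply Finset.sum_congr rfl
      intro m _
      split_ifs <;> simp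
    rw [Finset.sum_congr rfl e, ← Finset.mul_sum, ← Finset.mul_sum, Finset.sum_comm]
    congr 2
    apply Finset.sum_congr rfl
    intro m hm
    rw [Finset.sum_ite_eq]
    simp [hΩ m hm]

/-- Mixing of the move chain from a Poincare inequality. -/
theorem moves_mixing {Ms : Finset M} (hM : Ms.Nonempty) {step : M → X → X} (rev : M → M)
    (hrev : ∀ m ∈ Ms, rev m ∈ Ms) (hrr : ∀ m ∈ Ms, rev (rev m) = m)
    (hstep : ∀ m ∈ Ms, ∀ a b, a ≠ b → step m a = b → step (rev m) b = a)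
    {Ω : Finset X} (hΩ : ∀ a ∈ Ω, ∀ m ∈ Ms, step m a ∈ Ω) {γ : ℝ} (hγ1 : γ ≤ 1)
    (hP : ∀ h : X → ℝ, ∑ x ∈ Ω, h x = 0 →
      γ * (4 * (Ms.card : ℝ)) * ∑ x ∈ Ω, h x ^ 2 ≤ ∑ a ∈ Ω, ∑ m ∈ Ms, (h a - h (step m a)) ^ 2)
    {G : X} (hG : G ∈ Ω) (t : ℕ) :
    (∑ b ∈ Ω, |(moveK Ms step ^ t) G b - 1 / (Ω.card : ℝ)|) ^ 2 ≤ (Ω.card : ℝ) * (1 - γ) ^ t := by
  have hcard : (0 : ℝ) < (Ms.card : ℝ) := by exact_mod_cast Finset.card_pos.mpr hM
  apply lazy_mixing hγ1 (moveK_nonneg Ms step) (moveK_symm rev hrev hrr hstep) ?_ ?_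
    (fun a _ => moveK_lazy Ms step a) ?_ hG t
  · intro a ha
    have := moveK_integral ha (hΩ a ha) (fun _ => 1)
    simp only [mul_one, Finset.sum_const, nsmul_eq_mul] at this
    rw [this]
    field_simp
    ring
  · intro a ha b hb
    unfold moveK
    have h1 : a ≠ b := fun h => hb (h ▸ ha)
    rw [if_neg h1]
    have h2 : ∑ m ∈ Ms, (if step m a = b then (1 : ℝ) else 0) = 0 := by
      apply Finset.sum_eq_zero
      intro m hm
      rw [if_neg]
      intro h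
      exact hb (h ▸ hΩ a ha m hm)
    rw [h2]
    ring
  · intro h hh
    have hi : ∀ a ∈ Ω, ∑ b ∈ Ω, moveK Ms step a b * (h a - h b) ^ 2
        = (1 / 2) * ((1 / (Ms.card : ℝ)) * ∑ m ∈ Ms, (h a - h (step m a)) ^ 2) := by
      intro a ha
      have := moveK_integral ha (hΩ a ha) (fun b => (h a - h b) ^ 2)
      simp only [sub_self, ne_eq, OfNat.ofNat_ne_zero, not_false_eq_true, zero_pow, mul_zero,
        zero_add] at this
      exact this
    rw [Finset.sum_congr rfl hi, ← Finset.mul_sum, ← Finset.mul_sum]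
    have := hP h hh
    set E := ∑ a ∈ Ω, ∑ m ∈ Ms, (h a - h (step m a)) ^ 2 with hE
    set A := ∑ x ∈ Ω, h x ^ 2 with hA
    have e : (1 / 2 : ℝ) * ((1 / 2) * ((1 / (Ms.card : ℝ)) * E)) = E / (4 * (Ms.card : ℝ)) := by
      field_simp
      ring
    rw [e, le_div_iff₀ (by positivity)]
    calc γ * A * (4 * (Ms.card : ℝ)) = γ * (4 * (Ms.card : ℝ)) * A := by ring
      _ ≤ E := this

/-- The total variation form with the mixing-time arithmetic. -/
theorem moves_tv {Ms : Finset M} (hM : Ms.Nonempty) {step : M → X → X} (rev : M → M)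
    (hrev : ∀ m ∈ Ms, rev m ∈ Ms) (hrr : ∀ m ∈ Ms, rev (rev m) = m)
    (hstep : ∀ m ∈ Ms, ∀ a b, a ≠ b → step m a = b → step (rev m) b = a)
    {Ω : Finset X} (hΩ : ∀ a ∈ Ω, ∀ m ∈ Ms, step m a ∈ Ω) {N k : ℕ} (hN : 1 ≤ N)
    (hP : ∀ h : X → ℝ, ∑ x ∈ Ω, h x = 0 →
      (1 / (N : ℝ)) * (4 * (Ms.card : ℝ)) * ∑ x ∈ Ω, h x ^ 2
        ≤ ∑ a ∈ Ω, ∑ m ∈ Ms, (h a - h (step m a)) ^ 2)
    (hk : (Ω.card : ℝ) ≤ 2 ^ k) {G : X} (hG : G ∈ Ω) {t : ℕ} (ht : N * (k + 2) ≤ t) :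
    (1 / 2) * ∑ b ∈ Ω, |(moveK Ms step ^ t) G b - 1 / (Ω.card : ℝ)| ≤ 1 / 4 := by
  have hN' : (0 : ℝ) < (N : ℝ) := by exact_mod_cast hN
  have hγ1 : 1 / (N : ℝ) ≤ 1 := by
    rw [div_le_one hN']
    exact_mod_cast hN
  have h1 := moves_mixing hM rev hrev hrr hstep hΩ hγ1 hP hG t
  have h2 := mix_numeric N k t hN ht hk
  have h3 := h1.trans h2
  have h4 : 0 ≤ ∑ b ∈ Ω, |(moveK Ms step ^ t) G b - 1 / (Ω.card : ℝ)| :=
    Finset.sum_nonneg (fun _ _ => abs_nonneg _)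
  have h5 : ∑ b ∈ Ω, |(moveK Ms step ^ t) G b - 1 / (Ω.card : ℝ)| ≤ 1 / 2 := by
    by_contra hc
    push Not at hc
    nlinarith
  linarith

end Vale.Agent.Lib.P335
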