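import Vale.Agent.Lib.P335.Defs
import Vale.Agent.Lib.P335.Moves

/-!
Perfect matchings on a four-set, and the switch chain as a move chain.
-/

namespace Vale.Agent.Lib.P335

open Finset BigOperators

variable {n : ℕ}

theorem mem_pm {S : Finset (Fin n)} {F : EdgeSet n} :
    F ∈ perfectMatchings S ↔ (∀ e ∈ F, ¬ e.IsDiag ∧ ∀ v ∈ e, v ∈ S) ∧
      ∀ v ∈ S, (F.filter (fun e => v ∈ e)).card = 1 := by
  simp [perfectMatchings]

theorem pm_unique {S : Finset (Fin n)} {F : EdgeSet n} (hF : F ∈ perfectMatchings S) {v : Fin n}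
    (hv : v ∈ S) {e e' : Sym2 (Fin n)} (he : e ∈ F) (hve : v ∈ e) (he' : e' ∈ F) (hve' : v ∈ e') :
    e = e' := by
  have h := (mem_pm.mp hF).2 v hv
  obtain ⟨e0, h0⟩ := Finset.card_eq_one.mp h
  have h1 : e ∈ F.filter (fun e => v ∈ e) := Finset.mem_filter.mpr ⟨he, hve⟩
  have h2 : e' ∈ F.filter (fun e => v ∈ e) := Finset.mem_filter.mpr ⟨he', hve'⟩
  rw [h0, Finset.mem_singleton] at h1 h2
  rw [h1, h2]

theorem pm_exists {S : Finset (Fin n)} {F : EdgeSet n} (hF : F ∈ perfectMatchings S) {v : Fin n}
    (hv : v ∈ S) : ∃ e ∈ F, v ∈ e := by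
  have h := (mem_pm.mp hF).2 v hv
  obtain ⟨e0, h0⟩ := Finset.card_eq_one.mp h
  have h1 : e0 ∈ F.filter (fun e => v ∈ e) := by rw [h0]; simp
  exact ⟨e0, (Finset.mem_filter.mp h1).1, (Finset.mem_filter.mp h1).2⟩

theorem pm_deg {S : Finset (Fin n)} {F : EdgeSet n} (hF : F ∈ perfectMatchings S) (v : Fin n) :
    (F.filter (fun e => v ∈ e)).card = if v ∈ S then 1 else 0 := by
  split_ifs with hv
  · exact (mem_pm.mp hF).2 v hv
  · rw [Finset.card_eq_zero, Finset.filter_eq_empty_iff]
    intro e he hve
    exact hv (((mem_pm.mp hF).1 e he).2 v hve)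

section Four

variable {a b c d : Fin n}

theorem pm_pair (hab : a ≠ b) (hac : a ≠ c) (had : a ≠ d) (hbc : b ≠ c) (hbd : b ≠ d) (hcd : c ≠ d) :
    ({s(a, b), s(c, d)} : EdgeSet n) ∈ perfectMatchings {a, b, c, d} := by
  rw [mem_pm]
  constructor
  · intro e he
    simp only [Finset.mem_insert, Finset.mem_singleton] at he
    rcases he with rfl | rfl
    · simp [Sym2.mk_isDiag_iff, hab]
    · simp [Sym2.mk_isDiag_iff, hcd]
  · intro v hv
    simp only [Finset.mem_insert, Finset.mem_singleton] at hv
    rw [Finset.card_eq_one]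
    rcases hv with rfl | rfl | rfl | rfl
    · exact ⟨s(v, b), by ext e; simp only [Finset.mem_filter, Finset.mem_insert,
        Finset.mem_singleton]; constructor
                         · rintro ⟨rfl | rfl, h⟩
                           · rfl
                           · simp [hac, had] at h
                         · rintro rfl; simp⟩
    · exact ⟨s(a, v), by ext e; simp only [Finset.mem_filter, Finset.mem_insert,
        Finset.mem_singleton]; constructor
                         · rintro ⟨rfl | rfl, h⟩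
                           · rfl
                           · simp [hbc, hbd] at h
                         · rintro rfl; simp⟩
    · exact ⟨s(v, d), by ext e; simp only [Finset.mem_filter, Finset.mem_insert,
        Finset.mem_singleton]; constructor
                         · rintro ⟨rfl | rfl, h⟩
                           · simp [Ne.symm hac, Ne.symm hbc] at h
                           · rfl
                         · rintro rfl; simp⟩
    · exact ⟨s(c, v), by ext e; simp only [Finset.mem_filter, Finset.mem_insert,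
        Finset.mem_singleton]; constructor
                         · rintro ⟨rfl | rfl, h⟩
                           · simp [Ne.symm had, Ne.symm hbd] at h
                           · rfl
                         · rintro rfl; simp⟩

theorem pm_of_edge (hab : a ≠ b) (hac : a ≠ c) (had : a ≠ d) (hbc : b ≠ c) (hbd : b ≠ d) (hcd : c ≠ d)
    {F : EdgeSet n} (hF : F ∈ perfectMatchings {a, b, c, d}) (h : s(a, b) ∈ F) :
    F = {s(a, b), s(c, d)} := by
  have hmem : ∀ v, v ∈ ({a, b, c, d} : Finset (Fin n)) ↔ v = a ∨ v = b ∨ v = c ∨ v = d := by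
    intro v
    simp
  have ha : a ∈ ({a, b, c, d} : Finset (Fin n)) := by simp
  have hb : b ∈ ({a, b, c, d} : Finset (Fin n)) := by simp
  have hc : c ∈ ({a, b, c, d} : Finset (Fin n)) := by simp
  have hd : d ∈ ({a, b, c, d} : Finset (Fin n)) := by simp
  have hbad : ∀ e ∈ F, (a ∈ e ∨ b ∈ e) → e = s(a, b) := by
    rintro e he (h1 | h1)
    · exact pm_unique hF ha he h1 h (by simp)
    · exact pm_unique hF hb he h1 h (by simp)
  obtain ⟨e, he, hce⟩ := pm_exists hF hc
  obtain ⟨z, rfl⟩ := Sym2.mem_iff_exists.mp hce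
  have hF' := (mem_pm.mp hF).1 _ he
  have hz : z = a ∨ z = b ∨ z = c ∨ z = d := (hmem z).mp (hF'.2 z (by simp))
  have hzc : c ≠ z := fun h0 => hF'.1 (by rw [Sym2.mk_isDiag_iff]; exact h0)
  have hcd' : s(c, d) ∈ F := by
    rcases hz with rfl | rfl | rfl | rfl
    · have := hbad _ he (Or.inl (by simp))
      rw [Sym2.eq_iff] at this
      rcases this with ⟨h1, _⟩ | ⟨h1, _⟩
      · exact absurd h1.symm hac
      · exact absurd h1.symm hbc
    · have := hbad _ he (Or.inr (by simp))
      rw [Sym2.eq_iff] at this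
      rcases this with ⟨h1, _⟩ | ⟨h1, _⟩
      · exact absurd h1.symm hac
      · exact absurd h1.symm hbc
    · exact absurd rfl hzc
    · exact he
  ext e
  simp only [Finset.mem_insert, Finset.mem_singleton]
  constructor
  · intro he'
    induction e using Sym2.ind with
    | _ u v =>
      have hu : u = a ∨ u = b ∨ u = c ∨ u = d := (hmem u).mp (((mem_pm.mp hF).1 _ he').2 u (by simp))
      rcases hu with rfl | rfl | rfl | rfl
      · exact Or.inl (hbad _ he' (Or.inl (by simp)))
      · exact Or.inl (hbad _ he' (Or.inr (by simp)))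
      · exact Or.inr (pm_unique hF hc he' (by simp) hcd' (by simp))
      · exact Or.inr (pm_unique hF hd he' (by simp) hcd' (by simp))
  · rintro (rfl | rfl)
    · exact h
    · exact hcd'

theorem set_perm1 : ({a, c, b, d} : Finset (Fin n)) = {a, b, c, d} := by
  ext v; simp; tauto

theorem set_perm2 : ({a, d, b, c} : Finset (Fin n)) = {a, b, c, d} := by
  ext v; simp; tauto

theorem pm_eq (hab : a ≠ b) (hac : a ≠ c) (had : a ≠ d) (hbc : b ≠ c) (hbd : b ≠ d) (hcd : c ≠ d) :
    perfectMatchings ({a, b, c, d} : Finset (Fin n))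
      = {{s(a, b), s(c, d)}, {s(a, c), s(b, d)}, {s(a, d), s(b, c)}} := by
  ext F
  simp only [Finset.mem_insert, Finset.mem_singleton]
  constructor
  · intro hF
    have ha : a ∈ ({a, b, c, d} : Finset (Fin n)) := by simp
    obtain ⟨e, he, hae⟩ := pm_exists hF ha
    obtain ⟨z, rfl⟩ := Sym2.mem_iff_exists.mp hae
    have hF' := (mem_pm.mp hF).1 _ he
    have hz : z ∈ ({a, b, c, d} : Finset (Fin n)) := hF'.2 z (by simp)
    have hza : a ≠ z := fun h0 => hF'.1 (by rw [Sym2.mk_isDiag_iff]; exact h0)
    simp only [Finset.mem_insert, Finset.mem_singleton] at hz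
    rcases hz with rfl | rfl | rfl | rfl
    · exact absurd rfl hza
    · exact Or.inl (pm_of_edge hab hac had hbc hbd hcd hF he)
    · refine Or.inr (Or.inl (pm_of_edge hac hab had hbc.symm hcd hbd ?_ he))
      rw [set_perm1]; exact hF
    · refine Or.inr (Or.inr (pm_of_edge had hab hac hbd.symm hcd.symm hbc ?_ he))
      rw [set_perm2]; exact hF
  · rintro (rfl | rfl | rfl)
    · exact pm_pair hab hac had hbc hbd hcd
    · rw [← set_perm1]
      exact pm_pair hac hab had hbc.symm hcd hbd
    · rw [← set_perm2]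
      exact pm_pair had hab hac hbd.symm hcd.symm hbc

theorem four_of_card {S : Finset (Fin n)} (hS : S.card = 4) :
    ∃ a b c d : Fin n, a ≠ b ∧ a ≠ c ∧ a ≠ d ∧ b ≠ c ∧ b ≠ d ∧ c ≠ d ∧ S = {a, b, c, d} := by
  obtain ⟨a, t, hat, rfl, ht⟩ := Finset.card_eq_succ.mp hS
  obtain ⟨b, c, d, hbc, hbd, hcd, rfl⟩ := Finset.card_eq_three.mp ht
  simp only [Finset.mem_insert, Finset.mem_singleton, not_or] at hat
  exact ⟨a, b, c, d, hat.1, hat.2.1, hat.2.2, hbc, hbd, hcd, rfl⟩

theorem pm_card {S : Finset (Fin n)} (hS : S.card = 4) : (perfectMatchings S).card = 3 := by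
  obtain ⟨a, b, c, d, hab, hac, had, hbc, hbd, hcd, rfl⟩ := four_of_card hS
  rw [pm_eq hab hac had hbc hbd hcd]
  apply Finset.card_eq_three.mpr
  refine ⟨_, _, _, ?_, ?_, ?_, rfl⟩
  · intro h
    have : s(a, b) ∈ ({s(a, c), s(b, d)} : EdgeSet n) := h ▸ (by simp)
    simp [Sym2.eq_iff, hab, hac, had, hbc, hbd, hcd] at this
  · intro h
    have : s(a, b) ∈ ({s(a, d), s(b, c)} : EdgeSet n) := h ▸ (by simp)
    simp [Sym2.eq_iff, hab, hac, had, hbc, hbd, hcd] at this
  · intro h
    have : s(a, c) ∈ ({s(a, d), s(b, c)} : EdgeSet n) := h ▸ (by simp)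
    simp [Sym2.eq_iff, hab, hac, had, hbc, hbd, hcd] at this

theorem pm_disjoint {S : Finset (Fin n)} (hS : S.card = 4) {F F' : EdgeSet n}
    (hF : F ∈ perfectMatchings S) (hF' : F' ∈ perfectMatchings S) (hne : F ≠ F') : Disjoint F F' := by
  obtain ⟨a, b, c, d, hab, hac, had, hbc, hbd, hcd, rfl⟩ := four_of_card hS
  rw [pm_eq hab hac had hbc hbd hcd] at hF hF'
  simp only [Finset.mem_insert, Finset.mem_singleton] at hF hF'
  rcases hF with rfl | rfl | rfl <;> rcases hF' with rfl | rfl | rfl <;>
    first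
    | exact absurd rfl hne
    | (simp [Sym2.eq_iff, hab, hac, had, hbc, hbd, hcd, Ne.symm hab, Ne.symm hac, Ne.symm had,
        Ne.symm hbc, Ne.symm hbd, Ne.symm hcd])

end Four

/-- The random choices of the switch chain. -/
def chainMoves (n : ℕ) : Finset (Σ _ : Finset (Fin n), EdgeSet n × EdgeSet n) :=
  (powersetCard 4 (univ : Finset (Fin n))).sigma (fun S => (perfectMatchings S).offDiag)

theorem chainMoves_card (n : ℕ) : (chainMoves n).card = n.choose 4 * 6 := by
  unfold chainMoves
  rw [Finset.card_sigma]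
  have e : ∀ S ∈ powersetCard 4 (univ : Finset (Fin n)), (perfectMatchings S).offDiag.card = 6 := by
    intro S hS
    rw [Finset.offDiag_card, pm_card (Finset.mem_powersetCard.mp hS).2]
  rw [Finset.sum_congr rfl e, Finset.sum_const, Finset.card_powersetCard]
  simp

/-- The switch chain is the move chain of its random choices. -/
theorem switchChain_eq (n : ℕ) :
    switchChain n = moveK (chainMoves n) (fun m G => switchStep m.2.1 m.2.2 G) := by
  funext G G'
  unfold switchChain moveK chainMoves
  rw [Finset.sum_sigma]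
  have hc := chainMoves_card n
  unfold chainMoves at hc
  rw [hc]
  congr 2
  rw [← Finset.mul_sum]
  push_cast
  rw [one_div_mul_eq_div]
  by_cases h : (n.choose 4 : ℝ) = 0
  · simp [h]
  · field_simp

/-- A legal step from a member of `Omega d` stays in `Omega d`. -/
theorem switchStep_mem {d : Fin n → ℕ} {G : EdgeSet n} (hG : G ∈ Omega d) {S : Finset (Fin n)}
    {F F' : EdgeSet n} (hF : F ∈ perfectMatchings S) (hF' : F' ∈ perfectMatchings S) :
    switchStep F F' G ∈ Omega d := by
  unfold switchStep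
  split_ifs with h
  · simp only [Omega, Finset.mem_filter, Finset.mem_univ, true_and] at hG ⊢
    obtain ⟨h1, h2⟩ := h
    constructor
    · intro e he
      rw [Finset.mem_union, Finset.mem_sdiff] at he
      rcases he with he | he
      · exact hG.1 e he.1
      · exact ((mem_pm.mp hF').1 e he).1
    · intro i
      rw [← hG.2 i]
      have e1 : (G \ F).filter (fun e => i ∈ e) ∪ F.filter (fun e => i ∈ e)
          = G.filter (fun e => i ∈ e) := by
        rw [← Finset.filter_union, Finset.sdiff_union_of_subset h1]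
      have e2 : Disjoint ((G \ F).filter (fun e => i ∈ e)) (F.filter (fun e => i ∈ e)) :=
        Finset.disjoint_filter_filter Finset.sdiff_disjoint
      have e3 : Disjoint ((G \ F).filter (fun e => i ∈ e)) (F'.filter (fun e => i ∈ e)) := by
        apply Finset.disjoint_filter_filter
        exact Finset.disjoint_of_subset_left Finset.sdiff_subset h2.symm
      rw [Finset.filter_union, Finset.card_union_of_disjoint e3, ← e1,
        Finset.card_union_of_disjoint e2, pm_deg hF, pm_deg hF']
  · exact hG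

/-- Undoing a step. -/
theorem switchStep_rev {S : Finset (Fin n)} (hS : S.card = 4) {F F' : EdgeSet n}
    (hF : F ∈ perfectMatchings S) (hF' : F' ∈ perfectMatchings S) (hne : F ≠ F')
    {a b : EdgeSet n} (hab : a ≠ b) (h : switchStep F F' a = b) : switchStep F' F b = a := by
  unfold switchStep at h
  split_ifs at h with hc
  · obtain ⟨h1, h2⟩ := hc
    have hd := pm_disjoint hS hF hF' hne
    unfold switchStep
    subst h
    have c1 : F' ⊆ (a \ F) ∪ F' := Finset.subset_union_right
    have c2 : Disjoint F ((a \ F) ∪ F') := by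
      rw [Finset.disjoint_union_right]
      exact ⟨Finset.disjoint_sdiff, hd⟩
    rw [if_pos ⟨c1, c2⟩]
    ext e
    simp only [Finset.mem_union, Finset.mem_sdiff]
    have c3 : e ∈ F' → e ∉ a := fun he => Finset.disjoint_left.mp h2 he
    have c4 := @h1 e
    tauto
  · exact absurd h hab

/-- The mixing bound for the switch chain from a Poincare inequality. -/
theorem switch_tv (hn : 4 ≤ n) {d : Fin n → ℕ} {N k : ℕ} (hN : 1 ≤ N)
    (hP : ∀ h : EdgeSet n → ℝ, ∑ x ∈ Omega d, h x = 0 →
      (1 / (N : ℝ)) * (4 * ((chainMoves n).card : ℝ)) * ∑ x ∈ Omega d, h x ^ 2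
        ≤ ∑ a ∈ Omega d, ∑ m ∈ chainMoves n, (h a - h (switchStep m.2.1 m.2.2 a)) ^ 2)
    (hk : ((Omega d).card : ℝ) ≤ 2 ^ k) {G : EdgeSet n} (hG : G ∈ Omega d) {t : ℕ}
    (ht : N * (k + 2) ≤ t) : tvDist d t G ≤ 1 / 4 := by
  unfold tvDist
  rw [switchChain_eq]
  have hne : (chainMoves n).Nonempty := by
    rw [← Finset.card_pos, chainMoves_card]
    have : 0 < n.choose 4 := Nat.choose_pos hn
    omega
  refine moves_tv hne (fun m => ⟨m.1, (m.2.2, m.2.1)⟩) ?_ ?_ ?_ ?_ hN hP hk hG ht
  · rintro ⟨S, F, F'⟩ hm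
    simp only [chainMoves, Finset.mem_sigma, Finset.mem_offDiag] at hm ⊢
    exact ⟨hm.1, hm.2.2.1, hm.2.1, Ne.symm hm.2.2.2⟩
  · rintro ⟨S, F, F'⟩ _
    rfl
  · rintro ⟨S, F, F'⟩ hm a b hab h
    simp only [chainMoves, Finset.mem_sigma, Finset.mem_offDiag] at hm
    exact switchStep_rev (Finset.mem_powersetCard.mp hm.1).2 hm.2.1 hm.2.2.1 hm.2.2.2 hab h
  · rintro a ha ⟨S, F, F'⟩ hm
    simp only [chainMoves, Finset.mem_sigma, Finset.mem_offDiag] at hm
    exact switchStep_mem ha hm.2.1 hm.2.2.1

end Vale.Agent.Lib.P335
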