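import Vale.Agent.Lib.P335.RowGap
import Vale.Agent.Lib.P335.Fibre

/-!
The Poincare inequality for the switch graph on binary tables.
-/

namespace Vale.Agent.Lib.P335

open Finset BigOperators

variable {ι κ : Type*} [Fintype ι] [DecidableEq ι] [Fintype κ] [DecidableEq κ]

/-- Poincare inequality on tables: with each unordered switch edge counted four times, the energy
dominates eight times the variance, that is, the Laplacian gap of the switch graph is at least 2. -/
theorem tables_poincare (r : ι → ℕ) (c : κ → ℕ) (f : (ι → Finset κ) → ℝ) :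
    8 * ∑ T ∈ Tables r c, (f T - (∑ U ∈ Tables r c, f U) / ((Tables r c).card : ℝ)) ^ 2
      ≤ ∑ x, ∑ y, if x ≠ y then pairE r c x y f else 0 := by
  classical
  set S := Tables r c with hS
  set m : ℝ := (∑ U ∈ S, f U) / (S.card : ℝ) with hm
  let g : (ι → Finset κ) → ℝ := fun T => f T - m
  have hg : ∑ T ∈ S, g T = 0 := by
    rcases S.eq_empty_or_nonempty with h | h
    · rw [h]; simp
    have hn : (0 : ℝ) < (S.card : ℝ) := by exact_mod_cast S.card_pos.mpr h
    simp only [g, Finset.sum_sub_distrib, Finset.sum_const, nsmul_eq_mul, hm]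
    field_simp
    ring
  have hgap := rows_gap r c g hg
  rw [← hS] at hgap
  have hq : ∀ x y, ∀ T ∈ S, cQ S (offRows x y) g T = cQ S (offRows x y) f T := by
    intro x y T hT
    unfold cQ
    simp only [g]
    rw [cond_sub, cond_const S _ _ hT]
    ring
  have e0 : ipS S g g = ∑ T ∈ S, (f T - m) ^ 2 := by
    unfold ipS
    exact Finset.sum_congr rfl (fun T _ => (sq _).symm)
  rw [e0] at hgap
  have hbound : (∑ x, ∑ y, if x ≠ y then ipS S (cQ S (offRows x y) g) (cQ S (offRows x y) g) else 0) * 4
      ≤ ∑ x, ∑ y, if x ≠ y then pairE r c x y f else 0 := by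
    rw [Finset.sum_mul]
    apply Finset.sum_le_sum; intro x _
    rw [Finset.sum_mul]
    apply Finset.sum_le_sum; intro y _
    split_ifs with hxy
    · have h1 := pairE_ge (r := r) (c := c) hxy f
      rw [← hS] at h1
      rw [ipS_congr (hq x y) (hq x y)]
      linarith
    · simp
  linarith

end Vale.Agent.Lib.P335
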