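import Vale.Agent.Lib.P335.Cond

/-!
A spectral step (from `A² ≥ cA` and the kernel of `A` to a gap), and the combinatorial
decomposition of a double sum over ordered pairs.
-/

namespace Vale.Agent.Lib.P335

open Finset BigOperators

/-- If `A` is symmetric and positive semidefinite on functions on `S`, with kernel the constants,
and `‖Af‖² ≥ c ⟨f, Af⟩`, then `A ≥ c` on mean-zero functions. -/
theorem spectral_step {α : Type*} [Fintype α] [DecidableEq α] (S : Finset α)
    (A : (α → ℝ) →ₗ[ℝ] (α → ℝ)) (c : ℝ) (hc : 0 < c)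
    (hsym : ∀ f g, ipS S (A f) g = ipS S f (A g))
    (hpsd : ∀ f, 0 ≤ ipS S f (A f))
    (hker : ∀ f, ipS S f (A f) = 0 → ∀ x ∈ S, ∀ y ∈ S, f x = f y)
    (hann : ∀ x ∈ S, A (fun _ => 1) x = 0)
    (hmain : ∀ f, c * ipS S f (A f) ≤ ipS S (A f) (A f))
    (g : α → ℝ) (hg : ∑ x ∈ S, g x = 0) : c * ipS S g g ≤ ipS S g (A g) := by
  classical
  rcases S.eq_empty_or_nonempty with rfl | hS
  · simp [ipS]
  have hcard : (0 : ℝ) < (S.card : ℝ) := by exact_mod_cast S.card_pos.mpr hS
  -- the shifted operator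
  let A' : (α → ℝ) →ₗ[ℝ] (α → ℝ) :=
    { toFun := fun f x => if x ∈ S then A f x + ∑ y ∈ S, f y else f x
      map_add' := by
        intro f f'
        funext x
        by_cases hx : x ∈ S
        · simp only [Pi.add_apply, if_pos hx, map_add, Finset.sum_add_distrib]
          ring
        · simp only [Pi.add_apply, if_neg hx]
      map_smul' := by
        intro k f
        funext x
        by_cases hx : x ∈ S
        · simp only [Pi.smul_apply, smul_eq_mul, RingHom.id_apply, if_pos hx, map_smul,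
            ← Finset.mul_sum]
          ring
        · simp only [Pi.smul_apply, smul_eq_mul, RingHom.id_apply, if_neg hx] }
  have hA' : ∀ f x, A' f x = if x ∈ S then A f x + ∑ y ∈ S, f y else f x := fun _ _ => rfl
  have hannS : ∀ f, ∑ x ∈ S, A f x = 0 := by
    intro f
    have h1 := hsym f (fun _ => 1)
    have h2 : ipS S f (A (fun _ => 1)) = 0 := by
      unfold ipS
      exact Finset.sum_eq_zero (fun x hx => by rw [hann x hx, mul_zero])
    rw [h2] at h1
    unfold ipS at h1
    simpa using h1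
  have hinj : Function.Injective A' := by
    rw [injective_iff_map_eq_zero]
    intro f hf
    have h0 : ∀ x, A' f x = 0 := fun x => congrFun hf x
    -- `⟨f, A' f⟩ = ⟨f, Af⟩ + (Σf)²`
    have h1 : ∀ x ∈ S, A f x + ∑ y ∈ S, f y = 0 := by
      intro x hx
      have := h0 x
      rwa [hA', if_pos hx] at this
    have h2 : ipS S f (A f) + (∑ y ∈ S, f y) ^ 2 = 0 := by
      have e : ∀ x ∈ S, f x * A f x = f x * (- ∑ y ∈ S, f y) := by
        intro x hx
        have := h1 x hx
        rw [show A f x = - ∑ y ∈ S, f y by linarith]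
      unfold ipS
      rw [Finset.sum_congr rfl e, ← Finset.sum_mul]
      ring
    have h3 := hpsd f
    have h4 : ipS S f (A f) = 0 := by nlinarith [sq_nonneg (∑ y ∈ S, f y)]
    have h5 : ∑ y ∈ S, f y = 0 := by
      have : (∑ y ∈ S, f y) ^ 2 = 0 := by linarith
      exact pow_eq_zero_iff (two_ne_zero) |>.mp this
    have h6 := hker f h4
    funext x
    by_cases hx : x ∈ S
    · have e : ∑ y ∈ S, f y = (S.card : ℝ) * f x := by
        rw [Finset.sum_congr rfl (fun y hy => h6 y hy x hx)]
        simp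
      rw [e] at h5
      exact (mul_eq_zero.mp h5).resolve_left hcard.ne'
    · have := h0 x
      rwa [hA', if_neg hx] at this
  have hsurj : Function.Surjective A' := LinearMap.injective_iff_surjective.mp hinj
  obtain ⟨h, hh⟩ := hsurj g
  have hh' : ∀ x ∈ S, A h x + ∑ y ∈ S, h y = g x := by
    intro x hx
    have := congrFun hh x
    rwa [hA', if_pos hx] at this
  have hsumh : ∑ y ∈ S, h y = 0 := by
    have := Finset.sum_congr rfl hh'
    rw [Finset.sum_add_distrib, hannS h, hg] at this
    simp only [Finset.sum_const, nsmul_eq_mul, zero_add] at this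
    exact (mul_eq_zero.mp this).resolve_left hcard.ne'
  have hAh : ∀ x ∈ S, A h x = g x := by
    intro x hx
    have := hh' x hx
    rwa [hsumh, add_zero] at this
  set s1 := ipS S h (A h) with hs1
  set s2 := ipS S g g with hs2
  set s3 := ipS S g (A g) with hs3
  have hs10 : 0 ≤ s1 := hpsd h
  have hs20 : 0 ≤ s2 := ipS_self_nonneg _ _
  have hs30 : 0 ≤ s3 := hpsd g
  have e1 : ipS S (A h) (A h) = s2 := ipS_congr hAh hAh
  have hm := hmain h
  rw [e1] at hm
  have e2 : ipS S h (A g) = s2 := by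
    rw [← hsym]
    exact ipS_congr hAh (fun _ _ => rfl)
  have e3 : ipS S g (A h) = s2 := ipS_congr (fun _ _ => rfl) hAh
  -- Cauchy-Schwarz by the discriminant
  have hq : ∀ t : ℝ, 0 ≤ s3 * (t * t) + (2 * s2) * t + s1 := by
    intro t
    have h0 := hpsd (h + t • g)
    have : ipS S (h + t • g) (A (h + t • g)) = s3 * (t * t) + (2 * s2) * t + s1 := by
      have e4 : ipS S (h + t • g) (A (h + t • g)) = ipS S h (A h) + t * ipS S h (A g)
          + t * ipS S g (A h) + t * t * ipS S g (A g) := by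
        rw [map_add, map_smul]
        unfold ipS
        simp only [Pi.add_apply, Pi.smul_apply, smul_eq_mul]
        simp only [Finset.mul_sum, ← Finset.sum_add_distrib]
        apply Finset.sum_congr rfl
        intro x _
        ring
      rw [e4, e2, e3]
      ring
    rwa [this] at h0
  have hd := discrim_le_zero hq
  unfold discrim at hd
  by_cases hs2z : s2 = 0
  · rw [hs2z]
    simpa using hs30
  have hs2p : 0 < s2 := lt_of_le_of_ne hs20 (Ne.symm hs2z)
  have key : c * s2 * s2 ≤ s3 * s2 := by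
    have h1 : c * s1 * s3 ≤ s2 * s3 := mul_le_mul_of_nonneg_right hm hs30
    have h2 : s2 ^ 2 ≤ s3 * s1 := by nlinarith
    nlinarith
  exact le_of_mul_le_mul_right key hs2p

/-- A sum over a type splits at two distinct points. -/
theorem sum_two_parts {ι : Type*} [Fintype ι] [DecidableEq ι] {x y : ι} (hxy : x ≠ y) (h : ι → ℝ) :
    ∑ u, h u = h x + h y + ∑ u ∈ univ.filter (fun z => z ≠ x ∧ z ≠ y), h u := by
  have hu : (univ : Finset ι) = {x, y} ∪ univ.filter (fun z => z ≠ x ∧ z ≠ y) := by
    ext z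
    simp only [Finset.mem_univ, Finset.mem_union, Finset.mem_insert, Finset.mem_singleton,
      Finset.mem_filter, true_and, true_iff]
    tauto
  have hd : Disjoint ({x, y} : Finset ι) (univ.filter (fun z => z ≠ x ∧ z ≠ y)) := by
    rw [Finset.disjoint_left]
    intro z hz hz'
    simp only [Finset.mem_insert, Finset.mem_singleton] at hz
    simp only [Finset.mem_filter, Finset.mem_univ, true_and] at hz'
    tauto
  conv_lhs => rw [hu]
  rw [Finset.sum_union hd, Finset.sum_pair hxy]

/-- The combinatorial core of the pair decomposition. -/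
theorem pair_sum {ι : Type*} [Fintype ι] [DecidableEq ι] (G : ι → ι → ι → ι → ℝ)
    (hr : ∀ x y u v, G x y u v = G x y v u)
    (hl : ∀ x y u v, G x y u v = G y x u v)
    (h4 : ∀ x y u v, x ≠ y → u ≠ v → x ≠ u → x ≠ v → y ≠ u → y ≠ v → 0 ≤ G x y u v)
    (h3 : ∀ x y z, x ≠ y → x ≠ z → y ≠ z → 0 ≤ G x y x z + G y x y z + G z x z y) :
    2 * ∑ x, ∑ y, (if x ≠ y then G x y x y else 0)
      ≤ ∑ x, ∑ y, (if x ≠ y then ∑ u, ∑ v, (if u ≠ v then G x y u v else 0) else 0) := by
  classical
  -- the row-overlap sum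
  let U : ι → ι → ι → ℝ := fun x y z => if x ≠ y ∧ x ≠ z ∧ y ≠ z then G x y x z else 0
  have hstep : ∀ x y, x ≠ y → 2 * G x y x y + 2 * ∑ z, (U x y z + U y x z)
      ≤ ∑ u, ∑ v, (if u ≠ v then G x y u v else 0) := by
    intro x y hxy
    set R := univ.filter (fun z => z ≠ x ∧ z ≠ y) with hR
    have hUz : ∑ z, (U x y z + U y x z) = ∑ z ∈ R, (G x y x z + G x y y z) := by
      rw [sum_two_parts hxy, ← hR]
      have e1 : U x y x + U y x x = 0 := by simp [U, hxy]
      have e2 : U x y y + U y x y = 0 := by simp [U, hxy]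
      rw [e1, e2, zero_add, zero_add]
      apply Finset.sum_congr rfl
      intro z hz
      have hz' := (Finset.mem_filter.mp hz).2
      simp only [U]
      rw [if_pos ⟨hxy, hz'.1.symm, hz'.2.symm⟩, if_pos ⟨hxy.symm, hz'.2.symm, hz'.1.symm⟩,
        hl y x y z]
    have two : ∀ h : ι → ℝ, ∑ u, h u = h x + h y + ∑ u ∈ R, h u := fun h => sum_two_parts hxy h
    rw [hUz, two (fun u => ∑ v, (if u ≠ v then G x y u v else 0)),
      two (fun v => if x ≠ v then G x y x v else 0),
      two (fun v => if y ≠ v then G x y y v else 0)]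
    have e3 : ∀ u ∈ R, ∑ v, (if u ≠ v then G x y u v else 0)
        = G x y x u + G x y y u + ∑ v ∈ R, (if u ≠ v then G x y u v else 0) := by
      intro u hu
      have hu' := (Finset.mem_filter.mp hu).2
      rw [two (fun v => if u ≠ v then G x y u v else 0)]
      simp only [if_pos hu'.1, if_pos hu'.2, hr x y u x, hr x y u y]
    rw [Finset.sum_congr rfl e3, Finset.sum_add_distrib, Finset.sum_add_distrib]
    have e4 : ∑ v ∈ R, (if x ≠ v then G x y x v else 0) = ∑ z ∈ R, G x y x z := by
      apply Finset.sum_congr rfl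
      intro z hz
      rw [if_pos (Finset.mem_filter.mp hz).2.1.symm]
    have e5 : ∑ v ∈ R, (if y ≠ v then G x y y v else 0) = ∑ z ∈ R, G x y y z := by
      apply Finset.sum_congr rfl
      intro z hz
      rw [if_pos (Finset.mem_filter.mp hz).2.2.symm]
    have hnn : 0 ≤ ∑ u ∈ R, ∑ v ∈ R, (if u ≠ v then G x y u v else 0) := by
      apply Finset.sum_nonneg
      intro u hu
      apply Finset.sum_nonneg
      intro v hv
      have hu' := (Finset.mem_filter.mp hu).2
      have hv' := (Finset.mem_filter.mp hv).2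
      split_ifs with huv
      · exact h4 x y u v hxy huv hu'.1.symm hv'.1.symm hu'.2.symm hv'.2.symm
      · exact le_rfl
    simp only [e4, e5, ne_eq, not_true_eq_false, if_false, not_false_eq_true, if_true, hxy,
      Ne.symm hxy]
    rw [hr x y y x, Finset.sum_add_distrib]
    linarith
  have hU3 : 0 ≤ ∑ x, ∑ y, ∑ z, U x y z := by
    have e1 : ∑ x, ∑ y, ∑ z, U y x z = ∑ x, ∑ y, ∑ z, U x y z := Finset.sum_comm
    have e2 : ∑ x, ∑ y, ∑ z, U z x y = ∑ x, ∑ y, ∑ z, U x y z := by
      calc ∑ x, ∑ y, ∑ z, U z x y = ∑ x, ∑ z, ∑ y, U z x y :=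
            Finset.sum_congr rfl (fun x _ => Finset.sum_comm)
        _ = ∑ z, ∑ x, ∑ y, U z x y := Finset.sum_comm
    have e3 : 0 ≤ ∑ x, ∑ y, ∑ z, (U x y z + U y x z + U z x y) := by
      apply Finset.sum_nonneg; intro x _
      apply Finset.sum_nonneg; intro y _
      apply Finset.sum_nonneg; intro z _
      simp only [U]
      by_cases hd : x ≠ y ∧ x ≠ z ∧ y ≠ z
      · rw [if_pos hd, if_pos ⟨hd.1.symm, hd.2.2, hd.2.1⟩, if_pos ⟨hd.2.1.symm, hd.2.2.symm, hd.1⟩]
        exact h3 x y z hd.1 hd.2.1 hd.2.2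
      · have h1 : ¬ (y ≠ x ∧ y ≠ z ∧ x ≠ z) := fun h => hd ⟨h.1.symm, h.2.2, h.2.1⟩
        have h2 : ¬ (z ≠ x ∧ z ≠ y ∧ x ≠ y) := fun h => hd ⟨h.2.2, h.1.symm, h.2.1.symm⟩
        rw [if_neg hd, if_neg h1, if_neg h2]
        simp
    simp only [Finset.sum_add_distrib] at e3
    rw [e1, e2] at e3
    linarith
  have hfin : ∑ x, ∑ y, (if x ≠ y then 2 * G x y x y + 2 * ∑ z, (U x y z + U y x z) else 0)
      ≤ ∑ x, ∑ y, (if x ≠ y then ∑ u, ∑ v, (if u ≠ v then G x y u v else 0) else 0) := by
    apply Finset.sum_le_sum; intro x _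
    apply Finset.sum_le_sum; intro y _
    split_ifs with hxy
    · exact hstep x y hxy
    · exact le_rfl
  refine le_trans ?_ hfin
  have e6 : ∑ x, ∑ y, (if x ≠ y then 2 * G x y x y + 2 * ∑ z, (U x y z + U y x z) else 0)
      = 2 * ∑ x, ∑ y, (if x ≠ y then G x y x y else 0)
        + 2 * ∑ x, ∑ y, ∑ z, (U x y z + U y x z) := by
    rw [Finset.mul_sum, Finset.mul_sum, ← Finset.sum_add_distrib]
    apply Finset.sum_congr rfl
    intro x _
    rw [Finset.mul_sum, Finset.mul_sum, ← Finset.sum_add_distrib]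
    apply Finset.sum_congr rfl
    intro y _
    by_cases hxy : x = y
    · subst hxy
      have hz : ∑ z, (U x x z + U x x z) = 0 := by
        apply Finset.sum_eq_zero
        intro z _
        simp [U]
      simp [hz]
    · simp [hxy]
  rw [e6]
  have e7 : ∑ x, ∑ y, ∑ z, (U x y z + U y x z) = 2 * ∑ x, ∑ y, ∑ z, U x y z := by
    simp only [Finset.sum_add_distrib]
    have e1 : ∑ x, ∑ y, ∑ z, U y x z = ∑ x, ∑ y, ∑ z, U x y z := Finset.sum_comm
    rw [e1]
    ring
  rw [e7]
  linarith

end Vale.Agent.Lib.P335
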