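import Vale.Agent.Lib.P335.Triple
import Vale.Agent.Lib.P335.Connect
import Vale.Agent.Lib.P335.Spectral

/-!
The spectral gap of the sum of row-pair complements on tables.
-/

namespace Vale.Agent.Lib.P335

open Finset BigOperators

variable {ι κ : Type*} [Fintype ι] [DecidableEq ι] [Fintype κ] [DecidableEq κ]

theorem ipS_add_sum_left {α : Type*} (S : Finset α) {τ : Type*} (s : Finset τ)
    (F : τ → α → ℝ) (g : α → ℝ) :
    ipS S (fun T => ∑ t ∈ s, F t T) g = ∑ t ∈ s, ipS S (F t) g := by
  unfold ipS
  simp only [Finset.sum_mul]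
  exact Finset.sum_comm

theorem ipS_add_sum_right {α : Type*} (S : Finset α) {τ : Type*} (s : Finset τ)
    (F : τ → α → ℝ) (g : α → ℝ) :
    ipS S g (fun T => ∑ t ∈ s, F t T) = ∑ t ∈ s, ipS S g (F t) := by
  unfold ipS
  simp only [Finset.mul_sum]
  exact Finset.sum_comm

theorem ipS_ite_left {α : Type*} (S : Finset α) (p : Prop) [Decidable p] (F g : α → ℝ) :
    ipS S (fun T => if p then F T else 0) g = if p then ipS S F g else 0 := by
  unfold ipS
  split_ifs <;> simp

theorem ipS_ite_right {α : Type*} (S : Finset α) (p : Prop) [Decidable p] (F g : α → ℝ) :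
    ipS S g (fun T => if p then F T else 0) = if p then ipS S g F else 0 := by
  unfold ipS
  split_ifs <;> simp

/-- The sum of all row-pair complements (over ordered pairs). -/
noncomputable def opA (r : ι → ℕ) (c : κ → ℕ) :
    ((ι → Finset κ) → ℝ) →ₗ[ℝ] ((ι → Finset κ) → ℝ) where
  toFun f T := ∑ x, ∑ y, if x ≠ y then cQ (Tables r c) (offRows x y) f T else 0
  map_add' := by
    intro f g
    funext T
    simp only [Pi.add_apply, ← Finset.sum_add_distrib]
    apply Finset.sum_congr rfl; intro x _
    apply Finset.sum_congr rfl; intro y _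
    split_ifs
    · have := cond_add (Tables r c) (offRows x y) f g T
      unfold cQ
      change f T + g T - cond (Tables r c) (offRows x y) (fun y => f y + g y) T = _
      rw [this]
      ring
    · simp
  map_smul' := by
    intro k f
    funext T
    simp only [Pi.smul_apply, smul_eq_mul, RingHom.id_apply, Finset.mul_sum]
    apply Finset.sum_congr rfl; intro x _
    apply Finset.sum_congr rfl; intro y _
    split_ifs
    · have := cond_smul (Tables r c) (offRows x y) k f T
      unfold cQ
      change k * f T - cond (Tables r c) (offRows x y) (fun y => k * f y) T = _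
      rw [this]
      ring
    · simp

theorem opA_apply (r : ι → ℕ) (c : κ → ℕ) (f : (ι → Finset κ) → ℝ) :
    opA r c f = fun T => ∑ x, ∑ y, if x ≠ y then cQ (Tables r c) (offRows x y) f T else 0 := rfl

theorem ipS_opA_left (r : ι → ℕ) (c : κ → ℕ) (f g : (ι → Finset κ) → ℝ) :
    ipS (Tables r c) (opA r c f) g
      = ∑ x, ∑ y, if x ≠ y then ipS (Tables r c) (cQ (Tables r c) (offRows x y) f) g else 0 := by
  rw [opA_apply, ipS_add_sum_left]
  apply Finset.sum_congr rfl; intro x _
  rw [ipS_add_sum_left]
  apply Finset.sum_congr rfl; intro y _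
  rw [ipS_ite_left]

theorem ipS_opA_right (r : ι → ℕ) (c : κ → ℕ) (f g : (ι → Finset κ) → ℝ) :
    ipS (Tables r c) g (opA r c f)
      = ∑ x, ∑ y, if x ≠ y then ipS (Tables r c) g (cQ (Tables r c) (offRows x y) f) else 0 := by
  rw [opA_apply, ipS_add_sum_right]
  apply Finset.sum_congr rfl; intro x _
  rw [ipS_add_sum_right]
  apply Finset.sum_congr rfl; intro y _
  rw [ipS_ite_right]

theorem ipS_opA_self (r : ι → ℕ) (c : κ → ℕ) (f : (ι → Finset κ) → ℝ) :
    ipS (Tables r c) f (opA r c f)
      = ∑ x, ∑ y, if x ≠ y then ipS (Tables r c) (cQ (Tables r c) (offRows x y) f)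
          (cQ (Tables r c) (offRows x y) f) else 0 := by
  rw [ipS_opA_right]
  apply Finset.sum_congr rfl; intro x _
  apply Finset.sum_congr rfl; intro y _
  rw [ipS_cQ_self]

/-- The spectral gap on mean-zero functions. -/
theorem rows_gap (r : ι → ℕ) (c : κ → ℕ) (g : (ι → Finset κ) → ℝ)
    (hg : ∑ T ∈ Tables r c, g T = 0) :
    2 * ipS (Tables r c) g g
      ≤ ∑ x, ∑ y, if x ≠ y then ipS (Tables r c) (cQ (Tables r c) (offRows x y) g)
          (cQ (Tables r c) (offRows x y) g) else 0 := by
  rw [← ipS_opA_self]
  refine spectral_step (Tables r c) (opA r c) 2 two_pos ?_ ?_ ?_ ?_ ?_ g hg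
  · -- symmetry
    intro f h
    rw [ipS_opA_left, ipS_opA_right]
    apply Finset.sum_congr rfl; intro x _
    apply Finset.sum_congr rfl; intro y _
    rw [ipS_cQ]
  · -- positivity
    intro f
    rw [ipS_opA_self]
    apply Finset.sum_nonneg; intro x _
    apply Finset.sum_nonneg; intro y _
    split_ifs
    · exact ipS_self_nonneg _ _
    · exact le_rfl
  · -- kernel
    intro f hf
    rw [ipS_opA_self] at hf
    have hnn1 : ∀ x ∈ (univ : Finset ι), 0 ≤ ∑ y, if x ≠ y then
        ipS (Tables r c) (cQ (Tables r c) (offRows x y) f) (cQ (Tables r c) (offRows x y) f) else 0 := by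
      intro x _
      apply Finset.sum_nonneg; intro y _
      split_ifs
      · exact ipS_self_nonneg _ _
      · exact le_rfl
    have h1 := (Finset.sum_eq_zero_iff_of_nonneg hnn1).mp hf
    apply const_of_fibres f
    intro x y hxy T hT T' hT' hoff
    have h2 := h1 x (Finset.mem_univ x)
    have hnn2 : ∀ y ∈ (univ : Finset ι), 0 ≤ if x ≠ y then
        ipS (Tables r c) (cQ (Tables r c) (offRows x y) f) (cQ (Tables r c) (offRows x y) f) else 0 := by
      intro y _
      split_ifs
      · exact ipS_self_nonneg _ _
      · exact le_rfl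
    have h3 := (Finset.sum_eq_zero_iff_of_nonneg hnn2).mp h2 y (Finset.mem_univ y)
    rw [if_pos hxy] at h3
    have hzero : ∀ W ∈ Tables r c, cQ (Tables r c) (offRows x y) f W = 0 := by
      unfold ipS at h3
      have := (Finset.sum_eq_zero_iff_of_nonneg (fun W _ => mul_self_nonneg _)).mp h3
      intro W hW
      exact mul_self_eq_zero.mp (this W hW)
    have e1 := hzero T hT
    have e2 := hzero T' hT'
    unfold cQ at e1 e2
    rw [cond_eq_of_eq hoff] at e2
    linarith
  · -- annihilates constants
    intro T hT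
    rw [opA_apply]
    apply Finset.sum_eq_zero; intro x _
    apply Finset.sum_eq_zero; intro y _
    split_ifs
    · unfold cQ
      rw [cond_const _ _ _ hT]
      ring
    · rfl
  · -- the main inequality
    intro f
    rw [ipS_opA_self, ipS_opA_left]
    have e : ∀ x y, ipS (Tables r c) (cQ (Tables r c) (offRows x y) f) (opA r c f)
        = ∑ u, ∑ v, if u ≠ v then ipS (Tables r c) (cQ (Tables r c) (offRows x y) f)
            (cQ (Tables r c) (offRows u v) f) else 0 := fun x y => ipS_opA_right _ _ _ _
    simp only [e]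
    apply pair_sum (fun x y u v => ipS (Tables r c) (cQ (Tables r c) (offRows x y) f)
      (cQ (Tables r c) (offRows u v) f))
    · intro x y u v
      rw [offRows_comm u v]
    · intro x y u v
      rw [offRows_comm x y]
    · intro x y u v hxy huv hxu hxv hyu hyv
      exact cross_disjoint hxy huv hxu hxv hyu hyv f
    · intro x y z hxy hxz hyz
      exact cross_triple hxy hxz hyz f

end Vale.Agent.Lib.P335
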