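import Vale.Agent.Lib.P335.Count2

/-!
Ordered three-block partitions with prescribed typed block sizes.
-/

namespace Vale.Agent.Lib.P335

open Finset BigOperators

variable {κ : Type*} [DecidableEq κ] (t : κ → Bool)

/-- Number of elements of type `b`. -/
def sz (B : Finset κ) (b : Bool) : ℕ := (B.filter (fun j => t j = b)).card

/-- Subsets of `E` with prescribed typed size. -/
def Marg (E : Finset κ) (m : Bool → ℤ) : Finset (Finset κ) :=
  E.powerset.filter (fun B => ∀ b, (sz t B b : ℤ) = m b)

open scoped Classical in
/-- Ordered partitions of `E` in three blocks with prescribed typed sizes. -/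
noncomputable def Slice (E : Finset κ) (n : Fin 3 → Bool → ℤ) : Finset (Fin 3 → Finset κ) :=
  (Fintype.piFinset (fun _ => E.powerset)).filter
    (fun A => (∀ j ∈ E, ∃! p, j ∈ A p) ∧ ∀ p b, (sz t (A p) b : ℤ) = n p b)

variable {t}

theorem mem_Marg {E : Finset κ} {m : Bool → ℤ} {B : Finset κ} :
    B ∈ Marg t E m ↔ B ⊆ E ∧ ∀ b, (sz t B b : ℤ) = m b := by
  simp [Marg]

theorem mem_Slice {E : Finset κ} {n : Fin 3 → Bool → ℤ} {A : Fin 3 → Finset κ} :
    A ∈ Slice t E n ↔ (∀ p, A p ⊆ E) ∧ (∀ j ∈ E, ∃! p, j ∈ A p) ∧
      ∀ p b, (sz t (A p) b : ℤ) = n p b := by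
  simp [Slice, Fintype.mem_piFinset]

theorem sz_insert {B : Finset κ} {e : κ} (he : e ∉ B) (b : Bool) :
    sz t (insert e B) b = sz t B b + if t e = b then 1 else 0 := by
  unfold sz
  rw [Finset.filter_insert]
  split_ifs with h
  · rw [Finset.card_insert_of_notMem]
    simp [he]
  · simp

theorem sz_disjoint_union {B C : Finset κ} (h : Disjoint B C) (b : Bool) :
    sz t (B ∪ C) b = sz t B b + sz t C b := by
  unfold sz
  rw [Finset.filter_union, Finset.card_union_of_disjoint]
  exact Finset.disjoint_filter_filter h

theorem sz_sdiff {B E : Finset κ} (h : B ⊆ E) (b : Bool) :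
    sz t (E \ B) b + sz t B b = sz t E b := by
  rw [← sz_disjoint_union Finset.sdiff_disjoint, Finset.sdiff_union_of_subset h]

/-- The block sizes add up along a partition. -/
theorem sz_partition {E : Finset κ} {A : Fin 3 → Finset κ} (hsub : ∀ p, A p ⊆ E)
    (huniq : ∀ j ∈ E, ∃! p, j ∈ A p) (b : Bool) :
    sz t E b = sz t (A 0) b + sz t (A 1) b + sz t (A 2) b := by
  have d01 : Disjoint (A 0) (A 1) := by
    rw [Finset.disjoint_left]
    intro j h0 h1
    obtain ⟨p, _, hu⟩ := huniq j (hsub 0 h0)
    have := (hu 0 h0).trans (hu 1 h1).symm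
    exact absurd this (by decide)
  have d2 : Disjoint (A 0 ∪ A 1) (A 2) := by
    rw [Finset.disjoint_left]
    intro j h01 h2
    obtain ⟨p, _, hu⟩ := huniq j (hsub 2 h2)
    rcases Finset.mem_union.mp h01 with h | h
    · have := (hu 0 h).trans (hu 2 h2).symm
      exact absurd this (by decide)
    · have := (hu 1 h).trans (hu 2 h2).symm
      exact absurd this (by decide)
  have e : E = (A 0 ∪ A 1) ∪ A 2 := by
    ext j
    constructor
    · intro hj
      obtain ⟨p, hp, _⟩ := huniq j hj
      fin_cases p
      · simp only [Finset.mem_union]; exact Or.inl (Or.inl hp)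
      · simp only [Finset.mem_union]; exact Or.inl (Or.inr hp)
      · simp only [Finset.mem_union]; exact Or.inr hp
    · intro hj
      rcases Finset.mem_union.mp hj with h | h
      · rcases Finset.mem_union.mp h with h | h
        · exact hsub 0 h
        · exact hsub 1 h
      · exact hsub 2 h
  rw [e, sz_disjoint_union d2, sz_disjoint_union d01]

/-- Cardinality of a typed-size family of subsets. -/
theorem card_Marg (D : Finset κ) {m : Bool → ℤ} (hm : ∀ b, 0 ≤ m b) :
    (Marg t D m).card = (sz t D true).choose (m true).toNat * (sz t D false).choose (m false).toNat := by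
  unfold sz
  rw [← Finset.card_powersetCard, ← Finset.card_powersetCard, ← Finset.card_product]
  apply Finset.card_nbij' (fun B => (B.filter (fun j => t j = true), B.filter (fun j => t j = false)))
    (fun P => P.1 ∪ P.2)
  · intro B hB
    obtain ⟨h1, h2⟩ := mem_Marg.mp (Finset.mem_coe.mp hB)
    simp only [Finset.coe_product, Set.mem_prod, Finset.mem_coe, Finset.mem_powersetCard]
    refine ⟨⟨Finset.filter_subset_filter _ h1, ?_⟩, ⟨Finset.filter_subset_filter _ h1, ?_⟩⟩
    · have := h2 true; unfold sz at this; omega
    · have := h2 false; unfold sz at this; omega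
  · intro P hP
    simp only [Finset.coe_product, Set.mem_prod, Finset.mem_coe, Finset.mem_powersetCard] at hP
    obtain ⟨⟨h1, h2⟩, ⟨h3, h4⟩⟩ := hP
    apply Finset.mem_coe.mpr
    apply mem_Marg.mpr
    refine ⟨Finset.union_subset (h1.trans (Finset.filter_subset _ _)) (h3.trans (Finset.filter_subset _ _)), ?_⟩
    have ht : ∀ j ∈ P.1, t j = true := fun j hj => (Finset.mem_filter.mp (h1 hj)).2
    have hf : ∀ j ∈ P.2, t j = false := fun j hj => (Finset.mem_filter.mp (h3 hj)).2
    have hd : Disjoint P.1 P.2 := by
      rw [Finset.disjoint_left]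
      intro j h5 h6
      have := ht j h5
      have := hf j h6
      simp_all
    intro b
    rw [sz_disjoint_union hd]
    have s1 : sz t P.1 true = P.1.card := by
      unfold sz; rw [Finset.filter_true_of_mem ht]
    have s2 : sz t P.1 false = 0 := by
      unfold sz
      rw [Finset.filter_false_of_mem, Finset.card_empty]
      intro j hj; simp [ht j hj]
    have s3 : sz t P.2 false = P.2.card := by
      unfold sz; rw [Finset.filter_true_of_mem hf]
    have s4 : sz t P.2 true = 0 := by
      unfold sz
      rw [Finset.filter_false_of_mem, Finset.card_empty]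
      intro j hj; simp [hf j hj]
    cases b
    · rw [s2, s3, h4]
      have := hm false
      simp only [zero_add]
      omega
    · rw [s1, s4, h2]
      have := hm true
      simp only [add_zero]
      omega
  · intro B _
    ext j
    simp only [Finset.mem_union, Finset.mem_filter]
    cases hj : t j <;> simp
  · intro P hP
    simp only [Finset.coe_product, Set.mem_prod, Finset.mem_coe, Finset.mem_powersetCard] at hP
    obtain ⟨⟨h1, _⟩, ⟨h3, _⟩⟩ := hP
    have ht : ∀ j ∈ P.1, t j = true := fun j hj => (Finset.mem_filter.mp (h1 hj)).2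
    have hf : ∀ j ∈ P.2, t j = false := fun j hj => (Finset.mem_filter.mp (h3 hj)).2
    apply Prod.ext
    · ext j
      simp only [Finset.mem_filter, Finset.mem_union]
      constructor
      · rintro ⟨h | h, h2⟩
        · exact h
        · have := hf j h; simp_all
      · intro h; exact ⟨Or.inl h, ht j h⟩
    · ext j
      simp only [Finset.mem_filter, Finset.mem_union]
      constructor
      · rintro ⟨h | h, h2⟩
        · have := ht j h; simp_all
        · exact h
      · intro h; exact ⟨Or.inr h, hf j h⟩

/-- Colour of an element. -/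
def color (e : κ) (A : Fin 3 → Finset κ) : Fin 3 :=
  if e ∈ A 0 then 0 else if e ∈ A 1 then 1 else 2

theorem color_eq {e : κ} {A : Fin 3 → Finset κ} {p : Fin 3} (h : e ∈ A p)
    (hu : ∀ q, e ∈ A q → q = p) : color e A = p := by
  unfold color
  fin_cases p
  · simp only [Fin.zero_eta, Fin.isValue] at h ⊢
    simp [h]
  · simp only [Fin.mk_one, Fin.isValue] at h hu ⊢
    have h0 : e ∉ A 0 := fun h0 => absurd (hu 0 h0) (by decide)
    simp [h0, h]
  · simp only [Fin.reduceFinMk, Fin.isValue] at h hu ⊢
    have h0 : e ∉ A 0 := fun h0 => absurd (hu 0 h0) (by decide)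
    have h1 : e ∉ A 1 := fun h1 => absurd (hu 1 h1) (by decide)
    simp [h0, h1]

/-- Decrease a size. -/
def dec (n : Fin 3 → Bool → ℤ) (p : Fin 3) (b : Bool) : Fin 3 → Bool → ℤ :=
  fun q c => if q = p ∧ c = b then n q c - 1 else n q c

/-- Insert an element in a block. -/
def ins (e : κ) (p : Fin 3) (A : Fin 3 → Finset κ) : Fin 3 → Finset κ :=
  fun q => if q = p then insert e (A q) else A q

theorem filter_color {E : Finset κ} {e : κ} (he : e ∉ E) (n : Fin 3 → Bool → ℤ) (p : Fin 3) :
    (Slice t (insert e E) n).filter (fun A => color e A = p)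
      = (Slice t E (dec n p (t e))).image (ins e p) := by
  ext A
  simp only [Finset.mem_filter, Finset.mem_image]
  constructor
  · rintro ⟨hA, hc⟩
    obtain ⟨hsub, huniq, hsz⟩ := mem_Slice.mp hA
    -- `e` lies in block `p`
    obtain ⟨r, hr, hru⟩ := huniq e (Finset.mem_insert_self _ _)
    have hrc : color e A = r := color_eq hr hru
    have hrp : r = p := hrc.symm.trans hc
    subst hrp
    refine ⟨fun q => (A q).erase e, ?_, ?_⟩
    · apply mem_Slice.mpr
      refine ⟨?_, ?_, ?_⟩
      · intro q j hj
        obtain ⟨h1, h2⟩ := Finset.mem_erase.mp hj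
        exact (Finset.mem_insert.mp (hsub q h2)).resolve_left h1
      · intro j hj
        have hne : j ≠ e := fun h => he (h ▸ hj)
        obtain ⟨q, hq, hqu⟩ := huniq j (Finset.mem_insert_of_mem hj)
        refine ⟨q, Finset.mem_erase.mpr ⟨hne, hq⟩, ?_⟩
        intro q' hq'
        exact hqu q' (Finset.mem_erase.mp hq').2
      · intro q b
        unfold dec
        by_cases hq : q = r
        · subst hq
          have : sz t (A q) b = sz t ((A q).erase e) b + if t e = b then 1 else 0 := by
            rw [← sz_insert (Finset.notMem_erase e _), Finset.insert_erase hr]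
          have h3 := hsz q b
          rw [this] at h3
          by_cases hb : b = t e
          · subst hb
            simp only [true_and, if_true] at h3 ⊢
            push_cast at h3
            omega
          · have hb' : ¬ t e = b := fun h => hb h.symm
            simp only [hb, hb', and_false, if_false] at h3 ⊢
            push_cast at h3
            omega
        · have hmem : e ∉ A q := fun h => hq (hru q h)
          rw [Finset.erase_eq_of_notMem hmem]
          simp only [hq, false_and, if_false]
          exact hsz q b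
    · funext q
      unfold ins
      by_cases hq : q = r
      · subst hq
        simp only [if_true]
        exact Finset.insert_erase hr
      · simp only [hq, if_false]
        exact Finset.erase_eq_of_notMem (fun h => hq (hru q h))
  · rintro ⟨A', hA', rfl⟩
    obtain ⟨hsub, huniq, hsz⟩ := mem_Slice.mp hA'
    have hout : ∀ q, e ∉ A' q := fun q h => he (hsub q h)
    have hins : ∀ q, ins e p A' q = if q = p then insert e (A' q) else A' q := fun q => rfl
    have hmemp : e ∈ ins e p A' p := by
      rw [hins]; simp
    have huq : ∀ q, e ∈ ins e p A' q → q = p := by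
      intro q hq
      rw [hins] at hq
      by_contra hne
      rw [if_neg hne] at hq
      exact hout q hq
    refine ⟨?_, color_eq hmemp huq⟩
    apply mem_Slice.mpr
    refine ⟨?_, ?_, ?_⟩
    · intro q
      rw [hins]
      split_ifs
      · exact Finset.insert_subset_insert _ (hsub q)
      · exact (hsub q).trans (Finset.subset_insert _ _)
    · intro j hj
      rcases Finset.mem_insert.mp hj with rfl | hj'
      · exact ⟨p, hmemp, fun q hq => huq q hq⟩
      · have hne : j ≠ e := fun h => he (h ▸ hj')
        obtain ⟨r, hr, hru⟩ := huniq j hj'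
        refine ⟨r, ?_, ?_⟩
        · simp only [hins]
          split_ifs
          · exact Finset.mem_insert_of_mem hr
          · exact hr
        · intro q hq
          simp only [hins] at hq
          split_ifs at hq
          · exact hru q ((Finset.mem_insert.mp hq).resolve_left hne)
          · exact hru q hq
    · intro q b
      rw [hins]
      have h3 := hsz q b
      unfold dec at h3
      by_cases hq : q = p
      · subst hq
        simp only [if_true]
        rw [sz_insert (hout q)]
        by_cases hb : b = t e
        · subst hb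
          simp only [true_and, if_true] at h3 ⊢
          push_cast
          omega
        · have hb' : ¬ t e = b := fun h => hb h.symm
          simp only [hb, hb', and_false, if_false] at h3 ⊢
          push_cast
          omega
      · simp only [hq, false_and, if_false] at h3 ⊢
        exact h3

theorem ins_injOn {E : Finset κ} {e : κ} (he : e ∉ E) (n : Fin 3 → Bool → ℤ) (p : Fin 3) :
    Set.InjOn (ins e p) (Slice t E n : Set (Fin 3 → Finset κ)) := by
  intro A hA B hB hAB
  have ha := (mem_Slice.mp (Finset.mem_coe.mp hA)).1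
  have hb := (mem_Slice.mp (Finset.mem_coe.mp hB)).1
  funext q
  have := congrFun hAB q
  unfold ins at this
  by_cases hq : q = p
  · simp only [hq, if_true] at this
    have h1 : e ∉ A p := fun h => he (ha p h)
    have h2 : e ∉ B p := fun h => he (hb p h)
    rw [hq]
    have := congrArg (fun X => Finset.erase X e) this
    simp only [Finset.erase_insert h1, Finset.erase_insert h2] at this
    exact this
  · simpa [hq] using this

/-- Fibres of the block map have the same size. -/
theorem fiber_card {E : Finset κ} {n : Fin 3 → Bool → ℤ}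
    (hcons : ∀ b, (sz t E b : ℤ) = n 0 b + n 1 b + n 2 b) (q : Fin 3) {B : Finset κ}
    (hB : B ∈ Marg t E (n q)) :
    ((Slice t E n).filter (fun A => A q = B)).card = (Marg t (E \ B) (n (q + 1))).card := by
  obtain ⟨hBE, hBsz⟩ := mem_Marg.mp hB
  have hsum : ∀ b, (n q b + n (q + 1) b + n (q + 2) b) = n 0 b + n 1 b + n 2 b := by
    intro b
    fin_cases q
    · simp
    · simp only [Fin.mk_one, Fin.isValue]
      have h1 : (1 : Fin 3) + 1 = 2 := by decide
      have h2 : (1 : Fin 3) + 2 = 0 := by decide
      rw [h1, h2]; ring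
    · simp only [Fin.reduceFinMk, Fin.isValue]
      have h1 : (2 : Fin 3) + 1 = 0 := by decide
      have h2 : (2 : Fin 3) + 2 = 1 := by decide
      rw [h1, h2]; ring
  have hne1 : q + 1 ≠ q := by fin_cases q <;> decide
  have hne2 : q + 2 ≠ q := by fin_cases q <;> decide
  have hne3 : q + 2 ≠ q + 1 := by fin_cases q <;> decide
  have hall : ∀ p : Fin 3, p = q ∨ p = q + 1 ∨ p = q + 2 := by
    intro p; fin_cases q <;> fin_cases p <;> decide
  apply Finset.card_nbij' (fun A => A (q + 1))
    (fun C => fun p => if p = q then B else if p = q + 1 then C else (E \ B) \ C)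
  · intro A hA
    obtain ⟨h1, h2⟩ := Finset.mem_filter.mp (Finset.mem_coe.mp hA)
    obtain ⟨hsub, huniq, hsz⟩ := mem_Slice.mp h1
    apply Finset.mem_coe.mpr
    apply mem_Marg.mpr
    refine ⟨?_, hsz (q + 1)⟩
    intro j hj
    apply Finset.mem_sdiff.mpr
    refine ⟨hsub _ hj, fun hjB => ?_⟩
    obtain ⟨r, _, hu⟩ := huniq j (hsub _ hj)
    rw [← h2] at hjB
    exact hne1 ((hu _ hj).trans (hu _ hjB).symm)
  · intro C hC
    obtain ⟨hCsub, hCsz⟩ := mem_Marg.mp (Finset.mem_coe.mp hC)
    apply Finset.mem_coe.mpr
    apply Finset.mem_filter.mpr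
    refine ⟨?_, by simp⟩
    apply mem_Slice.mpr
    refine ⟨?_, ?_, ?_⟩
    · intro p
      show (if p = q then B else if p = q + 1 then C else (E \ B) \ C) ⊆ E
      split_ifs
      · exact hBE
      · exact hCsub.trans Finset.sdiff_subset
      · exact Finset.sdiff_subset.trans Finset.sdiff_subset
    · intro j hj
      by_cases hjB : j ∈ B
      · refine ⟨q, by simpa using hjB, ?_⟩
        intro p hp
        by_contra hpq
        simp only [hpq, if_false] at hp
        split_ifs at hp
        · exact (Finset.mem_sdiff.mp (hCsub hp)).2 hjB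
        · exact (Finset.mem_sdiff.mp (Finset.mem_sdiff.mp hp).1).2 hjB
      · by_cases hjC : j ∈ C
        · refine ⟨q + 1, by simpa [hne1] using hjC, ?_⟩
          intro p hp
          by_cases hpq : p = q
          · simp only [hpq, if_true] at hp; exact absurd hp hjB
          · simp only [hpq, if_false] at hp
            by_cases hp1 : p = q + 1
            · exact hp1
            · simp only [hp1, if_false] at hp
              exact absurd hjC (Finset.mem_sdiff.mp hp).2
        · refine ⟨q + 2, ?_, ?_⟩
          · simp only [hne2, hne3, if_false]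
            exact Finset.mem_sdiff.mpr ⟨Finset.mem_sdiff.mpr ⟨hj, hjB⟩, hjC⟩
          · intro p hp
            rcases hall p with rfl | rfl | rfl
            · simp at hp; exact absurd hp hjB
            · simp [hne1] at hp; exact absurd hp hjC
            · rfl
    · intro p b
      rcases hall p with rfl | rfl | rfl
      · simpa using hBsz b
      · simpa [hne1] using hCsz b
      · simp only [hne2, hne3, if_false]
        have s1 := sz_sdiff (t := t) hCsub b
        have s2 := sz_sdiff (t := t) hBE b
        have s3 := hBsz b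
        have s4 := hCsz b
        have s5 := hcons b
        have s6 := hsum b
        omega
  · intro A hA
    obtain ⟨h1, h2⟩ := Finset.mem_filter.mp (Finset.mem_coe.mp hA)
    obtain ⟨hsub, huniq, hsz⟩ := mem_Slice.mp h1
    funext p
    rcases hall p with rfl | rfl | rfl
    · simp [h2]
    · simp [hne1]
    · simp only [hne2, hne3, if_false]
      ext j
      simp only [Finset.mem_sdiff]
      constructor
      · rintro ⟨⟨hjE, hjB⟩, hjC⟩
        obtain ⟨r, hr, _⟩ := huniq j hjE
        rcases hall r with rfl | rfl | rfl
        · rw [h2] at hr; exact absurd hr hjB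
        · exact absurd hr hjC
        · exact hr
      · intro hj
        refine ⟨⟨hsub _ hj, fun hjB => ?_⟩, fun hjC => ?_⟩
        · obtain ⟨r, _, hu⟩ := huniq j (hsub _ hj)
          rw [← h2] at hjB
          exact hne2 ((hu _ hj).trans (hu _ hjB).symm)
        · obtain ⟨r, _, hu⟩ := huniq j (hsub _ hj)
          exact hne3 ((hu _ hj).trans (hu _ hjC).symm)
  · intro C _
    simp [hne1]

/-- The sum over a slice of a function of one block reduces to its marginal. -/
theorem marg_sum (E : Finset κ) (n : Fin 3 → Bool → ℤ) (q : Fin 3) :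
    ∃ N : ℕ, ∀ φ : Finset κ → ℝ,
      ∑ A ∈ Slice t E n, φ (A q) = (N : ℝ) * ∑ B ∈ Marg t E (n q), φ B := by
  rcases (Slice t E n).eq_empty_or_nonempty with h | ⟨A₀, hA₀⟩
  · exact ⟨0, fun φ => by simp [h]⟩
  · obtain ⟨hsub₀, huniq₀, hsz₀⟩ := mem_Slice.mp hA₀
    have hcons : ∀ b, (sz t E b : ℤ) = n 0 b + n 1 b + n 2 b := by
      intro b
      rw [sz_partition hsub₀ huniq₀ b, ← hsz₀ 0 b, ← hsz₀ 1 b, ← hsz₀ 2 b]
      push_cast; ring
    have hnn : ∀ p b, 0 ≤ n p b := by
      intro p b
      rw [← hsz₀ p b]; positivity
    refine ⟨(Marg t (E \ A₀ q) (n (q + 1))).card, fun φ => ?_⟩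
    have hmaps : ∀ A ∈ Slice t E n, A q ∈ Marg t E (n q) := by
      intro A hA
      obtain ⟨h1, _, h3⟩ := mem_Slice.mp hA
      exact mem_Marg.mpr ⟨h1 q, h3 q⟩
    rw [← Finset.sum_fiberwise_of_maps_to hmaps, Finset.mul_sum]
    apply Finset.sum_congr rfl
    intro B hB
    have e1 : ∑ A ∈ (Slice t E n).filter (fun A => A q = B), φ (A q)
        = ((Slice t E n).filter (fun A => A q = B)).card * φ B := by
      rw [Finset.sum_congr rfl (g := fun _ => φ B)
        (fun A hA => by rw [(Finset.mem_filter.mp hA).2])]
      simp
    rw [e1, fiber_card hcons q hB]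
    congr 1
    obtain ⟨hBE, hBsz⟩ := mem_Marg.mp hB
    have hA₀q : A₀ q ∈ Marg t E (n q) := hmaps A₀ hA₀
    obtain ⟨hBE', hBsz'⟩ := mem_Marg.mp hA₀q
    rw [card_Marg _ (hnn (q + 1)), card_Marg _ (hnn (q + 1))]
    have s1 := fun b => sz_sdiff (t := t) hBE b
    have s2 := fun b => sz_sdiff (t := t) hBE' b
    have s3 : ∀ b, sz t (E \ B) b = sz t (E \ A₀ q) b := by
      intro b
      have a1 := s1 b
      have a2 := s2 b
      have a3 := hBsz b
      have a4 := hBsz' b
      omega
    rw [s3, s3]

end Vale.Agent.Lib.P335
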