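import Vale.Agent.Lib.P335.Slice

/-!
The star inequality inside a slice, by induction on the ground set.
-/

namespace Vale.Agent.Lib.P335

open Finset BigOperators

theorem var_eq_zero_of_card_le_one {α : Type*} {S : Finset α} (h : S.card ≤ 1) (F : α → ℝ) :
    var S F = 0 := by
  rcases S.eq_empty_or_nonempty with rfl | hS
  · simp [var]
  · have h1 : S.card = 1 := le_antisymm h (Finset.card_pos.mpr hS)
    obtain ⟨x, rfl⟩ := Finset.card_eq_one.mp h1
    simp [var]

theorem star_of_card_le_one {α : Type*} {S : Finset α} (h : S.card ≤ 1) (g : Fin 3 → α → ℝ) :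
    Star S g := by
  unfold Star
  rw [var_eq_zero_of_card_le_one h]
  have : 0 ≤ ∑ p, var S (g p) := Finset.sum_nonneg (fun p _ => var_nonneg S (g p))
  linarith

theorem sq_mul_div_self (n x : ℝ) : (n * x) ^ 2 / n = n * x ^ 2 := by
  by_cases h : n = 0
  · simp [h]
  · field_simp

/-- The algebra of the first-level variance. -/
theorem between_algebra (n a d : Fin 3 → ℝ) (hn : ∀ p, 0 ≤ n p) (m : Fin 3 → Fin 3 → ℝ)
    (hm : ∀ q p, m q p = n p * (a q + if p = q then d q else 0)) :
    ∑ p, (∑ q, m q p) ^ 2 / n p - (∑ p, ∑ q, m q p) ^ 2 / ∑ p, n p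
      ≤ 2 * ∑ q, (∑ p, (m q p) ^ 2 / n p - (∑ p, m q p) ^ 2 / ∑ p, n p) := by
  have hs : ∀ p, ∑ q, m q p = n p * (a 0 + a 1 + a 2 + d p) := by
    intro p
    simp only [hm, Fin.sum_univ_three, ← mul_add]
    congr 1
    fin_cases p <;> simp <;> ring
  simp only [hs]
  simp only [hm, Fin.sum_univ_three, sq_mul_div_self]
  simp only [show (1 : Fin 3) = 0 ↔ False by decide, show (2 : Fin 3) = 0 ↔ False by decide,
    show (0 : Fin 3) = 1 ↔ False by decide, show (2 : Fin 3) = 1 ↔ False by decide,
    show (0 : Fin 3) = 2 ↔ False by decide, show (1 : Fin 3) = 2 ↔ False by decide,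
    if_true, if_false, sq_mul_div_self, add_zero]
  set n0 := n 0
  set n1 := n 1
  set n2 := n 2
  set a0 := a 0
  set a1 := a 1
  set a2 := a 2
  set d0 := d 0
  set d1 := d 1
  set d2 := d 2
  have h0 : 0 ≤ n0 := hn 0
  have h1 : 0 ≤ n1 := hn 1
  have h2 : 0 ≤ n2 := hn 2
  by_cases hW : n0 + n1 + n2 = 0
  · have e0 : n0 = 0 := by linarith
    have e1 : n1 = 0 := by linarith
    have e2 : n2 = 0 := by linarith
    simp [e0, e1, e2]
  · have hpos : 0 < n0 + n1 + n2 := lt_of_le_of_ne (by positivity) (Ne.symm hW)
    have key : 2 * ((n0 * (a0 + d0) ^ 2 + n1 * a0 ^ 2 + n2 * a0 ^ 2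
          - (n0 * (a0 + d0) + n1 * a0 + n2 * a0) ^ 2 / (n0 + n1 + n2))
        + (n0 * a1 ^ 2 + n1 * (a1 + d1) ^ 2 + n2 * a1 ^ 2
          - (n0 * a1 + n1 * (a1 + d1) + n2 * a1) ^ 2 / (n0 + n1 + n2))
        + (n0 * a2 ^ 2 + n1 * a2 ^ 2 + n2 * (a2 + d2) ^ 2
          - (n0 * a2 + n1 * a2 + n2 * (a2 + d2)) ^ 2 / (n0 + n1 + n2)))
        - (n0 * (a0 + a1 + a2 + d0) ^ 2 + n1 * (a0 + a1 + a2 + d1) ^ 2 + n2 * (a0 + a1 + a2 + d2) ^ 2
          - (n0 * (a0 + a1 + a2 + d0) + n1 * (a0 + a1 + a2 + d1) + n2 * (a0 + a1 + a2 + d2)) ^ 2
            / (n0 + n1 + n2))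
        = (n0 * n1 * (d0 + d1) ^ 2 + n0 * n2 * (d0 + d2) ^ 2 + n1 * n2 * (d1 + d2) ^ 2)
            / (n0 + n1 + n2) := by
      field_simp
      ring
    have hnn : 0 ≤ (n0 * n1 * (d0 + d1) ^ 2 + n0 * n2 * (d0 + d2) ^ 2 + n1 * n2 * (d1 + d2) ^ 2)
        / (n0 + n1 + n2) := by positivity
    rw [← key] at hnn
    linarith

/-- `between` for a map to `Fin 3`, in terms of class sums. -/
theorem between_fin3 {α : Type*} (S : Finset α) (φ : α → Fin 3) (F : α → ℝ) :
    between S φ univ F
      = ∑ p, (∑ x ∈ S.filter (fun x => φ x = p), F x) ^ 2 / ((S.filter (fun x => φ x = p)).card : ℝ)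
        - (∑ p, ∑ x ∈ S.filter (fun x => φ x = p), F x) ^ 2
          / ∑ p, ((S.filter (fun x => φ x = p)).card : ℝ) := by
  unfold between
  congr 2
  · congr 1
    exact (Finset.sum_fiberwise_of_maps_to (fun x _ => Finset.mem_univ (φ x)) F).symm
  · rw [Finset.card_eq_sum_card_fiberwise (f := φ) (t := univ) (fun x _ => Finset.mem_coe.mpr (Finset.mem_univ (φ x)))]
    push_cast
    rfl

variable {κ : Type*} [DecidableEq κ] {t : κ → Bool}

/-- The star inequality inside a slice. -/
theorem slice_star (E : Finset κ) :
    ∀ (n : Fin 3 → Bool → ℤ) (g : Fin 3 → Finset κ → ℝ),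
      Star (Slice t E n) (fun p A => g p (A p)) := by
  induction E using Finset.induction_on with
  | empty =>
    intro n g
    apply star_of_card_le_one
    apply Finset.card_le_one.mpr
    intro A hA B hB
    have h1 := (mem_Slice.mp hA).1
    have h2 := (mem_Slice.mp hB).1
    funext p
    rw [Finset.subset_empty.mp (h1 p), Finset.subset_empty.mp (h2 p)]
  | insert e E he ih =>
    intro n g
    apply star_of_parts (Slice t (insert e E) n) (color e) univ (fun _ _ => Finset.mem_univ _)
    · intro p _
      rw [filter_color he n p]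
      apply star_image (ins_injOn he _ p) (fun q A => g q (A q))
      exact ih (dec n p (t e)) (fun q B => g q (if q = p then insert e B else B))
    · -- the first-level inequality
      set S := Slice t (insert e E) n with hS
      set N : Fin 3 → ℝ := fun p => ((S.filter (fun A => color e A = p)).card : ℝ) with hN
      set m : Fin 3 → Fin 3 → ℝ := fun q p => ∑ A ∈ S.filter (fun A => color e A = p), g q (A q) with hm
      set a : Fin 3 → ℝ := fun q =>
        (∑ B ∈ Marg t E (n q), g q B) / ((Marg t E (n q)).card : ℝ) with ha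
      set d : Fin 3 → ℝ := fun q => m q q / N q - a q with hd
      have hNn : ∀ p, 0 ≤ N p := fun p => Nat.cast_nonneg _
      have hmoff : ∀ q p, p ≠ q → m q p = N p * a q := by
        intro q p hpq
        have hdec : dec n p (t e) q = n q := by
          funext b
          unfold dec
          simp [Ne.symm hpq]
        obtain ⟨K, hK⟩ := marg_sum (t := t) E (dec n p (t e)) q
        have e1 : m q p = ∑ A' ∈ Slice t E (dec n p (t e)), g q (A' q) := by
          simp only [hm, hS]
          rw [filter_color he n p, Finset.sum_image (ins_injOn he _ p)]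
          apply Finset.sum_congr rfl
          intro A' _
          simp [ins, Ne.symm hpq]
        have e2 : N p = ((Slice t E (dec n p (t e))).card : ℝ) := by
          simp only [hN, hS]
          rw [filter_color he n p, Finset.card_image_of_injOn (ins_injOn he _ p)]
        have e3 := hK (fun B => g q B)
        have e4 := hK (fun _ => (1 : ℝ))
        simp only [Finset.sum_const, nsmul_eq_mul, mul_one, hdec] at e3 e4
        rw [e1, e3, e2, e4]
        simp only [ha]
        by_cases h0 : ((Marg t E (n q)).card : ℝ) = 0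
        · have h00 : Marg t E (n q) = ∅ := by
            have : (Marg t E (n q)).card = 0 := by exact_mod_cast h0
            exact Finset.card_eq_zero.mp this
          simp [h00]
        · field_simp
      have hmall : ∀ q p, m q p = N p * (a q + if p = q then d q else 0) := by
        intro q p
        by_cases hpq : p = q
        · subst hpq
          simp only [if_true, hd]
          by_cases h0 : N p = 0
          · have : S.filter (fun A => color e A = p) = ∅ := by
              have : (S.filter (fun A => color e A = p)).card = 0 := by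
                simp only [hN] at h0
                exact_mod_cast h0
              exact Finset.card_eq_zero.mp this
            simp only [hm, h0, this]
            simp
          · field_simp
            ring
        · simp only [hpq, if_false, add_zero]
          exact hmoff q p hpq
      have alg := between_algebra N a d hNn m hmall
      rw [between_fin3]
      simp only [between_fin3]
      have e5 : ∀ p, ∑ x ∈ S.filter (fun A => color e A = p), ∑ q, g q (x q) = ∑ q, m q p := by
        intro p
        simp only [hm]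
        rw [Finset.sum_comm]
      simp only [e5]
      exact alg

end Vale.Agent.Lib.P335
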