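import Vale.Agent.Lib.P335.Poincare
import Vale.Agent.Lib.P335.Moves

/-!
The bipartite switch chain on binary tables and its mixing time.
-/

namespace Vale.Agent.Lib.P335

open Finset BigOperators

variable {ι κ : Type*} [Fintype ι] [DecidableEq ι] [Fintype κ] [DecidableEq κ]

/-- The choices of the chain: ordered pairs of distinct rows and of distinct columns. -/
def tableMoves (ι κ : Type*) [Fintype ι] [DecidableEq ι] [Fintype κ] [DecidableEq κ] :
    Finset (ι × ι × κ × κ) :=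
  univ.filter (fun p => p.1 ≠ p.2.1 ∧ p.2.2.1 ≠ p.2.2.2)

/-- The move for the choice `(x, y, j, l)`: if rows `x, y` and columns `j, l` carry the pattern
with `j` in row `x` only and `l` in row `y` only, then switch; otherwise stay. -/
def tableStep (p : ι × ι × κ × κ) (T : ι → Finset κ) : ι → Finset κ :=
  if p.2.2.1 ∈ T p.1 ∧ p.2.2.1 ∉ T p.2.1 ∧ p.2.2.2 ∈ T p.2.1 ∧ p.2.2.2 ∉ T p.1 then
    sw T p.1 p.2.1 p.2.2.1 p.2.2.2
  else T

/-- The lazy switch chain on tables. -/
noncomputable def tableKernel (ι κ : Type*) [Fintype ι] [DecidableEq ι] [Fintype κ] [DecidableEq κ] :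
    Matrix (ι → Finset κ) (ι → Finset κ) ℝ :=
  moveK (tableMoves ι κ) tableStep

theorem sw_sw (T : ι → Finset κ) {x y : ι} (hxy : x ≠ y) {j l : κ} (hjx : j ∈ T x) (hlx : l ∉ T x)
    (hly : l ∈ T y) (hjy : j ∉ T y) : sw (sw T x y j l) x y l j = T := by
  have hjl : j ≠ l := fun h => hlx (h ▸ hjx)
  funext a
  by_cases h1 : a = x
  · rw [h1, sw_left, sw_left, Finset.erase_insert (by simp [hlx]), Finset.insert_erase hjx]
  by_cases h2 : a = y
  · rw [h2, sw_right _ hxy, sw_right _ hxy, Finset.erase_insert (by simp [hjy]),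
      Finset.insert_erase hly]
  · rw [sw_other _ h1 h2, sw_other _ h1 h2]

theorem tableStep_rev {p : ι × ι × κ × κ} (hp : p ∈ tableMoves ι κ) (a b : ι → Finset κ) (hab : a ≠ b)
    (h : tableStep p a = b) : tableStep (p.1, p.2.1, p.2.2.2, p.2.2.1) b = a := by
  obtain ⟨x, y, j, l⟩ := p
  simp only [tableMoves, Finset.mem_filter, Finset.mem_univ, true_and] at hp
  unfold tableStep at h ⊢
  simp only at h ⊢
  split_ifs at h with hc
  · obtain ⟨h1, h2, h3, h4⟩ := hc
    subst h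
    have hjl := hp.2
    rw [if_pos, sw_sw _ hp.1 h1 h4 h3 h2]
    rw [sw_left, sw_right _ hp.1]
    simp [h2, h4, hjl, Ne.symm hjl]
  · exact absurd h hab

/-- Poincare in the form required by the move chain. -/
theorem table_energy_le (h : (ι → Finset κ) → ℝ) (T : ι → Finset κ) :
    (∑ x, ∑ y, if x ≠ y then ∑ j ∈ T x \ T y, ∑ l ∈ T y \ T x, (h T - h (sw T x y j l)) ^ 2 else 0)
      ≤ ∑ m ∈ tableMoves ι κ, (h T - h (tableStep m T)) ^ 2 := by
  unfold tableMoves
  rw [Finset.sum_filter, Fintype.sum_prod_type]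
  apply Finset.sum_le_sum; intro x _
  rw [Fintype.sum_prod_type]
  apply Finset.sum_le_sum; intro y _
  rw [Fintype.sum_prod_type]
  by_cases hxy : x = y
  · subst hxy
    simp
  rw [if_pos hxy]
  let G : κ → κ → ℝ := fun j l => if x ≠ y ∧ j ≠ l then (h T - h (tableStep (x, y, j, l) T)) ^ 2 else 0
  have hnn : ∀ j l, 0 ≤ G j l := by
    intro j l
    simp only [G]
    split_ifs
    · exact sq_nonneg _
    · exact le_rfl
  change _ ≤ ∑ j, ∑ l, G j l
  have inner : ∀ j ∈ T x \ T y, ∑ l ∈ T y \ T x, (h T - h (sw T x y j l)) ^ 2 ≤ ∑ l, G j l := by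
    intro j hj
    have e : ∀ l ∈ T y \ T x, (h T - h (sw T x y j l)) ^ 2 = G j l := by
      intro l hl
      have hj' := Finset.mem_sdiff.mp hj
      have hl' := Finset.mem_sdiff.mp hl
      have hjl : j ≠ l := fun e => hl'.2 (e ▸ hj'.1)
      simp only [G]
      rw [if_pos ⟨hxy, hjl⟩]
      unfold tableStep
      simp only
      rw [if_pos ⟨hj'.1, hj'.2, hl'.1, hl'.2⟩]
    rw [Finset.sum_congr rfl e]
    exact Finset.sum_le_sum_of_subset_of_nonneg (Finset.subset_univ _) (fun l _ _ => hnn j l)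
  calc ∑ j ∈ T x \ T y, ∑ l ∈ T y \ T x, (h T - h (sw T x y j l)) ^ 2
      ≤ ∑ j ∈ T x \ T y, ∑ l, G j l := Finset.sum_le_sum inner
    _ ≤ ∑ j, ∑ l, G j l := Finset.sum_le_sum_of_subset_of_nonneg (Finset.subset_univ _)
        (fun j _ _ => Finset.sum_nonneg (fun l _ => hnn j l))

theorem tableMoves_card_le : (tableMoves ι κ).card ≤ (Fintype.card ι * Fintype.card κ) ^ 2 := by
  have h1 : (tableMoves ι κ).card ≤ Fintype.card (ι × ι × κ × κ) := Finset.card_le_univ _
  simp only [Fintype.card_prod] at h1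
  calc (tableMoves ι κ).card ≤ _ := h1
    _ = (Fintype.card ι * Fintype.card κ) ^ 2 := by ring

theorem tableMoves_nonempty (hm : 2 ≤ Fintype.card ι) (hn : 2 ≤ Fintype.card κ) :
    (tableMoves ι κ).Nonempty := by
  obtain ⟨x, y, hxy⟩ := Fintype.exists_pair_of_one_lt_card (α := ι) (by omega)
  obtain ⟨j, l, hjl⟩ := Fintype.exists_pair_of_one_lt_card (α := κ) (by omega)
  exact ⟨(x, y, j, l), by simp [tableMoves, hxy, hjl]⟩

theorem tables_card_le (r : ι → ℕ) (c : κ → ℕ) :
    (((Tables r c).card : ℕ) : ℝ) ≤ 2 ^ (Fintype.card ι * Fintype.card κ) := by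
  have h1 : (Tables r c).card ≤ Fintype.card (ι → Finset κ) := Finset.card_le_univ _
  rw [Fintype.card_fun, Fintype.card_finset] at h1
  have h2 : (2 ^ Fintype.card κ) ^ Fintype.card ι = 2 ^ (Fintype.card ι * Fintype.card κ) := by
    rw [← pow_mul, mul_comm]
  rw [h2] at h1
  exact_mod_cast h1

/-- The Poincare inequality with the sum over tables outermost. -/
theorem tables_poincare_sum (r : ι → ℕ) (c : κ → ℕ) (f : (ι → Finset κ) → ℝ) :
    8 * ∑ T ∈ Tables r c, (f T - (∑ U ∈ Tables r c, f U) / ((Tables r c).card : ℝ)) ^ 2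
      ≤ ∑ T ∈ Tables r c, ∑ x, ∑ y, if x ≠ y then
          ∑ j ∈ T x \ T y, ∑ l ∈ T y \ T x, (f T - f (sw T x y j l)) ^ 2 else 0 := by
  refine le_trans (tables_poincare r c f) (le_of_eq ?_)
  symm
  calc ∑ T ∈ Tables r c, ∑ x, ∑ y, (if x ≠ y then
          ∑ j ∈ T x \ T y, ∑ l ∈ T y \ T x, (f T - f (sw T x y j l)) ^ 2 else 0)
      = ∑ x, ∑ T ∈ Tables r c, ∑ y, (if x ≠ y then
          ∑ j ∈ T x \ T y, ∑ l ∈ T y \ T x, (f T - f (sw T x y j l)) ^ 2 else 0) := Finset.sum_comm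
    _ = ∑ x, ∑ y, ∑ T ∈ Tables r c, (if x ≠ y then
          ∑ j ∈ T x \ T y, ∑ l ∈ T y \ T x, (f T - f (sw T x y j l)) ^ 2 else 0) :=
        Finset.sum_congr rfl (fun _ _ => Finset.sum_comm)
    _ = ∑ x, ∑ y, if x ≠ y then pairE r c x y f else 0 := by
        apply Finset.sum_congr rfl; intro x _
        apply Finset.sum_congr rfl; intro y _
        split_ifs
        · rfl
        · simp

/-- Polynomial mixing of the switch chain on binary tables with arbitrary margins. -/
theorem table_mixing (hm : 2 ≤ Fintype.card ι) (hn : 2 ≤ Fintype.card κ) (r : ι → ℕ) (c : κ → ℕ)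
    {T : ι → Finset κ} (hT : T ∈ Tables r c) {t : ℕ}
    (ht : (Fintype.card ι * Fintype.card κ) ^ 2 * (Fintype.card ι * Fintype.card κ + 2) ≤ t) :
    (1 / 2) * ∑ U ∈ Tables r c, |(tableKernel ι κ ^ t) T U - 1 / ((Tables r c).card : ℝ)| ≤ 1 / 4 := by
  have hne := tableMoves_nonempty (ι := ι) (κ := κ) hm hn
  have hcardpos : 1 ≤ (tableMoves ι κ).card := Finset.card_pos.mpr hne
  have hcardR : (0 : ℝ) < ((tableMoves ι κ).card : ℝ) := by exact_mod_cast hcardpos
  refine moves_tv (N := (tableMoves ι κ).card) (k := Fintype.card ι * Fintype.card κ)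
    hne (fun p => (p.1, p.2.1, p.2.2.2, p.2.2.1)) ?_ ?_ ?_ ?_ hcardpos ?_
    (tables_card_le r c) hT ?_
  · intro m hm'
    simp only [tableMoves, Finset.mem_filter, Finset.mem_univ, true_and] at hm' ⊢
    exact ⟨hm'.1, Ne.symm hm'.2⟩
  · intro m _
    rfl
  · intro m hm' a b hab h
    exact tableStep_rev hm' a b hab h
  · intro a ha m hm'
    unfold tableStep
    split_ifs with hc
    · simp only [tableMoves, Finset.mem_filter, Finset.mem_univ, true_and] at hm'
      exact sw_mem ha hm'.1 hc.1 hc.2.2.2 hc.2.2.1 hc.2.1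
    · exact ha
  · intro h hh
    have h1 := tables_poincare_sum r c h
    rw [hh] at h1
    simp only [zero_div, sub_zero] at h1
    have h2 : ∑ T ∈ Tables r c, (∑ x, ∑ y, if x ≠ y then
          ∑ j ∈ T x \ T y, ∑ l ∈ T y \ T x, (h T - h (sw T x y j l)) ^ 2 else 0)
        ≤ ∑ T ∈ Tables r c, ∑ m ∈ tableMoves ι κ, (h T - h (tableStep m T)) ^ 2 :=
      Finset.sum_le_sum (fun T _ => table_energy_le h T)
    have h3 : 0 ≤ ∑ T ∈ Tables r c, h T ^ 2 := Finset.sum_nonneg (fun _ _ => sq_nonneg _)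
    have e : (1 / ((tableMoves ι κ).card : ℝ)) * (4 * ((tableMoves ι κ).card : ℝ)) = 4 := by
      field_simp
    rw [e]
    linarith
  · exact le_trans (Nat.mul_le_mul_right _ tableMoves_card_le) ht

end Vale.Agent.Lib.P335
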