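import Vale.Agent.Lib.P335.PM
import Vale.Agent.Lib.P335.TableChain

/-!
Degree vectors with a split realization: all realizations are split, with the same clique, and
correspond to binary tables; switches correspond to table switches.
-/

namespace Vale.Agent.Lib.P335

open Finset BigOperators

variable {n : ℕ}

/-- Neighbours of `x` in an edge set. -/
def nbrs (G : EdgeSet n) (x : Fin n) : Finset (Fin n) := univ.filter (fun y => s(x, y) ∈ G)

theorem mem_nbrs {G : EdgeSet n} {x y : Fin n} : y ∈ nbrs G x ↔ s(x, y) ∈ G := by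
  simp [nbrs]

theorem deg_eq_nbrs (G : EdgeSet n) (x : Fin n) :
    (G.filter (fun e => x ∈ e)).card = (nbrs G x).card := by
  symm
  apply Finset.card_bij (fun y _ => s(x, y))
  · intro y hy
    rw [Finset.mem_filter]
    exact ⟨mem_nbrs.mp hy, by simp⟩
  · intro y _ y' _ h
    exact Sym2.congr_right.mp h
  · intro e he
    rw [Finset.mem_filter] at he
    obtain ⟨y, rfl⟩ := Sym2.mem_iff_exists.mp he.2
    exact ⟨y, mem_nbrs.mpr he.1, rfl⟩

theorem mem_Omega {d : Fin n → ℕ} {G : EdgeSet n} :
    G ∈ Omega d ↔ (∀ e ∈ G, ¬ e.IsDiag) ∧ ∀ i, (nbrs G i).card = d i := by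
  simp only [Omega, Finset.mem_filter, Finset.mem_univ, true_and, deg_eq_nbrs]

theorem irrefl_of_Omega {d : Fin n → ℕ} {G : EdgeSet n} (hG : G ∈ Omega d) (x : Fin n) :
    s(x, x) ∉ G := fun h => (mem_Omega.mp hG).1 _ h (by simp)

section Counting

variable (R : Finset (Fin n))

/-- Double counting of the edges between `R` and its complement. -/
theorem cross_count (G : EdgeSet n) :
    ∑ x ∈ R, (nbrs G x \ R).card = ∑ y ∈ Rᶜ, (nbrs G y ∩ R).card := by
  have e1 : ∀ x, (nbrs G x \ R).card = ∑ y ∈ Rᶜ, if s(x, y) ∈ G then 1 else 0 := by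
    intro x
    rw [← Finset.card_filter]
    congr 1
    ext y
    simp [nbrs, and_comm]
  have e2 : ∀ y, (nbrs G y ∩ R).card = ∑ x ∈ R, if s(y, x) ∈ G then 1 else 0 := by
    intro y
    rw [← Finset.card_filter]
    congr 1
    ext x
    simp [nbrs, and_comm]
  simp only [e1, e2]
  rw [Finset.sum_comm]
  apply Finset.sum_congr rfl; intro y _
  apply Finset.sum_congr rfl; intro x _
  rw [Sym2.eq_swap]

theorem row_split (G : EdgeSet n) (x : Fin n) :
    (nbrs G x).card = (nbrs G x ∩ R).card + (nbrs G x \ R).card := by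
  rw [add_comm]
  exact (Finset.card_sdiff_add_card_inter _ _).symm

theorem sum_split_eq (G : EdgeSet n) :
    ∑ x ∈ R, (nbrs G x).card
      = ∑ x ∈ R, (nbrs G x ∩ R).card + ∑ y ∈ Rᶜ, (nbrs G y ∩ R).card := by
  rw [← cross_count, ← Finset.sum_add_distrib]
  exact Finset.sum_congr rfl (fun x _ => row_split R G x)

end Counting

section Structure

variable {d : Fin n → ℕ} {R : Finset (Fin n)} {G₀ : EdgeSet n}

theorem inter_R_of_loopless {G : EdgeSet n} (hG : ∀ x, s(x, x) ∉ G) (x : Fin n) :
    nbrs G x ∩ R ⊆ R.erase x := by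
  intro y hy
  rw [Finset.mem_inter, mem_nbrs] at hy
  rw [Finset.mem_erase]
  refine ⟨?_, hy.2⟩
  rintro rfl
  exact hG _ hy.1

/-- The degree count forced by one split realization. -/
theorem sum_of_split (hG₀ : G₀ ∈ Omega d) (hcl : ∀ x ∈ R, ∀ y ∈ R, x ≠ y → s(x, y) ∈ G₀)
    (hin : ∀ x, x ∉ R → ∀ y, y ∉ R → s(x, y) ∉ G₀) :
    ∑ x ∈ R, d x = ∑ x ∈ R, (R.erase x).card + ∑ y ∈ Rᶜ, d y := by
  have h0 := sum_split_eq R G₀
  have hd := (mem_Omega.mp hG₀).2
  simp only [hd] at h0
  rw [h0]
  congr 1
  · apply Finset.sum_congr rfl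
    intro x hx
    congr 1
    apply Finset.Subset.antisymm (inter_R_of_loopless (irrefl_of_Omega hG₀) x)
    intro y hy
    rw [Finset.mem_erase] at hy
    rw [Finset.mem_inter, mem_nbrs]
    exact ⟨hcl x hx y hy.2 (Ne.symm hy.1), hy.2⟩
  · apply Finset.sum_congr rfl
    intro y hy
    rw [← hd y]
    congr 1
    rw [Finset.inter_eq_left]
    intro z hz
    by_contra hzR
    exact hin y (Finset.mem_compl.mp hy) z hzR (mem_nbrs.mp hz)

/-- Every realization is split, with the same clique. -/
theorem split_structure (hsum : ∑ x ∈ R, d x = ∑ x ∈ R, (R.erase x).card + ∑ y ∈ Rᶜ, d y)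
    {G : EdgeSet n} (hG : G ∈ Omega d) :
    (∀ x ∈ R, nbrs G x ∩ R = R.erase x) ∧ (∀ y, y ∉ R → nbrs G y ⊆ R) := by
  have h0 := sum_split_eq R G
  have hd := (mem_Omega.mp hG).2
  simp only [hd] at h0
  have hle1 : ∀ x ∈ R, (nbrs G x ∩ R).card ≤ (R.erase x).card :=
    fun x _ => Finset.card_le_card (inter_R_of_loopless (irrefl_of_Omega hG) x)
  have hle2 : ∀ y ∈ Rᶜ, (nbrs G y ∩ R).card ≤ d y := by
    intro y _
    rw [← hd y]
    exact Finset.card_le_card Finset.inter_subset_left
  have s1 := Finset.sum_le_sum hle1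
  have s2 := Finset.sum_le_sum hle2
  have eq1 : ∑ x ∈ R, (nbrs G x ∩ R).card = ∑ x ∈ R, (R.erase x).card := by omega
  have eq2 : ∑ y ∈ Rᶜ, (nbrs G y ∩ R).card = ∑ y ∈ Rᶜ, d y := by omega
  have t1 := (Finset.sum_eq_sum_iff_of_le hle1).mp eq1
  have t2 := (Finset.sum_eq_sum_iff_of_le hle2).mp eq2
  constructor
  · intro x hx
    exact Finset.eq_of_subset_of_card_le (inter_R_of_loopless (irrefl_of_Omega hG) x) (t1 x hx).ge
  · intro y hy
    have := t2 y (Finset.mem_compl.mpr hy)
    rw [← hd y] at this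
    exact Finset.inter_eq_left.mp (Finset.eq_of_subset_of_card_le Finset.inter_subset_left this.ge)

end Structure

section Maps

variable (d : Fin n → ℕ) (R : Finset (Fin n))

/-- Row sums of the table of a split realization. -/
def rowS (x : Fin n) : ℕ := if x ∈ R then d x - (R.card - 1) else 0

/-- Column sums of the table of a split realization. -/
def colS (j : Fin n) : ℕ := if j ∈ R then 0 else d j

variable {d R}

/-- The table of an edge set. -/
def phi (R : Finset (Fin n)) (G : EdgeSet n) : Fin n → Finset (Fin n) :=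
  fun x => if x ∈ R then nbrs G x \ R else ∅

/-- The edge set of a table. -/
def psi (R : Finset (Fin n)) (T : Fin n → Finset (Fin n)) : EdgeSet n :=
  (R.offDiag.image (fun p => s(p.1, p.2))) ∪ univ.biUnion (fun x => (T x).image (fun j => s(x, j)))

theorem mem_psi {T : Fin n → Finset (Fin n)} {u v : Fin n} :
    s(u, v) ∈ psi R T ↔ (u ∈ R ∧ v ∈ R ∧ u ≠ v) ∨ v ∈ T u ∨ u ∈ T v := by
  unfold psi
  simp only [Finset.mem_union, Finset.mem_image, Finset.mem_offDiag, Finset.mem_biUnion,
    Finset.mem_univ, true_and, Prod.exists, Sym2.eq_iff]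
  constructor
  · rintro (⟨a, b, ⟨h1, h2, h3⟩, ⟨rfl, rfl⟩ | ⟨rfl, rfl⟩⟩ | ⟨a, b, hb, ⟨rfl, rfl⟩ | ⟨rfl, rfl⟩⟩)
    · exact Or.inl ⟨h1, h2, h3⟩
    · exact Or.inl ⟨h2, h1, Ne.symm h3⟩
    · exact Or.inr (Or.inl hb)
    · exact Or.inr (Or.inr hb)
  · rintro (⟨h1, h2, h3⟩ | h | h)
    · exact Or.inl ⟨u, v, ⟨h1, h2, h3⟩, Or.inl ⟨rfl, rfl⟩⟩
    · exact Or.inr ⟨u, v, h, Or.inl ⟨rfl, rfl⟩⟩
    · exact Or.inr ⟨v, u, h, Or.inr ⟨rfl, rfl⟩⟩

theorem tab_row {T : Fin n → Finset (Fin n)} (hT : T ∈ Tables (rowS d R) (colS d R)) {x : Fin n}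
    (hx : x ∉ R) : T x = ∅ := by
  have := (mem_Tables.mp hT).1 x
  simp only [rowS, if_neg hx] at this
  exact Finset.card_eq_zero.mp this

theorem tab_col {T : Fin n → Finset (Fin n)} (hT : T ∈ Tables (rowS d R) (colS d R)) {j : Fin n}
    (hj : j ∈ R) (x : Fin n) : j ∉ T x := by
  have := (mem_Tables.mp hT).2 j
  simp only [colS, if_pos hj] at this
  intro h
  have h2 : x ∈ univ.filter (fun i => j ∈ T i) := by simp [h]
  rw [Finset.card_eq_zero.mp this] at h2
  simp at h2

theorem tab_mem_row {T : Fin n → Finset (Fin n)} (hT : T ∈ Tables (rowS d R) (colS d R)) {x j : Fin n}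
    (h : j ∈ T x) : x ∈ R ∧ j ∉ R := by
  constructor
  · by_contra hx
    rw [tab_row hT hx] at h
    simp at h
  · intro hj
    exact tab_col hT hj x h

theorem phi_psi {T : Fin n → Finset (Fin n)} (hT : T ∈ Tables (rowS d R) (colS d R)) :
    phi R (psi R T) = T := by
  funext x
  unfold phi
  by_cases hx : x ∈ R
  · rw [if_pos hx]
    ext j
    rw [Finset.mem_sdiff, mem_nbrs, mem_psi]
    constructor
    · rintro ⟨⟨_, h2, _⟩ | h | h, h3⟩
      · exact absurd h2 h3
      · exact h
      · exact absurd hx (tab_mem_row hT h).2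
    · intro h
      exact ⟨Or.inr (Or.inl h), (tab_mem_row hT h).2⟩
  · rw [if_neg hx, tab_row hT hx]

theorem psi_mem_Omega (hsum : ∑ x ∈ R, d x = ∑ x ∈ R, (R.erase x).card + ∑ y ∈ Rᶜ, d y)
    {G₀ : EdgeSet n} (hG₀ : G₀ ∈ Omega d)
    {T : Fin n → Finset (Fin n)} (hT : T ∈ Tables (rowS d R) (colS d R)) : psi R T ∈ Omega d := by
  have hT' := mem_Tables.mp hT
  rw [mem_Omega]
  constructor
  · intro e he
    induction e using Sym2.ind with
    | _ u v =>
      rw [Sym2.mk_isDiag_iff]
      rintro rfl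
      rw [mem_psi] at he
      rcases he with ⟨_, _, h⟩ | h | h
      · exact h rfl
      · have := tab_mem_row hT h
        exact this.2 this.1
      · have := tab_mem_row hT h
        exact this.2 this.1
  · intro v
    by_cases hv : v ∈ R
    · have e : nbrs (psi R T) v = R.erase v ∪ T v := by
        ext y
        rw [mem_nbrs, mem_psi, Finset.mem_union, Finset.mem_erase]
        constructor
        · rintro (⟨_, h2, h3⟩ | h | h)
          · exact Or.inl ⟨Ne.symm h3, h2⟩
          · exact Or.inr h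
          · exact absurd hv (tab_mem_row hT h).2
        · rintro (⟨h1, h2⟩ | h)
          · exact Or.inl ⟨hv, h2, Ne.symm h1⟩
          · exact Or.inr (Or.inl h)
      have hd : Disjoint (R.erase v) (T v) := by
        rw [Finset.disjoint_left]
        intro y hy hy'
        exact (tab_mem_row hT hy').2 (Finset.mem_of_mem_erase hy)
      rw [e, Finset.card_union_of_disjoint hd, hT'.1 v]
      simp only [rowS, if_pos hv]
      rw [Finset.card_erase_of_mem hv]
      have h1 := (split_structure hsum hG₀).1 v hv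
      have h2 := (mem_Omega.mp hG₀).2 v
      have h3 : (nbrs G₀ v ∩ R).card ≤ (nbrs G₀ v).card := Finset.card_le_card Finset.inter_subset_left
      rw [h1, Finset.card_erase_of_mem hv, h2] at h3
      omega
    · have e : nbrs (psi R T) v = univ.filter (fun i => v ∈ T i) := by
        ext y
        rw [mem_nbrs, mem_psi, Finset.mem_filter]
        constructor
        · rintro (⟨h1, _, _⟩ | h | h)
          · exact absurd h1 hv
          · rw [tab_row hT hv] at h
            simp at h
          · exact ⟨Finset.mem_univ _, h⟩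
        · rintro ⟨_, h⟩
          exact Or.inr (Or.inr h)
      rw [e, hT'.2 v]
      simp only [colS, if_neg hv]

theorem phi_mem (hsum : ∑ x ∈ R, d x = ∑ x ∈ R, (R.erase x).card + ∑ y ∈ Rᶜ, d y)
    {G : EdgeSet n} (hG : G ∈ Omega d) : phi R G ∈ Tables (rowS d R) (colS d R) := by
  obtain ⟨h1, h2⟩ := split_structure hsum hG
  have hd := (mem_Omega.mp hG).2
  rw [mem_Tables]
  constructor
  · intro x
    unfold phi rowS
    by_cases hx : x ∈ R
    · rw [if_pos hx, if_pos hx]
      have e1 := row_split R G x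
      rw [h1 x hx, Finset.card_erase_of_mem hx, hd x] at e1
      omega
    · rw [if_neg hx, if_neg hx]
      simp
  · intro j
    unfold colS
    by_cases hj : j ∈ R
    · rw [if_pos hj, Finset.card_eq_zero, Finset.filter_eq_empty_iff]
      intro x _
      unfold phi
      split_ifs
      · simp [hj]
      · simp
    · rw [if_neg hj, ← hd j]
      congr 1
      ext x
      rw [Finset.mem_filter]
      simp only [Finset.mem_univ, true_and]
      unfold phi
      constructor
      · intro h
        split_ifs at h with hx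
        · have := (Finset.mem_sdiff.mp h).1
          rw [mem_nbrs, Sym2.eq_swap] at this
          exact mem_nbrs.mpr this
        · simp at h
      · intro h
        have hx : x ∈ R := h2 j hj h
        rw [if_pos hx, Finset.mem_sdiff, mem_nbrs, Sym2.eq_swap]
        exact ⟨mem_nbrs.mp h, hj⟩

theorem psi_phi (hsum : ∑ x ∈ R, d x = ∑ x ∈ R, (R.erase x).card + ∑ y ∈ Rᶜ, d y)
    {G : EdgeSet n} (hG : G ∈ Omega d) : psi R (phi R G) = G := by
  obtain ⟨h1, h2⟩ := split_structure hsum hG
  ext e
  induction e using Sym2.ind with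
  | _ u v =>
    rw [mem_psi]
    simp only [phi]
    by_cases hu : u ∈ R <;> by_cases hv : v ∈ R
    · simp only [hu, hv, if_true, true_and, Finset.mem_sdiff, not_true_eq_false, and_false,
        or_false]
      constructor
      · intro huv
        have : v ∈ R.erase u := Finset.mem_erase.mpr ⟨Ne.symm huv, hv⟩
        rw [← h1 u hu, Finset.mem_inter, mem_nbrs] at this
        exact this.1
      · rintro he rfl
        exact irrefl_of_Omega hG _ he
    · simp only [hu, hv, if_true, if_false, true_and, false_and, false_or, Finset.mem_sdiff,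
        not_false_eq_true, and_true, Finset.notMem_empty, or_false, mem_nbrs]
    · simp only [hu, hv, if_true, if_false, false_and, false_or, Finset.notMem_empty,
        Finset.mem_sdiff, not_false_eq_true, and_true, mem_nbrs]
      rw [Sym2.eq_swap]
    · simp only [hu, hv, if_false, false_and, false_or, Finset.notMem_empty, or_self, false_iff]
      intro he
      exact hv (h2 u hu (mem_nbrs.mpr he))

/-- Sums over realizations as sums over tables. -/
theorem sum_Omega (hsum : ∑ x ∈ R, d x = ∑ x ∈ R, (R.erase x).card + ∑ y ∈ Rᶜ, d y)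
    {G₀ : EdgeSet n} (hG₀ : G₀ ∈ Omega d) (F : EdgeSet n → ℝ) :
    ∑ G ∈ Omega d, F G = ∑ T ∈ Tables (rowS d R) (colS d R), F (psi R T) := by
  apply Finset.sum_nbij' (phi R) (psi R)
  · intro G hG
    exact phi_mem hsum hG
  · intro T hT
    exact psi_mem_Omega hsum hG₀ hT
  · intro G hG
    exact psi_phi hsum hG
  · intro T hT
    exact phi_psi hT
  · intro G hG
    rw [psi_phi hsum hG]

end Maps

end Vale.Agent.Lib.P335
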