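import Vale.Agent.Lib.P335.Split

/-!
The switch chain on a degree vector with a split realization.
-/

namespace Vale.Agent.Lib.P335

open Finset BigOperators

variable {n : ℕ} {d : Fin n → ℕ} {R : Finset (Fin n)}

/-- The random choice of the chain corresponding to a table switch. -/
def moveOf (x y j l : Fin n) : Σ _ : Finset (Fin n), EdgeSet n × EdgeSet n :=
  ⟨{x, j, y, l}, ({s(x, j), s(y, l)}, {s(x, l), s(y, j)})⟩

section

variable {x y j l : Fin n}

theorem moveOf_pm (hxy : x ≠ y) (hjl : j ≠ l) (hxj : x ≠ j) (hxl : x ≠ l) (hyj : y ≠ j) (hyl : y ≠ l) :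
    ({s(x, j), s(y, l)} : EdgeSet n) ∈ perfectMatchings {x, j, y, l} ∧
    ({s(x, l), s(y, j)} : EdgeSet n) ∈ perfectMatchings {x, j, y, l} := by
  constructor
  · exact pm_pair hxj hxy hxl hyj.symm hjl hyl
  · have e : ({x, j, y, l} : Finset (Fin n)) = {x, l, y, j} := by
      ext v; simp; tauto
    rw [e]
    exact pm_pair hxl hxy hxj hyl.symm hjl.symm hyj

theorem moveOf_mem (hxy : x ≠ y) (hjl : j ≠ l) (hxj : x ≠ j) (hxl : x ≠ l) (hyj : y ≠ j) (hyl : y ≠ l) :
    moveOf x y j l ∈ chainMoves n := by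
  obtain ⟨h1, h2⟩ := moveOf_pm hxy hjl hxj hxl hyj hyl
  simp only [moveOf, chainMoves, Finset.mem_sigma, Finset.mem_offDiag]
  refine ⟨?_, h1, h2, ?_⟩
  · rw [Finset.mem_powersetCard]
    refine ⟨Finset.subset_univ _, ?_⟩
    rw [Finset.card_insert_of_notMem (by simp [hxj, hxy, hxl]),
      Finset.card_insert_of_notMem (by simp [hyj.symm, hjl]),
      Finset.card_insert_of_notMem (by simp [hyl]), Finset.card_singleton]
  · intro h
    have : s(x, j) ∈ ({s(x, l), s(y, j)} : EdgeSet n) := h ▸ (by simp)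
    simp [Sym2.eq_iff, hjl, hxy, hxj, hxl, hyj, hyl] at this

end

theorem sym2_eq_of_sides {a a' b b' : Fin n} (ha : a ∈ R) (ha' : a' ∈ R) (hb : b ∉ R) (hb' : b' ∉ R) :
    s(a, b) = s(a', b') ↔ a = a' ∧ b = b' := by
  rw [Sym2.eq_iff]
  constructor
  · rintro (h | ⟨h1, _⟩)
    · exact h
    · exact absurd (h1 ▸ ha) hb'
  · intro h
    exact Or.inl h

section

variable {T : Fin n → Finset (Fin n)} {x y j l : Fin n}

/-- The switch on the table is the chain step on the graph. -/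
theorem step_moveOf (hsum : ∑ x ∈ R, d x = ∑ x ∈ R, (R.erase x).card + ∑ y ∈ Rᶜ, d y)
    {G₀ : EdgeSet n} (hG₀ : G₀ ∈ Omega d) (hT : T ∈ Tables (rowS d R) (colS d R)) (hxy : x ≠ y)
    (hj : j ∈ T x \ T y) (hl : l ∈ T y \ T x) :
    switchStep {s(x, j), s(y, l)} {s(x, l), s(y, j)} (psi R T) = psi R (sw T x y j l) := by
  have hj' := Finset.mem_sdiff.mp hj
  have hl' := Finset.mem_sdiff.mp hl
  have hjl : j ≠ l := fun e => hl'.2 (e ▸ hj'.1)
  obtain ⟨hxR, hjR⟩ := tab_mem_row hT hj'.1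
  obtain ⟨hyR, hlR⟩ := tab_mem_row hT hl'.1
  have hne : ∀ {a b : Fin n}, a ∈ R → b ∉ R → a ≠ b := fun ha hb e => hb (e ▸ ha)
  obtain ⟨hF, hF'⟩ := moveOf_pm hxy hjl (hne hxR hjR) (hne hxR hlR) (hne hyR hjR) (hne hyR hlR)
  have hGO := psi_mem_Omega hsum hG₀ hT
  have hstep := switchStep_mem hGO hF hF'
  -- adjacency across the sides in the table graph
  have hadj : ∀ {a b : Fin n}, a ∈ R → b ∉ R → (s(a, b) ∈ psi R T ↔ b ∈ T a) := by
    intro a b ha hb
    rw [mem_psi]
    constructor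
    · rintro (⟨_, h, _⟩ | h | h)
      · exact absurd h hb
      · exact h
      · exact absurd ha (tab_mem_row hT h).2
    · intro h
      exact Or.inr (Or.inl h)
  have hcond : ({s(x, j), s(y, l)} : EdgeSet n) ⊆ psi R T
      ∧ Disjoint ({s(x, l), s(y, j)} : EdgeSet n) (psi R T) := by
    constructor
    · intro e he
      simp only [Finset.mem_insert, Finset.mem_singleton] at he
      rcases he with rfl | rfl
      · exact (hadj hxR hjR).mpr hj'.1
      · exact (hadj hyR hlR).mpr hl'.1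
    · rw [Finset.disjoint_left]
      intro e he
      simp only [Finset.mem_insert, Finset.mem_singleton] at he
      rcases he with rfl | rfl
      · rw [hadj hxR hlR]
        exact hl'.2
      · rw [hadj hyR hjR]
        exact hj'.2
  have hswT : sw T x y j l ∈ Tables (rowS d R) (colS d R) :=
    sw_mem hT hxy hj'.1 hl'.2 hl'.1 hj'.2
  -- compute the table of the new graph
  have hphi : phi R (switchStep {s(x, j), s(y, l)} {s(x, l), s(y, j)} (psi R T)) = sw T x y j l := by
    unfold switchStep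
    rw [if_pos hcond]
    funext a
    unfold phi
    by_cases ha : a ∈ R
    · rw [if_pos ha]
      ext b
      rw [Finset.mem_sdiff, mem_nbrs, Finset.mem_union, Finset.mem_sdiff]
      by_cases hb : b ∈ R
      · simp only [hb, not_true_eq_false, and_false, false_iff]
        exact fun h => (tab_mem_row hswT h).2 hb
      · simp only [hb, not_false_eq_true, and_true]
        rw [hadj ha hb]
        simp only [Finset.mem_insert, Finset.mem_singleton]
        rw [sym2_eq_of_sides ha hxR hb hjR, sym2_eq_of_sides ha hyR hb hlR,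
          sym2_eq_of_sides ha hxR hb hlR, sym2_eq_of_sides ha hyR hb hjR]
        by_cases hax : a = x
        · subst hax
          rw [sw_left, Finset.mem_insert, Finset.mem_erase]
          simp only [true_and, hxy, false_and, or_false]
          tauto
        by_cases hay : a = y
        · subst hay
          rw [sw_right T hxy, Finset.mem_insert, Finset.mem_erase]
          simp only [true_and, Ne.symm hxy, false_and, false_or]
          tauto
        · rw [sw_other T hax hay]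
          simp [hax, hay]
    · rw [if_neg ha]
      have h1 : a ≠ x := fun e => ha (e ▸ hxR)
      have h2 : a ≠ y := fun e => ha (e ▸ hyR)
      rw [sw_other T h1 h2, tab_row hT ha]
  rw [← hphi, psi_phi hsum hstep]

/-- The chain's energy at a graph dominates the table energy over rows `x < y`. -/
theorem energy_le (hsum : ∑ x ∈ R, d x = ∑ x ∈ R, (R.erase x).card + ∑ y ∈ Rᶜ, d y)
    {G₀ : EdgeSet n} (hG₀ : G₀ ∈ Omega d) (hT : T ∈ Tables (rowS d R) (colS d R))
    (h : EdgeSet n → ℝ) :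
    (∑ x, ∑ y, if x < y then
        ∑ j ∈ T x \ T y, ∑ l ∈ T y \ T x, (h (psi R T) - h (psi R (sw T x y j l))) ^ 2 else 0)
      ≤ ∑ m ∈ chainMoves n, (h (psi R T) - h (switchStep m.2.1 m.2.2 (psi R T))) ^ 2 := by
  classical
  let a : (Σ _ : Finset (Fin n), EdgeSet n × EdgeSet n) → ℝ :=
    fun m => (h (psi R T) - h (switchStep m.2.1 m.2.2 (psi R T))) ^ 2
  have ha0 : ∀ m, 0 ≤ a m := fun m => sq_nonneg _
  let D : Finset (Fin n × Fin n × Fin n × Fin n) :=
    univ.filter (fun p => p.1 < p.2.1 ∧ p.2.2.1 ∈ T p.1 \ T p.2.1 ∧ p.2.2.2 ∈ T p.2.1 \ T p.1)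
  let φ : Fin n × Fin n × Fin n × Fin n → (Σ _ : Finset (Fin n), EdgeSet n × EdgeSet n) :=
    fun p => moveOf p.1 p.2.1 p.2.2.1 p.2.2.2
  have hsides : ∀ p ∈ D, p.1 ∈ R ∧ p.2.1 ∈ R ∧ p.2.2.1 ∉ R ∧ p.2.2.2 ∉ R ∧ p.1 < p.2.1 := by
    intro p hp
    simp only [D, Finset.mem_filter, Finset.mem_univ, true_and, Finset.mem_sdiff] at hp
    have h1 := tab_mem_row hT hp.2.1.1
    have h2 := tab_mem_row hT hp.2.2.1
    exact ⟨h1.1, h2.1, h1.2, h2.2, hp.1⟩
  have hinj : Set.InjOn φ (D : Set _) := by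
    rintro ⟨x, y, j, l⟩ hp ⟨x', y', j', l'⟩ hp' he
    obtain ⟨a1, a2, a3, a4, a5⟩ := hsides _ hp
    obtain ⟨b1, b2, b3, b4, b5⟩ := hsides _ hp'
    simp only at a1 a2 a3 a4 a5 b1 b2 b3 b4 b5
    simp only [φ, moveOf, Sigma.mk.injEq, heq_eq_eq, Prod.mk.injEq] at he
    have hF := he.2.1
    have m1 : s(x, j) ∈ ({s(x', j'), s(y', l')} : EdgeSet n) := hF ▸ (by simp)
    have m2 : s(y, l) ∈ ({s(x', j'), s(y', l')} : EdgeSet n) := hF ▸ (by simp)
    simp only [Finset.mem_insert, Finset.mem_singleton] at m1 m2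
    rw [sym2_eq_of_sides a1 b1 a3 b3, sym2_eq_of_sides a1 b2 a3 b4] at m1
    rw [sym2_eq_of_sides a2 b1 a4 b3, sym2_eq_of_sides a2 b2 a4 b4] at m2
    rcases m1 with ⟨rfl, rfl⟩ | ⟨rfl, rfl⟩ <;> rcases m2 with ⟨rfl, rfl⟩ | ⟨rfl, rfl⟩
    · exact absurd a5 (lt_irrefl _)
    · rfl
    · exact absurd (a5.trans b5) (lt_irrefl _)
    · exact absurd a5 (lt_irrefl _)
  have hmaps : D.image φ ⊆ chainMoves n := by
    intro m hm
    obtain ⟨⟨x, y, j, l⟩, hp, rfl⟩ := Finset.mem_image.mp hm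
    obtain ⟨a1, a2, a3, a4, a5⟩ := hsides _ hp
    simp only at a1 a2 a3 a4 a5
    simp only [D, Finset.mem_filter, Finset.mem_univ, true_and, Finset.mem_sdiff] at hp
    have hne : ∀ {a b : Fin n}, a ∈ R → b ∉ R → a ≠ b := fun ha hb e => hb (e ▸ ha)
    have hjl : j ≠ l := fun e => hp.2.2.2 (e ▸ hp.2.1.1)
    exact moveOf_mem (ne_of_lt a5) hjl (hne a1 a3) (hne a1 a4) (hne a2 a3) (hne a2 a4)
  have hle : ∑ p ∈ D, a (φ p) ≤ ∑ m ∈ chainMoves n, a m := by
    rw [← Finset.sum_image hinj]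
    exact Finset.sum_le_sum_of_subset_of_nonneg hmaps (fun m _ _ => ha0 m)
  refine le_trans ?_ hle
  simp only [D]
  rw [Finset.sum_filter, Fintype.sum_prod_type]
  apply Finset.sum_le_sum; intro x _
  rw [Fintype.sum_prod_type]
  apply Finset.sum_le_sum; intro y _
  rw [Fintype.sum_prod_type]
  let G : Fin n → Fin n → ℝ := fun j l =>
    if x < y ∧ j ∈ T x \ T y ∧ l ∈ T y \ T x then a (φ (x, y, j, l)) else 0
  have hnn : ∀ j l, 0 ≤ G j l := by
    intro j l
    simp only [G]
    split_ifs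
    · exact ha0 _
    · exact le_rfl
  change _ ≤ ∑ j, ∑ l, G j l
  by_cases hxy : x < y
  · rw [if_pos hxy]
    have inner : ∀ j ∈ T x \ T y,
        ∑ l ∈ T y \ T x, (h (psi R T) - h (psi R (sw T x y j l))) ^ 2 ≤ ∑ l, G j l := by
      intro j hj
      have e : ∀ l ∈ T y \ T x, (h (psi R T) - h (psi R (sw T x y j l))) ^ 2 = G j l := by
        intro l hl
        simp only [G]
        rw [if_pos ⟨hxy, hj, hl⟩]
        simp only [a, φ, moveOf]
        rw [step_moveOf hsum hG₀ hT (ne_of_lt hxy) hj hl]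
      rw [Finset.sum_congr rfl e]
      exact Finset.sum_le_sum_of_subset_of_nonneg (Finset.subset_univ _) (fun l _ _ => hnn j l)
    calc ∑ j ∈ T x \ T y, ∑ l ∈ T y \ T x, (h (psi R T) - h (psi R (sw T x y j l))) ^ 2
        ≤ ∑ j ∈ T x \ T y, ∑ l, G j l := Finset.sum_le_sum inner
      _ ≤ ∑ j, ∑ l, G j l := Finset.sum_le_sum_of_subset_of_nonneg (Finset.subset_univ _)
          (fun j _ _ => Finset.sum_nonneg (fun l _ => hnn j l))
  · rw [if_neg hxy]
    exact Finset.sum_nonneg (fun j _ => Finset.sum_nonneg (fun l _ => hnn j l))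

end

theorem sw_comm (T : Fin n → Finset (Fin n)) {x y : Fin n} (hxy : x ≠ y) (j l : Fin n) :
    sw T y x l j = sw T x y j l := by
  funext a
  by_cases h1 : a = x
  · rw [h1, sw_left, sw_right _ hxy.symm]
  by_cases h2 : a = y
  · rw [h2, sw_left, sw_right _ hxy]
  · rw [sw_other _ h1 h2, sw_other _ h2 h1]

/-- The sum over `x ≠ y` of the table energy is twice the sum over `x < y`. -/
theorem ne_sum_eq_two_lt (T : Fin n → Finset (Fin n)) (f : (Fin n → Finset (Fin n)) → ℝ) :
    (∑ x, ∑ y, if x ≠ y then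
        ∑ j ∈ T x \ T y, ∑ l ∈ T y \ T x, (f T - f (sw T x y j l)) ^ 2 else 0)
      = 2 * ∑ x, ∑ y, if x < y then
        ∑ j ∈ T x \ T y, ∑ l ∈ T y \ T x, (f T - f (sw T x y j l)) ^ 2 else 0 := by
  let A : Fin n → Fin n → ℝ := fun x y =>
    ∑ j ∈ T x \ T y, ∑ l ∈ T y \ T x, (f T - f (sw T x y j l)) ^ 2
  have hA : ∀ x y, x ≠ y → A y x = A x y := by
    intro x y hxy
    simp only [A]
    rw [Finset.sum_comm]
    apply Finset.sum_congr rfl; intro j _
    apply Finset.sum_congr rfl; intro l _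
    rw [sw_comm T hxy]
  change (∑ x, ∑ y, if x ≠ y then A x y else 0) = 2 * ∑ x, ∑ y, if x < y then A x y else 0
  have e1 : ∀ x y, (if x ≠ y then A x y else 0)
      = (if x < y then A x y else 0) + (if y < x then A y x else 0) := by
    intro x y
    rcases lt_trichotomy x y with h | h | h
    · simp [h, ne_of_lt h, not_lt_of_gt h]
    · simp [h]
    · simp [h, ne_of_gt h, not_lt_of_gt h, hA x y (ne_of_gt h)]
  simp only [e1, Finset.sum_add_distrib]
  have e2 : (∑ x, ∑ y, if y < x then A y x else 0) = ∑ x, ∑ y, if x < y then A x y else 0 :=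
    Finset.sum_comm
  rw [e2]
  ring

/-- Numerical bound on the number of steps. -/
theorem steps_le (hn : 4 ≤ n) : (n.choose 4 * 6) * (n * n + 2) ≤ n ^ 6 := by
  have h1 : 24 * n.choose 4 ≤ n ^ 4 := by
    have h2 := Nat.descFactorial_eq_factorial_mul_choose n 4
    have h3 := Nat.descFactorial_le_pow n 4
    have h4 : Nat.factorial 4 = 24 := rfl
    rw [h4] at h2
    omega
  have h5 : n * n + 2 ≤ 4 * (n * n) := by nlinarith
  have h6 : (n.choose 4 * 6) * (n * n + 2) * 4 ≤ n ^ 6 * 4 := by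
    calc (n.choose 4 * 6) * (n * n + 2) * 4 = (24 * n.choose 4) * (n * n + 2) := by ring
      _ ≤ n ^ 4 * (4 * (n * n)) := Nat.mul_le_mul h1 h5
      _ = n ^ 6 * 4 := by ring
  omega

/-- Mixing of the switch chain for a degree vector with a split realization. -/
theorem split_mixing (hn : 4 ≤ n) {G₀ : EdgeSet n} (hG₀ : G₀ ∈ Omega d)
    (hcl : ∀ x ∈ R, ∀ y ∈ R, x ≠ y → s(x, y) ∈ G₀)
    (hin : ∀ x, x ∉ R → ∀ y, y ∉ R → s(x, y) ∉ G₀)
    {G : EdgeSet n} (hG : G ∈ Omega d) {t : ℕ} (ht : n ^ 6 ≤ t) : tvDist d t G ≤ 1 / 4 := by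
  have hsum := sum_of_split hG₀ hcl hin
  have hcard : 1 ≤ (chainMoves n).card := by
    rw [chainMoves_card]
    have : 0 < n.choose 4 := Nat.choose_pos hn
    omega
  have hcardR : (0 : ℝ) < ((chainMoves n).card : ℝ) := by exact_mod_cast hcard
  have hk : ((Omega d).card : ℝ) ≤ 2 ^ (n * n) := by
    have e := sum_Omega hsum hG₀ (fun _ => (1 : ℝ))
    simp only [Finset.sum_const, nsmul_eq_mul, mul_one] at e
    rw [e]
    have := tables_card_le (rowS d R) (colS d R)
    simpa using this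
  refine switch_tv hn hcard ?_ hk hG ?_
  · intro h hh
    have e : (1 / ((chainMoves n).card : ℝ)) * (4 * ((chainMoves n).card : ℝ)) = 4 := by
      field_simp
    rw [e]
    rw [sum_Omega hsum hG₀, sum_Omega hsum hG₀] at *
    have h1 := tables_poincare_sum (rowS d R) (colS d R) (fun T => h (psi R T))
    rw [hh] at h1
    simp only [zero_div, sub_zero] at h1
    have h2 : ∑ T ∈ Tables (rowS d R) (colS d R), (∑ x, ∑ y, if x ≠ y then
          ∑ j ∈ T x \ T y, ∑ l ∈ T y \ T x,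
            (h (psi R T) - h (psi R (sw T x y j l))) ^ 2 else 0)
        ≤ 2 * ∑ T ∈ Tables (rowS d R) (colS d R), ∑ m ∈ chainMoves n,
            (h (psi R T) - h (switchStep m.2.1 m.2.2 (psi R T))) ^ 2 := by
      rw [Finset.mul_sum]
      apply Finset.sum_le_sum
      intro T hT
      rw [ne_sum_eq_two_lt T (fun T => h (psi R T))]
      exact mul_le_mul_of_nonneg_left (energy_le hsum hG₀ hT h) (by norm_num)
    linarith
  · rw [chainMoves_card]
    exact le_trans (steps_le hn) ht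

end Vale.Agent.Lib.P335
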