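import Vale.Agent.Lib.P335.Cond

/-!
Binary tables with prescribed margins, row-pair fibres, and commutation of the row-pair
conditional expectations for disjoint pairs.
-/

namespace Vale.Agent.Lib.P335

open Finset BigOperators

variable {ι κ : Type*} [Fintype ι] [DecidableEq ι] [Fintype κ] [DecidableEq κ]

/-- Binary tables with prescribed row and column sums; a table is the family of its rows, each
row being the set of columns holding a one. -/
def Tables (r : ι → ℕ) (c : κ → ℕ) : Finset (ι → Finset κ) :=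
  (Fintype.piFinset (fun _ => (univ : Finset (Finset κ)))).filter
    (fun T => (∀ i, (T i).card = r i) ∧ ∀ j, (univ.filter (fun i => j ∈ T i)).card = c j)

theorem mem_Tables {r : ι → ℕ} {c : κ → ℕ} {T : ι → Finset κ} :
    T ∈ Tables r c ↔ (∀ i, (T i).card = r i) ∧ ∀ j, (univ.filter (fun i => j ∈ T i)).card = c j := by
  simp [Tables]

/-- Forget the rows `x` and `y`. -/
def offRows (x y : ι) (T : ι → Finset κ) : ι → Finset κ :=
  fun i => if i = x ∨ i = y then ∅ else T i

theorem offRows_eq_iff {x y : ι} {T T' : ι → Finset κ} :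
    offRows x y T = offRows x y T' ↔ ∀ i, i ≠ x → i ≠ y → T i = T' i := by
  constructor
  · intro h i hx hy
    have := congrFun h i
    simpa [offRows, hx, hy] using this
  · intro h
    funext i
    unfold offRows
    by_cases hi : i = x ∨ i = y
    · simp [hi]
    · rw [if_neg hi, if_neg hi]
      push Not at hi
      exact h i hi.1 hi.2

theorem offRows_comm (x y : ι) : (offRows x y : (ι → Finset κ) → (ι → Finset κ)) = offRows y x := by
  funext T i
  unfold offRows
  by_cases h : i = x ∨ i = y
  · rw [if_pos h, if_pos h.symm]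
  · rw [if_neg h, if_neg (fun h' => h h'.symm)]

/-- Number of ones in column `j` outside the rows `x` and `y`. -/
def colOff (x y : ι) (T : ι → Finset κ) (j : κ) : ℕ :=
  ((univ \ {x, y}).filter (fun i => j ∈ T i)).card

theorem col_split {x y : ι} (hxy : x ≠ y) (T : ι → Finset κ) (j : κ) :
    (univ.filter (fun i => j ∈ T i)).card
      = (if j ∈ T x then 1 else 0) + (if j ∈ T y then 1 else 0) + colOff x y T j := by
  unfold colOff
  rw [Finset.card_filter, Finset.card_filter]
  have hu : (univ : Finset ι) = {x, y} ∪ (univ \ {x, y}) := by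
    rw [Finset.union_sdiff_of_subset (Finset.subset_univ _)]
  have hd : Disjoint ({x, y} : Finset ι) (univ \ {x, y}) := Finset.disjoint_sdiff
  conv_lhs => rw [hu]
  rw [Finset.sum_union hd, Finset.sum_pair hxy]

theorem colOff_congr {x y : ι} {T T' : ι → Finset κ} (h : ∀ i, i ≠ x → i ≠ y → T i = T' i) (j : κ) :
    colOff x y T j = colOff x y T' j := by
  unfold colOff
  congr 1
  apply Finset.filter_congr
  intro i hi
  simp only [Finset.mem_sdiff, Finset.mem_univ, true_and, Finset.mem_insert,
    Finset.mem_singleton, not_or] at hi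
  rw [h i hi.1 hi.2]

/-- Rows `x, y` from `A`, the other rows from `B`. -/
def mix (x y : ι) (A B : ι → Finset κ) : ι → Finset κ := fun i => if i = x ∨ i = y then A i else B i

theorem mix_col {x y : ι} (hxy : x ≠ y) (A B : ι → Finset κ) (j : κ) :
    (univ.filter (fun i => j ∈ mix x y A B i)).card
      = (if j ∈ A x then 1 else 0) + (if j ∈ A y then 1 else 0) + colOff x y B j := by
  rw [col_split hxy]
  have h1 : mix x y A B x = A x := by simp [mix]
  have h2 : mix x y A B y = A y := by simp [mix]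
  have h3 : colOff x y (mix x y A B) j = colOff x y B j := by
    apply colOff_congr
    intro i hx hy
    simp [mix, hx, hy]
  rw [h1, h2, h3]

/-- Mixing two tables along disjoint row pairs stays in the table set. -/
theorem mix_mem {r : ι → ℕ} {c : κ → ℕ} {x y u v : ι} (hxy : x ≠ y) (hxu : x ≠ u) (hxv : x ≠ v)
    (hyu : y ≠ u) (hyv : y ≠ v) {T A U : ι → Finset κ} (hT : T ∈ Tables r c) (hA : A ∈ Tables r c)
    (hU : U ∈ Tables r c) (hAT : ∀ i, i ≠ x → i ≠ y → A i = T i)
    (hUT : ∀ i, i ≠ u → i ≠ v → U i = T i) : mix x y A U ∈ Tables r c := by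
  rw [mem_Tables] at *
  constructor
  · intro i
    unfold mix
    split_ifs
    · exact hA.1 i
    · exact hU.1 i
  · intro j
    rw [mix_col hxy]
    have e1 := hT.2 j
    have e2 := hA.2 j
    have e3 := hU.2 j
    rw [col_split hxy] at e1 e2 e3
    rw [colOff_congr hAT j] at e2
    have hx := hUT x hxu hxv
    have hy := hUT y hyu hyv
    rw [hx, hy] at e3
    omega

section Fibres

variable {r : ι → ℕ} {c : κ → ℕ}

/-- Summing over a fibre for the pair `(u,v)` at two points of one fibre for a disjoint pair. -/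
theorem sum_fiber_shift {x y u v : ι} (hxy : x ≠ y) (hxu : x ≠ u) (hxv : x ≠ v)
    (hyu : y ≠ u) (hyv : y ≠ v) {T A : ι → Finset κ} (hT : T ∈ Tables r c) (hA : A ∈ Tables r c)
    (hAT : ∀ i, i ≠ x → i ≠ y → A i = T i) (G : (ι → Finset κ) → ℝ) :
    ∑ W ∈ (Tables r c).filter (fun W => offRows u v W = offRows u v A), G W
      = ∑ U ∈ (Tables r c).filter (fun W => offRows u v W = offRows u v T), G (mix x y A U) := by
  symm
  apply Finset.sum_nbij' (fun U => mix x y A U) (fun W => mix x y T W)
  · intro U hU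
    rw [Finset.mem_filter, offRows_eq_iff] at hU
    rw [Finset.mem_filter, offRows_eq_iff]
    refine ⟨mix_mem hxy hxu hxv hyu hyv hT hA hU.1 hAT hU.2, ?_⟩
    intro i hu hv
    unfold mix
    by_cases hi : i = x ∨ i = y
    · rw [if_pos hi]
    · rw [if_neg hi]
      push Not at hi
      rw [hU.2 i hu hv, hAT i hi.1 hi.2]
  · intro W hW
    rw [Finset.mem_filter, offRows_eq_iff] at hW
    rw [Finset.mem_filter, offRows_eq_iff]
    refine ⟨mix_mem hxy hxu hxv hyu hyv hA hT hW.1 (fun i h1 h2 => (hAT i h1 h2).symm) hW.2, ?_⟩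
    intro i hu hv
    unfold mix
    by_cases hi : i = x ∨ i = y
    · rw [if_pos hi]
    · rw [if_neg hi]
      push Not at hi
      rw [hW.2 i hu hv, hAT i hi.1 hi.2]
  · intro U hU
    rw [Finset.mem_filter, offRows_eq_iff] at hU
    funext i
    unfold mix
    by_cases hi : i = x ∨ i = y
    · rw [if_pos hi]
      rcases hi with rfl | rfl
      · exact (hU.2 _ hxu hxv).symm
      · exact (hU.2 _ hyu hyv).symm
    · simp only [if_neg hi]
  · intro W hW
    rw [Finset.mem_filter, offRows_eq_iff] at hW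
    funext i
    unfold mix
    by_cases hi : i = x ∨ i = y
    · rw [if_pos hi]
      rcases hi with rfl | rfl
      · exact (hW.2 _ hxu hxv).symm
      · exact (hW.2 _ hyu hyv).symm
    · simp only [if_neg hi]
  · intro U _
    rfl

theorem mix_symm {x y u v : ι} (hxu : x ≠ u) (hxv : x ≠ v) (hyu : y ≠ u) (hyv : y ≠ v)
    {T A U : ι → Finset κ}
    (hAT : ∀ i, i ≠ x → i ≠ y → A i = T i) (hUT : ∀ i, i ≠ u → i ≠ v → U i = T i) :
    mix x y A U = mix u v U A := by
  funext i
  unfold mix
  by_cases h1 : i = x ∨ i = y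
  · have h2 : ¬ (i = u ∨ i = v) := by
      rintro (rfl | rfl) <;> rcases h1 with h | h <;> simp_all
    rw [if_pos h1, if_neg h2]
  · by_cases h2 : i = u ∨ i = v
    · rw [if_neg h1, if_pos h2]
    · rw [if_neg h1, if_neg h2]
      push Not at h1 h2
      rw [hUT i h2.1 h2.2, hAT i h1.1 h1.2]

/-- Row-pair conditional expectations for disjoint pairs commute. -/
theorem cond_comm {x y u v : ι} (hxy : x ≠ y) (huv : u ≠ v) (hxu : x ≠ u) (hxv : x ≠ v)
    (hyu : y ≠ u) (hyv : y ≠ v) (g : (ι → Finset κ) → ℝ) (T : ι → Finset κ) (hT : T ∈ Tables r c) :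
    cond (Tables r c) (offRows x y) (cond (Tables r c) (offRows u v) g) T
      = cond (Tables r c) (offRows u v) (cond (Tables r c) (offRows x y) g) T := by
  classical
  set S := Tables r c with hS
  set Fx := S.filter (fun W => offRows x y W = offRows x y T) with hFx
  set Fu := S.filter (fun W => offRows u v W = offRows u v T) with hFu
  have key1 : ∀ A ∈ Fx, cond S (offRows u v) g A
      = (∑ U ∈ Fu, g (mix x y A U)) / (Fu.card : ℝ) := by
    intro A hA
    rw [hFx, Finset.mem_filter, offRows_eq_iff] at hA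
    unfold cond
    rw [hS, sum_fiber_shift hxy hxu hxv hyu hyv hT hA.1 hA.2 g]
    have hc := sum_fiber_shift hxy hxu hxv hyu hyv hT hA.1 hA.2 (fun _ => (1 : ℝ))
    simp only [Finset.sum_const, nsmul_eq_mul, mul_one] at hc
    rw [hc]
  have key2 : ∀ U ∈ Fu, cond S (offRows x y) g U
      = (∑ A ∈ Fx, g (mix u v U A)) / (Fx.card : ℝ) := by
    intro U hU
    rw [hFu, Finset.mem_filter, offRows_eq_iff] at hU
    unfold cond
    rw [hS, sum_fiber_shift huv hxu.symm hyu.symm hxv.symm hyv.symm hT hU.1 hU.2 g]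
    have hc := sum_fiber_shift huv hxu.symm hyu.symm hxv.symm hyv.symm hT hU.1 hU.2 (fun _ => (1 : ℝ))
    simp only [Finset.sum_const, nsmul_eq_mul, mul_one] at hc
    rw [hc]
  have lhs : cond S (offRows x y) (cond S (offRows u v) g) T
      = (∑ A ∈ Fx, ∑ U ∈ Fu, g (mix x y A U)) / (Fu.card : ℝ) / (Fx.card : ℝ) := by
    change (∑ A ∈ Fx, cond S (offRows u v) g A) / (Fx.card : ℝ) = _
    rw [Finset.sum_congr rfl key1, ← Finset.sum_div]
  have rhs : cond S (offRows u v) (cond S (offRows x y) g) T
      = (∑ U ∈ Fu, ∑ A ∈ Fx, g (mix u v U A)) / (Fx.card : ℝ) / (Fu.card : ℝ) := by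
    change (∑ U ∈ Fu, cond S (offRows x y) g U) / (Fu.card : ℝ) = _
    rw [Finset.sum_congr rfl key2, ← Finset.sum_div]
  rw [lhs, rhs, Finset.sum_comm, div_div, div_div, mul_comm (Fu.card : ℝ)]
  congr 1
  apply Finset.sum_congr rfl
  intro U hU
  apply Finset.sum_congr rfl
  intro A hA
  rw [hFx, Finset.mem_filter, offRows_eq_iff] at hA
  rw [hFu, Finset.mem_filter, offRows_eq_iff] at hU
  rw [mix_symm hxu hxv hyu hyv hA.2 hU.2]

/-- The cross term for disjoint row pairs is nonnegative. -/
theorem cross_disjoint {x y u v : ι} (hxy : x ≠ y) (huv : u ≠ v) (hxu : x ≠ u) (hxv : x ≠ v)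
    (hyu : y ≠ u) (hyv : y ≠ v) (f : (ι → Finset κ) → ℝ) :
    0 ≤ ipS (Tables r c) (cQ (Tables r c) (offRows x y) f) (cQ (Tables r c) (offRows u v) f) :=
  cross_nonneg_of_commute _ _ (fun g T hT => cond_comm hxy huv hxu hxv hyu hyv g T hT) f

end Fibres

end Vale.Agent.Lib.P335
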