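import Vale.Agent.Lib.P335.Bal

/-!
The star inequality for binary tables with three rows.
-/

namespace Vale.Agent.Lib.P335

open Finset BigOperators

variable {κ : Type*} [Fintype κ] [DecidableEq κ]

/-- Tables with three rows and prescribed margins. -/
def ThreeRow (r : Fin 3 → ℕ) (c : κ → ℕ) : Finset (Fin 3 → Finset κ) :=
  (Fintype.piFinset (fun _ => (univ : Finset (Finset κ)))).filter
    (fun A => (∀ p, (A p).card = r p) ∧ ∀ j, (univ.filter (fun p => j ∈ A p)).card = c j)

theorem mem_ThreeRow {r : Fin 3 → ℕ} {c : κ → ℕ} {A : Fin 3 → Finset κ} :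
    A ∈ ThreeRow r c ↔ (∀ p, (A p).card = r p) ∧ ∀ j, (univ.filter (fun p => j ∈ A p)).card = c j := by
  simp [ThreeRow, Fintype.mem_piFinset]

theorem card_filter_one {P : Fin 3 → Prop} [DecidablePred P] :
    (univ.filter P).card = 1 ↔ ∃! p, P p := by
  rw [Finset.card_eq_one]
  constructor
  · rintro ⟨a, ha⟩
    refine ⟨a, ?_, ?_⟩
    · have : a ∈ univ.filter P := by rw [ha]; simp
      exact (Finset.mem_filter.mp this).2
    · intro b hb
      have : b ∈ univ.filter P := Finset.mem_filter.mpr ⟨Finset.mem_univ _, hb⟩
      rw [ha] at this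
      simpa using this
  · rintro ⟨a, ha, hu⟩
    refine ⟨a, ?_⟩
    ext b
    simp only [Finset.mem_filter, Finset.mem_univ, true_and, Finset.mem_singleton]
    exact ⟨fun h => hu b h, fun h => h ▸ ha⟩

theorem card_filter_two {P : Fin 3 → Prop} [DecidablePred P] :
    (univ.filter P).card = 2 ↔ ∃! p, ¬ P p := by
  rw [← card_filter_one]
  have := Finset.card_filter_add_card_filter_not (s := (univ : Finset (Fin 3))) P
  simp only [Finset.card_univ, Fintype.card_fin] at this
  omega

theorem card_filter_three {P : Fin 3 → Prop} [DecidablePred P] :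
    (univ.filter P).card = 3 ↔ ∀ p, P p := by
  constructor
  · intro h p
    have h2 : univ.filter P = univ := by
      apply Finset.eq_univ_of_card
      simpa using h
    have : p ∈ univ.filter P := by rw [h2]; simp
    exact (Finset.mem_filter.mp this).2
  · intro h
    rw [Finset.filter_true_of_mem (fun p _ => h p)]
    simp

theorem card_filter_le {P : Fin 3 → Prop} [DecidablePred P] : (univ.filter P).card ≤ 3 := by
  have := Finset.card_filter_le (univ : Finset (Fin 3)) P
  simpa using this

/-- Columns with sum `1`. -/
def cX (c : κ → ℕ) : Finset κ := univ.filter (fun j => c j = 1)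
/-- Columns with sum `2`. -/
def cY (c : κ → ℕ) : Finset κ := univ.filter (fun j => c j = 2)
/-- Columns with sum `3`. -/
def cZ (c : κ → ℕ) : Finset κ := univ.filter (fun j => c j = 3)
/-- The type of a column. -/
def tk (c : κ → ℕ) (j : κ) : Bool := decide (c j = 1)

/-- Block of a row. -/
def rhoB (c : κ → ℕ) (A : Finset κ) : Finset κ := (A ∩ cX c) ∪ (cY c \ A)
/-- Row of a block. -/
def sigB (c : κ → ℕ) (B : Finset κ) : Finset κ := (B ∩ cX c) ∪ (cY c \ B) ∪ cZ c

theorem cXY_disjoint (c : κ → ℕ) : Disjoint (cX c) (cY c) := by
  rw [Finset.disjoint_left]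
  intro j h1 h2
  have a := (Finset.mem_filter.mp h1).2
  have b := (Finset.mem_filter.mp h2).2
  omega

theorem sz_rho_true (c : κ → ℕ) (A : Finset κ) : sz (tk c) (rhoB c A) true = (A ∩ cX c).card := by
  unfold sz rhoB
  congr 1
  ext j
  simp only [Finset.mem_filter, Finset.mem_union, Finset.mem_inter, Finset.mem_sdiff, tk, cX, cY,
    Finset.mem_univ, true_and, decide_eq_true_eq]
  constructor
  · rintro ⟨h | h, h2⟩
    · exact h
    · omega
  · intro h; exact ⟨Or.inl h, h.2⟩

theorem sz_rho_false (c : κ → ℕ) (A : Finset κ) : sz (tk c) (rhoB c A) false = (cY c \ A).card := by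
  unfold sz rhoB
  congr 1
  ext j
  simp only [Finset.mem_filter, Finset.mem_union, Finset.mem_inter, Finset.mem_sdiff, tk, cX, cY,
    Finset.mem_univ, true_and, decide_eq_false_iff_not]
  constructor
  · rintro ⟨h | h, h2⟩
    · exact absurd h.2 h2
    · exact h
  · intro h
    refine ⟨Or.inr h, ?_⟩
    omega

theorem rho_sig (c : κ → ℕ) {B : Finset κ} (hB : B ⊆ cX c ∪ cY c) : rhoB c (sigB c B) = B := by
  unfold rhoB sigB
  ext j
  simp only [Finset.mem_union, Finset.mem_inter, Finset.mem_sdiff]
  by_cases hX : j ∈ cX c
  · have hY : j ∉ cY c := fun h => (Finset.disjoint_left.mp (cXY_disjoint c)) hX h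
    have hZ : j ∉ cZ c := by
      intro h
      have a := (Finset.mem_filter.mp hX).2
      have b := (Finset.mem_filter.mp h).2
      omega
    simp [hX, hY, hZ]
  · by_cases hY : j ∈ cY c
    · have hZ : j ∉ cZ c := by
        intro h
        have a := (Finset.mem_filter.mp hY).2
        have b := (Finset.mem_filter.mp h).2
        omega
      simp [hX, hY, hZ]
    · have : j ∉ B := fun h => by
        rcases Finset.mem_union.mp (hB h) with h | h
        · exact hX h
        · exact hY h
      simp [hX, hY, this]

/-- The star inequality for tables with three rows. -/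
theorem threeRow_star (r : Fin 3 → ℕ) (c : κ → ℕ) (g : Fin 3 → Finset κ → ℝ) :
    Star (ThreeRow r c) (fun p A => g p (A p)) := by
  classical
  rcases (ThreeRow r c).eq_empty_or_nonempty with h | ⟨A₀, hA₀⟩
  · rw [h]
    exact star_of_card_le_one (by simp) _
  -- column facts valid for every table
  have hcol : ∀ A ∈ ThreeRow r c, ∀ j,
      (c j = 1 → ∃! p, j ∈ A p) ∧ (c j = 2 → ∃! p, j ∉ A p) ∧ (c j = 3 → ∀ p, j ∈ A p)
        ∧ (c j = 0 → ∀ p, j ∉ A p) := by
    intro A hA j
    have h := (mem_ThreeRow.mp hA).2 j
    refine ⟨fun h1 => ?_, fun h1 => ?_, fun h1 => ?_, fun h1 => ?_⟩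
    · rw [h1] at h; exact card_filter_one.mp h
    · rw [h1] at h; exact card_filter_two.mp h
    · rw [h1] at h; exact card_filter_three.mp h
    · rw [h1] at h
      intro p hp
      have : p ∈ univ.filter (fun p => j ∈ A p) := Finset.mem_filter.mpr ⟨Finset.mem_univ _, hp⟩
      rw [Finset.card_eq_zero.mp h] at this
      simp at this
  have hcle : ∀ j, c j ≤ 3 := by
    intro j
    rw [← (mem_ThreeRow.mp hA₀).2 j]
    exact card_filter_le
  set X := cX c with hX
  set Y := cY c with hY
  set Z := cZ c with hZ
  set E := X ∪ Y with hE
  set t := tk c with ht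
  -- the size relation
  set s : Fin 3 → ℤ := fun p => (r p : ℤ) - Y.card - Z.card with hs
  have hsize : ∀ A ∈ ThreeRow r c, ∀ p, ((A p ∩ X).card : ℤ) - (Y \ A p).card = s p := by
    intro A hA p
    have hr := (mem_ThreeRow.mp hA).1 p
    have hc := hcol A hA
    have e : A p = (A p ∩ X) ∪ (A p ∩ Y) ∪ Z := by
      ext j
      simp only [Finset.mem_union, Finset.mem_inter]
      constructor
      · intro hj
        have h0 : c j ≠ 0 := fun h => (hc j).2.2.2 h p hj
        have h3 := hcle j
        have : c j = 1 ∨ c j = 2 ∨ c j = 3 := by omega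
        rcases this with h | h | h
        · exact Or.inl (Or.inl ⟨hj, Finset.mem_filter.mpr ⟨Finset.mem_univ _, h⟩⟩)
        · exact Or.inl (Or.inr ⟨hj, Finset.mem_filter.mpr ⟨Finset.mem_univ _, h⟩⟩)
        · exact Or.inr (Finset.mem_filter.mpr ⟨Finset.mem_univ _, h⟩)
      · rintro ((h | h) | h)
        · exact h.1
        · exact h.1
        · exact (hc j).2.2.1 (Finset.mem_filter.mp h).2 p
    have d1 : Disjoint (A p ∩ X) (A p ∩ Y) := by
      rw [Finset.disjoint_left]
      intro j h1 h2
      exact (Finset.disjoint_left.mp (cXY_disjoint c)) (Finset.mem_inter.mp h1).2 (Finset.mem_inter.mp h2).2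
    have d2 : Disjoint ((A p ∩ X) ∪ (A p ∩ Y)) Z := by
      rw [Finset.disjoint_left]
      intro j h1 h2
      have b := (Finset.mem_filter.mp h2).2
      rcases Finset.mem_union.mp h1 with h | h
      · have a := (Finset.mem_filter.mp (Finset.mem_inter.mp h).2).2; omega
      · have a := (Finset.mem_filter.mp (Finset.mem_inter.mp h).2).2; omega
    have c1 : (A p).card = (A p ∩ X).card + (A p ∩ Y).card + Z.card := by
      conv_lhs => rw [e]
      rw [Finset.card_union_of_disjoint d2, Finset.card_union_of_disjoint d1]
    have c2 : (Y \ A p).card + (A p ∩ Y).card = Y.card := by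
      rw [← Finset.inter_comm Y, Finset.card_sdiff_add_card_inter]
    simp only [hs]
    omega
  set l : Fin 3 → ℕ := fun p => (s p).toNat with hl
  set l' : Fin 3 → ℕ := fun p => (- s p).toNat with hl'
  have hll : ∀ p, (l p : ℤ) - l' p = s p := by
    intro p
    simp only [hl, hl']
    omega
  -- block membership
  have hrho : ∀ A ∈ ThreeRow r c, ∀ p, rhoB c (A p) ⊆ E := by
    intro A _ p j hj
    rcases Finset.mem_union.mp hj with h | h
    · exact Finset.mem_union_left _ (Finset.mem_inter.mp h).2
    · exact Finset.mem_union_right _ (Finset.mem_sdiff.mp h).1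
  have hrhou : ∀ A ∈ ThreeRow r c, ∀ j ∈ E, ∃! p, j ∈ rhoB c (A p) := by
    intro A hA j hj
    have hc := hcol A hA j
    rcases Finset.mem_union.mp hj with h | h
    · have h1 := (Finset.mem_filter.mp h).2
      obtain ⟨p, hp, hu⟩ := hc.1 h1
      refine ⟨p, Finset.mem_union_left _ (Finset.mem_inter.mpr ⟨hp, h⟩), ?_⟩
      intro q hq
      apply hu
      rcases Finset.mem_union.mp hq with h2 | h2
      · exact (Finset.mem_inter.mp h2).1
      · have a := (Finset.mem_filter.mp (Finset.mem_sdiff.mp h2).1).2; omega
    · have h1 := (Finset.mem_filter.mp h).2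
      obtain ⟨p, hp, hu⟩ := hc.2.1 h1
      refine ⟨p, Finset.mem_union_right _ (Finset.mem_sdiff.mpr ⟨h, hp⟩), ?_⟩
      intro q hq
      apply hu
      rcases Finset.mem_union.mp hq with h2 | h2
      · have a := (Finset.mem_filter.mp (Finset.mem_inter.mp h2).2).2; omega
      · exact (Finset.mem_sdiff.mp h2).2
  -- consistency from the base point
  have hx : ∀ A ∈ ThreeRow r c, ∀ p, l p ≤ (A p ∩ X).card ∧ l' p ≤ (Y \ A p).card := by
    intro A hA p
    have := hsize A hA p
    simp only [hl, hl']
    omega
  have hsum := fun b => sz_partition (t := t) (hrho A₀ hA₀) (hrhou A₀ hA₀) b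
  set a : ℕ := X.card - (l 0 + l 1 + l 2) with ha
  have hEt : sz t E true = X.card := by
    unfold sz
    congr 1
    ext j
    simp only [Finset.mem_filter, Finset.mem_union, ht, tk, hE, hX, hY, cX, cY, Finset.mem_univ,
      true_and, decide_eq_true_eq]
    constructor
    · exact fun h => h.2
    · exact fun h => ⟨Or.inl h, h⟩
  have hEf : sz t E false = Y.card := by
    unfold sz
    congr 1
    ext j
    simp only [Finset.mem_filter, Finset.mem_union, ht, tk, hE, hX, hY, cX, cY, Finset.mem_univ,
      true_and, decide_eq_false_iff_not]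
    constructor
    · rintro ⟨h | h, h2⟩
      · exact absurd h h2
      · exact h
    · intro h
      exact ⟨Or.inr h, by omega⟩
  have st : ∀ (A : Fin 3 → Finset κ) (p : Fin 3), sz t (rhoB c (A p)) true = (A p ∩ X).card := fun A p => sz_rho_true c (A p)
  have sf : ∀ (A : Fin 3 → Finset κ) (p : Fin 3), sz t (rhoB c (A p)) false = (Y \ A p).card := fun A p => sz_rho_false c (A p)
  have sum_t := hsum true
  have sum_f := hsum false
  rw [hEt, st, st, st] at sum_t
  rw [hEf, sf, sf, sf] at sum_f
  have bound0 := hx A₀ hA₀ 0
  have bound1 := hx A₀ hA₀ 1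
  have bound2 := hx A₀ hA₀ 2
  have size0 := hsize A₀ hA₀ 0
  have size1 := hsize A₀ hA₀ 1
  have size2 := hsize A₀ hA₀ 2
  have ll0 := hll 0
  have ll1 := hll 1
  have ll2 := hll 2
  have h1 : sz t E true = l 0 + l 1 + l 2 + a := by
    rw [hEt, ha]; omega
  have h2 : sz t E false = l' 0 + l' 1 + l' 2 + a := by
    rw [hEf, ha]; omega
  -- the maps
  set sg : (Fin 3 → Finset κ) → (Fin 3 → Finset κ) := fun B p => sigB c (B p) with hsg
  have hBalsub : ∀ B ∈ Bal t E l l' a, ∀ p, B p ⊆ E := by
    intro B hB p
    simp only [Bal, Finset.mem_biUnion] at hB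
    obtain ⟨τ, _, hB⟩ := hB
    exact (mem_Slice.mp hB).1 p
  have hinj : Set.InjOn sg (Bal t E l l' a : Set (Fin 3 → Finset κ)) := by
    intro B hB B' hB' he
    funext p
    have e1 := rho_sig c (hBalsub B (Finset.mem_coe.mp hB) p)
    have e2 := rho_sig c (hBalsub B' (Finset.mem_coe.mp hB') p)
    have e3 : sigB c (B p) = sigB c (B' p) := congrFun he p
    rw [← e1, ← e2, e3]
  have himage : ThreeRow r c = (Bal t E l l' a).image sg := by
    ext A
    simp only [Finset.mem_image]
    constructor
    · intro hA
      refine ⟨fun p => rhoB c (A p), ?_, ?_⟩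
      · simp only [Bal, Finset.mem_biUnion]
        have b0 := hx A hA 0
        have b1 := hx A hA 1
        have b2 := hx A hA 2
        refine ⟨((A 0 ∩ X).card - l 0, (A 1 ∩ X).card - l 1, (A 2 ∩ X).card - l 2), ?_, ?_⟩
        · apply mem_Tri.mpr
          have sum_t' := sz_partition (t := t) (hrho A hA) (hrhou A hA) true
          rw [hEt, st, st, st] at sum_t'
          simp only [ha]
          omega
        · apply mem_Slice.mpr
          refine ⟨hrho A hA, hrhou A hA, ?_⟩
          intro p b
          have bp := hx A hA p
          have sp := hsize A hA p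
          have lp := hll p
          have hval : ∀ p : Fin 3,
              (![(A 0 ∩ X).card - l 0, (A 1 ∩ X).card - l 1, (A 2 ∩ X).card - l 2] : Fin 3 → ℕ) p
                = (A p ∩ X).card - l p := by
            intro p; fin_cases p <;> rfl
          show ((sz t (rhoB c (A p)) b : ℕ) : ℤ) = (((if b then l p else l' p)
            + (![(A 0 ∩ X).card - l 0, (A 1 ∩ X).card - l 1, (A 2 ∩ X).card - l 2] : Fin 3 → ℕ) p : ℕ) : ℤ)
          rw [hval]
          cases b
          · rw [sf]
            simp only [Bool.false_eq_true, if_false]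
            omega
          · rw [st]
            simp only [if_true]
            omega
      · funext p
        simp only [hsg]
        unfold sigB rhoB
        ext j
        have hc := hcol A hA j
        simp only [Finset.mem_union, Finset.mem_inter, Finset.mem_sdiff]
        by_cases hjX : j ∈ cX c
        · have e1 := (Finset.mem_filter.mp hjX).2
          have hjY : j ∉ cY c := fun h => by have := (Finset.mem_filter.mp h).2; omega
          have hjZ : j ∉ cZ c := fun h => by have := (Finset.mem_filter.mp h).2; omega
          simp [hjX, hjY, hjZ]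
        · by_cases hjY : j ∈ cY c
          · have e1 := (Finset.mem_filter.mp hjY).2
            have hjZ : j ∉ cZ c := fun h => by have := (Finset.mem_filter.mp h).2; omega
            simp [hjX, hjY, hjZ]
          · by_cases hjZ : j ∈ cZ c
            · have e1 := (Finset.mem_filter.mp hjZ).2
              simp [hjX, hjY, hjZ, hc.2.2.1 e1 p]
            · have e0 : c j = 0 := by
                have c3 := hcle j
                have n1 : c j ≠ 1 := fun h => hjX (Finset.mem_filter.mpr ⟨Finset.mem_univ _, h⟩)
                have n2 : c j ≠ 2 := fun h => hjY (Finset.mem_filter.mpr ⟨Finset.mem_univ _, h⟩)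
                have n3 : c j ≠ 3 := fun h => hjZ (Finset.mem_filter.mpr ⟨Finset.mem_univ _, h⟩)
                omega
              simp [hjX, hjY, hjZ, hc.2.2.2 e0 p]
    · rintro ⟨B, hB, rfl⟩
      simp only [Bal, Finset.mem_biUnion] at hB
      obtain ⟨τ, hτ, hB⟩ := hB
      obtain ⟨hsub, huniq, hszB⟩ := mem_Slice.mp hB
      apply mem_ThreeRow.mpr
      constructor
      · intro p
        -- the row size
        simp only [hsg]
        unfold sigB
        have d1 : Disjoint (B p ∩ cX c) (cY c \ B p) := by
          rw [Finset.disjoint_left]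
          intro j h1 h2
          exact (Finset.disjoint_left.mp (cXY_disjoint c)) (Finset.mem_inter.mp h1).2 (Finset.mem_sdiff.mp h2).1
        have d2 : Disjoint ((B p ∩ cX c) ∪ (cY c \ B p)) (cZ c) := by
          rw [Finset.disjoint_left]
          intro j h1 h2
          have b := (Finset.mem_filter.mp h2).2
          rcases Finset.mem_union.mp h1 with h | h
          · have a := (Finset.mem_filter.mp (Finset.mem_inter.mp h).2).2; omega
          · have a := (Finset.mem_filter.mp (Finset.mem_sdiff.mp h).1).2; omega
        rw [Finset.card_union_of_disjoint d2, Finset.card_union_of_disjoint d1]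
        have c2 : (cY c \ B p).card + (B p ∩ cY c).card = (cY c).card := by
          rw [← Finset.inter_comm (cY c), Finset.card_sdiff_add_card_inter]
        have st' : sz t (B p) true = (B p ∩ cX c).card := by
          unfold sz
          congr 1
          ext j
          simp only [Finset.mem_filter, Finset.mem_inter, ht, tk, cX, Finset.mem_univ, true_and,
            decide_eq_true_eq]
        have sf' : sz t (B p) false = (B p ∩ cY c).card := by
          unfold sz
          congr 1
          ext j
          simp only [Finset.mem_filter, Finset.mem_inter, ht, tk, cY, Finset.mem_univ, true_and,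
            decide_eq_false_iff_not]
          constructor
          · rintro ⟨h3, h4⟩
            refine ⟨h3, ?_⟩
            rcases Finset.mem_union.mp (hsub p h3) with h | h
            · exact absurd (Finset.mem_filter.mp h).2 h4
            · exact (Finset.mem_filter.mp h).2
          · rintro ⟨h3, h4⟩
            exact ⟨h3, by omega⟩
        have z1 := hszB p true
        have z2 := hszB p false
        rw [st'] at z1
        rw [sf'] at z2
        have lp := hll p
        have e3 : ∀ b : Bool, (nn l l' τ p b) = (((if b then l p else l' p) + ![τ.1, τ.2.1, τ.2.2] p : ℕ) : ℤ) :=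
          fun _ => rfl
        rw [e3] at z1 z2
        simp only [if_true, Bool.false_eq_true, if_false] at z1 z2
        push_cast at z1 z2
        simp only [hs] at lp
        have : ((B p ∩ cX c).card + (cY c \ B p).card + (cZ c).card : ℤ) = r p := by
          have c2' : ((cY c \ B p).card : ℤ) + (B p ∩ cY c).card = (cY c).card := by exact_mod_cast c2
          linarith
        exact_mod_cast this
      · intro j
        simp only [hsg]
        unfold sigB
        by_cases hjX : j ∈ cX c
        · have e1 := (Finset.mem_filter.mp hjX).2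
          have hjY : j ∉ cY c := fun h => by have := (Finset.mem_filter.mp h).2; omega
          have hjZ : j ∉ cZ c := fun h => by have := (Finset.mem_filter.mp h).2; omega
          rw [e1]
          apply card_filter_one.mpr
          obtain ⟨p, hp, hu⟩ := huniq j (Finset.mem_union_left _ hjX)
          refine ⟨p, by simp [hp, hjX], ?_⟩
          intro q hq
          apply hu
          simpa [hjX, hjY, hjZ] using hq
        · by_cases hjY : j ∈ cY c
          · have e1 := (Finset.mem_filter.mp hjY).2
            have hjZ : j ∉ cZ c := fun h => by have := (Finset.mem_filter.mp h).2; omega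
            rw [e1]
            apply card_filter_two.mpr
            obtain ⟨p, hp, hu⟩ := huniq j (Finset.mem_union_right _ hjY)
            refine ⟨p, by simp [hp, hjX, hjZ], ?_⟩
            intro q hq
            apply hu
            simpa [hjX, hjY, hjZ] using hq
          · by_cases hjZ : j ∈ cZ c
            · have e1 := (Finset.mem_filter.mp hjZ).2
              rw [e1]
              apply card_filter_three.mpr
              intro p
              simp [hjZ]
            · have e0 : c j = 0 := by
                have c3 := hcle j
                have n1 : c j ≠ 1 := fun h => hjX (Finset.mem_filter.mpr ⟨Finset.mem_univ _, h⟩)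
                have n2 : c j ≠ 2 := fun h => hjY (Finset.mem_filter.mpr ⟨Finset.mem_univ _, h⟩)
                have n3 : c j ≠ 3 := fun h => hjZ (Finset.mem_filter.mpr ⟨Finset.mem_univ _, h⟩)
                omega
              rw [e0, Finset.card_eq_zero, Finset.filter_eq_empty_iff]
              intro p _
              simp [hjX, hjY, hjZ]
  rw [himage]
  apply star_image hinj
  have := bal_star (t := t) h1 h2 (fun p B => g p (sigB c B))
  exact this

end Vale.Agent.Lib.P335
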