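import Vale.Agent.Lib.P335.Tables

/-!
The block inequality for three row pairs on three rows of a table.
-/

namespace Vale.Agent.Lib.P335

open Finset BigOperators

variable {ι κ : Type*} [Fintype ι] [DecidableEq ι] [Fintype κ] [DecidableEq κ]

/-- Forget three rows. -/
def offThree (x y z : ι) (T : ι → Finset κ) : ι → Finset κ :=
  fun i => if i = x ∨ i = y ∨ i = z then ∅ else T i

theorem offThree_eq_iff {x y z : ι} {T T' : ι → Finset κ} :
    offThree x y z T = offThree x y z T' ↔ ∀ i, i ≠ x → i ≠ y → i ≠ z → T i = T' i := by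
  constructor
  · intro h i hx hy hz
    have := congrFun h i
    simpa [offThree, hx, hy, hz] using this
  · intro h
    funext i
    unfold offThree
    by_cases hi : i = x ∨ i = y ∨ i = z
    · simp [hi]
    · rw [if_neg hi, if_neg hi]
      push Not at hi
      exact h i hi.1 hi.2.1 hi.2.2

/-- Ones of column `j` outside three rows. -/
def colOff3 (x y z : ι) (T : ι → Finset κ) (j : κ) : ℕ :=
  ((univ \ {x, y, z}).filter (fun i => j ∈ T i)).card

theorem col_split3 {x y z : ι} (hxy : x ≠ y) (hxz : x ≠ z) (hyz : y ≠ z) (T : ι → Finset κ) (j : κ) :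
    (univ.filter (fun i => j ∈ T i)).card
      = (univ.filter (fun p : Fin 3 => j ∈ T (![x, y, z] p))).card + colOff3 x y z T j := by
  unfold colOff3
  rw [Finset.card_filter, Finset.card_filter, Finset.card_filter]
  have hu : (univ : Finset ι) = {x, y, z} ∪ (univ \ {x, y, z}) := by
    rw [Finset.union_sdiff_of_subset (Finset.subset_univ _)]
  have hd : Disjoint ({x, y, z} : Finset ι) (univ \ {x, y, z}) := Finset.disjoint_sdiff
  conv_lhs => rw [hu]
  rw [Finset.sum_union hd, Fin.sum_univ_three, Finset.sum_insert (by simp [hxy, hxz]),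
    Finset.sum_insert (by simp [hyz]), Finset.sum_singleton]
  simp only [Matrix.cons_val_zero, Matrix.cons_val_one, Matrix.cons_val]
  by_cases h1 : j ∈ T x <;> by_cases h2 : j ∈ T y <;> by_cases h3 : j ∈ T z <;>
    simp [h1, h2, h3]

theorem colOff3_congr {x y z : ι} {T T' : ι → Finset κ}
    (h : ∀ i, i ≠ x → i ≠ y → i ≠ z → T i = T' i) (j : κ) :
    colOff3 x y z T j = colOff3 x y z T' j := by
  unfold colOff3
  congr 1
  apply Finset.filter_congr
  intro i hi
  simp only [Finset.mem_sdiff, Finset.mem_univ, true_and, Finset.mem_insert,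
    Finset.mem_singleton, not_or] at hi
  rw [h i hi.1 hi.2.1 hi.2.2]

variable {r : ι → ℕ} {c : κ → ℕ}

/-- On a fibre of the map forgetting three rows, the star inequality holds for the three rows. -/
theorem fibre_star {x y z : ι} (hxy : x ≠ y) (hxz : x ≠ z) (hyz : y ≠ z) {T₀ : ι → Finset κ}
    (hT₀ : T₀ ∈ Tables r c) (g : Fin 3 → Finset κ → ℝ) :
    Star ((Tables r c).filter (fun T => offThree x y z T = offThree x y z T₀))
      (fun p T => g p (T (![x, y, z] p))) := by
  classical
  set Sz := (Tables r c).filter (fun T => offThree x y z T = offThree x y z T₀) with hSz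
  let φ : (ι → Finset κ) → (Fin 3 → Finset κ) := fun T p => T (![x, y, z] p)
  have hinj : Set.InjOn φ Sz := by
    intro T hT T' hT' h
    have hT1 := (Finset.mem_filter.mp hT).2
    have hT2 := (Finset.mem_filter.mp hT').2
    rw [offThree_eq_iff] at hT1 hT2
    funext i
    by_cases h0 : i = x
    · have := congrFun h 0
      simpa [φ, h0] using this
    by_cases h1 : i = y
    · have := congrFun h 1
      simpa [φ, h1] using this
    by_cases h2 : i = z
    · have := congrFun h 2
      simpa [φ, h2] using this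
    rw [hT1 i h0 h1 h2, hT2 i h0 h1 h2]
  have himg : Sz.image φ = ThreeRow (fun p => r (![x, y, z] p))
      (fun j => (univ.filter (fun p : Fin 3 => j ∈ T₀ (![x, y, z] p))).card) := by
    ext A
    rw [mem_ThreeRow, Finset.mem_image]
    constructor
    · rintro ⟨T, hT, rfl⟩
      have hT1 := (Finset.mem_filter.mp hT).1
      have hT2 := (Finset.mem_filter.mp hT).2
      rw [offThree_eq_iff] at hT2
      rw [mem_Tables] at hT1
      have hT₀' := mem_Tables.mp hT₀
      refine ⟨fun p => hT1.1 _, fun j => ?_⟩
      have e1 := col_split3 hxy hxz hyz T j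
      have e2 := col_split3 hxy hxz hyz T₀ j
      rw [hT1.2 j] at e1
      rw [hT₀'.2 j] at e2
      rw [colOff3_congr hT2 j] at e1
      show (univ.filter (fun p : Fin 3 => j ∈ T (![x, y, z] p))).card = _
      omega
    · rintro ⟨h1, h2⟩
      let T : ι → Finset κ := fun i =>
        if i = x then A 0 else if i = y then A 1 else if i = z then A 2 else T₀ i
      have hTx : T x = A 0 := by simp [T]
      have hTy : T y = A 1 := by simp [T, hxy.symm]
      have hTz : T z = A 2 := by simp [T, hxz.symm, hyz.symm]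
      have hTo : ∀ i, i ≠ x → i ≠ y → i ≠ z → T i = T₀ i := by
        intro i h0 h1 h2
        simp [T, h0, h1, h2]
      have hφ : φ T = A := by
        funext p
        fin_cases p
        · exact hTx
        · exact hTy
        · exact hTz
      refine ⟨T, ?_, hφ⟩
      rw [hSz, Finset.mem_filter, offThree_eq_iff, mem_Tables]
      have hT₀' := mem_Tables.mp hT₀
      refine ⟨⟨?_, ?_⟩, hTo⟩
      · intro i
        by_cases h0 : i = x
        · rw [h0, hTx]; simpa using h1 0
        by_cases h1' : i = y
        · rw [h1', hTy]; simpa using h1 1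
        by_cases h2' : i = z
        · rw [h2', hTz]; simpa using h1 2
        rw [hTo i h0 h1' h2']
        exact hT₀'.1 i
      · intro j
        have e1 := col_split3 hxy hxz hyz T j
        have e2 := col_split3 hxy hxz hyz T₀ j
        rw [hT₀'.2 j] at e2
        rw [colOff3_congr hTo j] at e1
        have e3 : (univ.filter (fun p : Fin 3 => j ∈ T (![x, y, z] p))).card
            = (univ.filter (fun p : Fin 3 => j ∈ T₀ (![x, y, z] p))).card := by
          rw [← h2 j]
          congr 1
          apply Finset.filter_congr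
          intro p _
          rw [← hφ]
        omega
  have hstar := threeRow_star (fun p => r (![x, y, z] p))
      (fun j => (univ.filter (fun p : Fin 3 => j ∈ T₀ (![x, y, z] p))).card) g
  rw [← himg] at hstar
  unfold Star at hstar ⊢
  rw [var_image hinj] at hstar
  simp only [var_image hinj] at hstar
  exact hstar

/-- On such a fibre, the pair-complement equals the complement of the remaining row. -/
theorem cQ_fibre {x y z : ι} (hzx : z ≠ x) (hzy : z ≠ y) {T₀ T : ι → Finset κ}
    (Sz : Finset (ι → Finset κ))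
    (hSz : ∀ W, W ∈ Sz ↔ W ∈ Tables r c ∧ ∀ i, i ≠ x → i ≠ y → i ≠ z → W i = T₀ i)
    (hT : T ∈ Sz) (f : (ι → Finset κ) → ℝ) :
    cQ (Tables r c) (offRows x y) f T = cQ Sz (fun U => U z) f T := by
  have hT2 := ((hSz T).mp hT).2
  have e : (Tables r c).filter (fun W => offRows x y W = offRows x y T)
      = Sz.filter (fun W => W z = T z) := by
    ext W
    rw [Finset.mem_filter, Finset.mem_filter, offRows_eq_iff, hSz]
    constructor
    · rintro ⟨h0, h⟩
      refine ⟨⟨h0, ?_⟩, h z hzx hzy⟩
      intro i h0 h1 h2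
      rw [h i h0 h1, hT2 i h0 h1 h2]
    · rintro ⟨⟨h0, h1⟩, h2⟩
      refine ⟨h0, ?_⟩
      intro i h0 h3
      by_cases hz : i = z
      · rw [hz, h2]
      · rw [h1 i h0 h3 hz, hT2 i h0 h3 hz]
  unfold cQ cond
  rw [e]

/-- The three overlapping cross terms on three rows have nonnegative sum. -/
theorem cross_triple {x y z : ι} (hxy : x ≠ y) (hxz : x ≠ z) (hyz : y ≠ z)
    (f : (ι → Finset κ) → ℝ) :
    0 ≤ ipS (Tables r c) (cQ (Tables r c) (offRows x y) f) (cQ (Tables r c) (offRows x z) f)
      + ipS (Tables r c) (cQ (Tables r c) (offRows y x) f) (cQ (Tables r c) (offRows y z) f)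
      + ipS (Tables r c) (cQ (Tables r c) (offRows z x) f) (cQ (Tables r c) (offRows z y) f) := by
  classical
  rw [offRows_comm y x, offRows_comm z x, offRows_comm z y]
  have hmaps : ∀ T ∈ Tables r c, offThree x y z T ∈ (Tables r c).image (offThree x y z) :=
    fun T hT => Finset.mem_image_of_mem _ hT
  have e : ∀ a b : (ι → Finset κ) → ℝ, ipS (Tables r c) a b = ∑ t ∈ (Tables r c).image (offThree x y z),
      ∑ T ∈ (Tables r c).filter (fun T => offThree x y z T = t), a T * b T := by
    intro a b
    unfold ipS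
    rw [Finset.sum_fiberwise_of_maps_to hmaps]
  rw [e, e, e, ← Finset.sum_add_distrib, ← Finset.sum_add_distrib]
  apply Finset.sum_nonneg
  intro t ht
  obtain ⟨T₀, hT₀, rfl⟩ := Finset.mem_image.mp ht
  set Sz := (Tables r c).filter (fun T => offThree x y z T = offThree x y z T₀) with hSz
  have hmem : ∀ W, W ∈ Sz ↔ W ∈ Tables r c ∧ ∀ i, i ≠ x → i ≠ y → i ≠ z → W i = T₀ i := by
    intro W
    rw [hSz, Finset.mem_filter, offThree_eq_iff]
  have hb := block_nonneg (S := Sz) (f := f) (fun (p : Fin 3) (T : ι → Finset κ) => T (![x, y, z] p))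
    (fun g => fibre_star hxy hxz hyz hT₀ g)
  have e1 : ∀ T ∈ Sz, cQ (Tables r c) (offRows x y) f T = cQ Sz (fun U => U z) f T :=
    fun T hT => cQ_fibre hxz.symm hyz.symm Sz hmem hT f
  have e2 : ∀ T ∈ Sz, cQ (Tables r c) (offRows x z) f T = cQ Sz (fun U => U y) f T := by
    intro T hT
    refine cQ_fibre (T₀ := T₀) hxy.symm hyz Sz ?_ hT f
    intro W
    rw [hmem]
    exact and_congr_right (fun _ => ⟨fun h i a b c => h i a c b, fun h i a b c => h i a c b⟩)
  have e3 : ∀ T ∈ Sz, cQ (Tables r c) (offRows y z) f T = cQ Sz (fun U => U x) f T := by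
    intro T hT
    refine cQ_fibre (T₀ := T₀) hxy hxz Sz ?_ hT f
    intro W
    rw [hmem]
    exact and_congr_right (fun _ => ⟨fun h i a b c => h i c a b, fun h i a b c => h i b c a⟩)
  have hb' : 0 ≤ ipS Sz (cQ Sz (fun U => U z) f) (cQ Sz (fun U => U y) f)
      + ipS Sz (cQ Sz (fun U => U z) f) (cQ Sz (fun U => U x) f)
      + ipS Sz (cQ Sz (fun U => U y) f) (cQ Sz (fun U => U x) f) := hb
  rw [← ipS_congr e1 e2, ← ipS_congr e1 e3, ← ipS_congr e2 e3] at hb'
  exact hb'

end Vale.Agent.Lib.P335
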