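import Mathlib

/-!
Finite variance bookkeeping for the P335 development.
-/

namespace Vale.Agent.Lib.P335

open Finset BigOperators

variable {α β : Type*}

/-- Sum of squared deviations from the mean over a finite set. -/
noncomputable def var (S : Finset α) (F : α → ℝ) : ℝ :=
  ∑ x ∈ S, F x ^ 2 - (∑ x ∈ S, F x) ^ 2 / (S.card : ℝ)

theorem var_nonneg (S : Finset α) (F : α → ℝ) : 0 ≤ var S F := by
  unfold var
  rcases S.eq_empty_or_nonempty with rfl | hS
  · simp
  · have hc : (0 : ℝ) < (S.card : ℝ) := by exact_mod_cast S.card_pos.mpr hS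
    have h := sq_sum_le_card_mul_sum_sq (s := S) (f := F)
    rw [sub_nonneg, div_le_iff₀ hc]
    linarith

theorem var_congr {S : Finset α} {F G : α → ℝ} (h : ∀ x ∈ S, F x = G x) : var S F = var S G := by
  unfold var
  rw [Finset.sum_congr rfl (fun x hx => by rw [h x hx]),
    Finset.sum_congr rfl (fun x hx => h x hx)]

theorem var_image [DecidableEq β] {S : Finset α} {φ : α → β} (hφ : Set.InjOn φ S) (F : β → ℝ) :
    var (S.image φ) F = var S (fun x => F (φ x)) := by
  unfold var
  rw [Finset.sum_image hφ, Finset.sum_image hφ, Finset.card_image_of_injOn hφ]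

/-- The between-classes part of the variance for a partition by a map `φ`. -/
noncomputable def between [DecidableEq β] (S : Finset α) (φ : α → β) (T : Finset β) (F : α → ℝ) : ℝ :=
  ∑ t ∈ T, (∑ x ∈ S.filter (fun x => φ x = t), F x) ^ 2 / ((S.filter (fun x => φ x = t)).card : ℝ)
    - (∑ x ∈ S, F x) ^ 2 / (S.card : ℝ)

theorem var_eq_within_add_between [DecidableEq β] (S : Finset α) (φ : α → β) (T : Finset β)
    (hφ : ∀ x ∈ S, φ x ∈ T) (F : α → ℝ) :
    var S F = ∑ t ∈ T, var (S.filter (fun x => φ x = t)) F + between S φ T F := by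
  unfold var between
  rw [Finset.sum_sub_distrib, ← Finset.sum_fiberwise_of_maps_to hφ (fun x => F x ^ 2)]
  ring

/-- The star inequality for three functions on a finite set. -/
def Star (S : Finset α) (g : Fin 3 → α → ℝ) : Prop :=
  var S (fun x => ∑ p, g p x) ≤ 2 * ∑ p, var S (g p)

theorem star_of_parts [DecidableEq β] (S : Finset α) (φ : α → β) (T : Finset β)
    (hφ : ∀ x ∈ S, φ x ∈ T) (g : Fin 3 → α → ℝ)
    (hin : ∀ t ∈ T, Star (S.filter (fun x => φ x = t)) g)
    (hbt : between S φ T (fun x => ∑ p, g p x) ≤ 2 * ∑ p, between S φ T (g p)) :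
    Star S g := by
  unfold Star
  rw [var_eq_within_add_between S φ T hφ]
  have h1 : ∑ t ∈ T, var (S.filter (fun x => φ x = t)) (fun x => ∑ p, g p x)
      ≤ ∑ t ∈ T, 2 * ∑ p, var (S.filter (fun x => φ x = t)) (g p) :=
    Finset.sum_le_sum (fun t ht => hin t ht)
  have h2 : ∑ p, var S (g p)
      = ∑ p, ∑ t ∈ T, var (S.filter (fun x => φ x = t)) (g p) + ∑ p, between S φ T (g p) := by
    rw [← Finset.sum_add_distrib]
    exact Finset.sum_congr rfl (fun p _ => var_eq_within_add_between S φ T hφ (g p))
  rw [h2, mul_add]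
  have h3 : ∑ t ∈ T, 2 * ∑ p, var (S.filter (fun x => φ x = t)) (g p)
      = 2 * ∑ p, ∑ t ∈ T, var (S.filter (fun x => φ x = t)) (g p) := by
    rw [← Finset.mul_sum, Finset.sum_comm]
  linarith

/-- Transport of the star inequality along an injective map. -/
theorem star_image [DecidableEq β] {S : Finset α} {φ : α → β} (hφ : Set.InjOn φ S)
    (g : Fin 3 → β → ℝ) (h : Star S (fun p x => g p (φ x))) : Star (S.image φ) g := by
  unfold Star at *
  rw [var_image hφ]
  simp only [var_image hφ]
  exact h

end Vale.Agent.Lib.P335
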